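import Vale.Agent.ThorpO.Star

/-!
# P162: the Benes matrix is `B * Bᵀ` for the pass matrix `B`
-/

namespace Vale.Agent.ThorpO

open Equiv Finset

section ind

variable {X : Type*} [Fintype X] [DecidableEq X] {k : ℕ}

/-- Indicator that `g` moves the cards from `x` to `y`. -/
noncomputable def ind (g : Perm X) (x y : Fin k ↪ X) : ℝ := if ∀ c, g (x c) = y c then 1 else 0

omit [Fintype X] in
theorem ind_eq (g : Perm X) (x y : Fin k ↪ X) :
    ind g x y = if y = x.trans g.toEmbedding then 1 else 0 := by
  unfold ind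
  refine if_congr ⟨fun h => ?_, fun h => ?_⟩ rfl rfl
  · ext c; exact (h c).symm
  · intro c; rw [h]; rfl

theorem ind_mul (g h : Perm X) (x y : Fin k ↪ X) :
    ind (g * h) x y = ∑ u, ind h x u * ind g u y := by
  rw [Finset.sum_eq_single (x.trans h.toEmbedding)]
  · rw [ind_eq h, if_pos rfl, one_mul]
    rfl
  · intro u _ hu
    rw [ind_eq h, if_neg hu, zero_mul]
  · intro h; exact absurd (Finset.mem_univ _) h

omit [Fintype X] in
theorem ind_one (x y : Fin k ↪ X) : ind (1 : Perm X) x y = if x = y then 1 else 0 := by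
  unfold ind
  refine if_congr ⟨fun h => ?_, fun h => ?_⟩ rfl rfl
  · ext c; exact h c
  · intro c; rw [h]; rfl

omit [Fintype X] in
theorem ind_inv (g : Perm X) (x y : Fin k ↪ X) : ind g⁻¹ x y = ind g y x := by
  unfold ind
  refine if_congr (forall_congr' fun c => ?_) rfl rfl
  rw [Perm.inv_eq_iff_eq]
  exact eq_comm

end ind

theorem layM_eq (d k r : ℕ) (x y : Fin k ↪ Pos d) :
    layM d k r x y = av fun ω : Coins d => ind (lay r ω) x y := rfl

theorem benes_apply (d k r : ℕ) (x y : Fin k ↪ Pos d) :
    benes d k r x y = av fun ωi : Coins d => av fun ωo : Coins d => ind (net ωi ωo r) x y := rfl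

theorem layM_transpose (d k r : ℕ) : (layM d k r).transpose = layM d k r := by
  ext x y
  rw [Matrix.transpose_apply, layM_eq, layM_eq]
  refine av_congr fun ω => ?_
  rw [← ind_inv, lay_symm]

theorem benes_succ (d k r : ℕ) :
    benes d k (r + 1) = layM d k r * benes d k r * layM d k r := by
  ext x y
  rw [Matrix.mul_assoc, Matrix.mul_apply]
  have h1 : ∀ ωi ωo : Coins d, ind (net ωi ωo (r + 1)) x y =
      ∑ u, ind (lay r ωi) x u * ∑ w, ind (net ωi ωo r) u w * ind (lay r ωo) w y := by
    intro ωi ωo
    rw [net, ind_mul]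
    refine Finset.sum_congr rfl fun u _ => ?_
    rw [ind_mul]
  rw [benes_apply]
  simp only [h1]
  -- inner average
  have h2 : ∀ (ωi : Coins d) (u w : Fin k ↪ Pos d),
      av (fun ωo : Coins d => ind (net ωi ωo r) u w * ind (lay r ωo) w y) =
      av (fun ωo : Coins d => ind (net ωi ωo r) u w) * layM d k r w y := by
    intro ωi u w
    have h3 := av_mul_of_indep (lev d r) (F := fun ωo : Coins d => ind (lay r ωo) w y)
      (G := fun ωo : Coins d => ind (net ωi ωo r) u w)
      (fun ω' ω => by
        rw [lay_congr (fun z => coin_mix_eq r ω' ω z)])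
      (fun ω' ω => by
        rw [net_congr (fun _ _ _ => rfl) (fun l hl z => coin_mix_ne (by omega) ω' ω z)])
    rw [layM_eq, mul_comm, ← h3]
    exact av_congr fun ω => mul_comm _ _
  have h4 : ∀ ωi : Coins d, av (fun ωo : Coins d =>
      ∑ u, ind (lay r ωi) x u * ∑ w, ind (net ωi ωo r) u w * ind (lay r ωo) w y) =
      ∑ u, ∑ w, (ind (lay r ωi) x u * av (fun ωo : Coins d => ind (net ωi ωo r) u w)) *
        layM d k r w y := by
    intro ωi
    rw [av_sum]
    refine Finset.sum_congr rfl fun u _ => ?_
    rw [av_mul_left, av_sum, Finset.mul_sum]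
    refine Finset.sum_congr rfl fun w _ => ?_
    rw [h2]
    ring
  simp only [h4]
  rw [av_sum]
  refine Finset.sum_congr rfl fun u _ => ?_
  rw [av_sum, Matrix.mul_apply, Finset.mul_sum]
  refine Finset.sum_congr rfl fun w _ => ?_
  rw [av_mul_right]
  have h5 := av_mul_of_indep (lev d r) (F := fun ωi : Coins d => ind (lay r ωi) x u)
    (G := fun ωi : Coins d => av (fun ωo : Coins d => ind (net ωi ωo r) u w))
    (fun ω' ω => by
      rw [lay_congr (fun z => coin_mix_eq r ω' ω z)])
    (fun ω' ω => by
      refine av_congr fun ωo => ?_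
      rw [net_congr (fun l hl z => coin_mix_ne (by omega) ω' ω z) (fun _ _ _ => rfl)])
  rw [h5, ← layM_eq, ← benes_apply]
  ring

/-- The Benes matrix is `B * Bᵀ` for the pass matrix `B`. -/
theorem benes_eq (d k r : ℕ) :
    benes d k r = passM d k r * (passM d k r).transpose := by
  induction r with
  | zero =>
    rw [passM, Matrix.transpose_one, Matrix.mul_one]
    ext x y
    rw [benes_apply]
    simp only [net, ind_one, av_const]
    rw [Matrix.one_apply]
  | succ r ih =>
    rw [benes_succ, ih, passM, Matrix.transpose_mul, layM_transpose]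
    simp only [Matrix.mul_assoc]

end Vale.Agent.ThorpO
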