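import Vale.Agent.ThorpO.FFs
import Vale.Agent.ThorpO.BenesEq

/-!
# P162: the pass operator and the matrices of the transition probabilities
-/

open scoped InnerProductSpace
open Equiv Finset

namespace Vale.Agent.ThorpO

open Thorp Thorp.PD

/-! ### The average over the coins of one layer -/

section layer

variable {m : ℕ}

/-- Pointwise xor of coins. -/
def xorC (ω ω' : Coins m) : Coins m := fun p => xor (ω p) (ω' p)

theorem coin_xorC (ω ω' : Coins m) {r : ℕ} (z : Pos m) :
    coin (xorC ω ω') r z = xor (coin ω r z) (coin ω' r z) := by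
  unfold coin xorC
  by_cases h : r < m
  · simp [h]
  · simp [h]

theorem lay_xorC (ω ω' : Coins m) (r : ℕ) : lay r (xorC ω ω') = lay r ω * lay r ω' := by
  ext1 z
  rw [Perm.mul_apply, lay_apply r ω, clr_lay, lay_apply, lay_apply, coin_xorC]
  by_cases h : coin ω r (clr r z) = true
  · by_cases h' : coin ω' r (clr r z) = true
    · simp [h, h', fl_fl]
    · simp [h, h']
  · by_cases h' : coin ω' r (clr r z) = true
    · simp [h, h']
    · simp [h, h']

theorem lay_mul_lay (ω : Coins m) (r : ℕ) : lay r ω * lay r ω = 1 := by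
  ext1 z
  exact layF_layF r ω z

theorem lay_mem_GT (ω : Coins m) (r : ℕ) : lay r ω ∈ GT (fl r : Pos m → Pos m) := by
  rw [mem_GT]
  intro z
  rw [lay_apply]
  by_cases h : coin ω r (clr r z) = true
  · rw [if_pos h]; right; rfl
  · rw [if_neg h]; left; rfl

theorem exists_coins {r : ℕ} (hr : r < m) {g : Perm (Pos m)} (hg : g ∈ GT (fl r : Pos m → Pos m)) :
    ∃ ω : Coins m, lay r ω = g := by
  rw [mem_GT] at hg
  refine ⟨fun p => decide (g p.2 = fl r p.2), ?_⟩
  ext1 z
  rw [lay_apply]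
  have h1 : coin (fun p : Fin m × Pos m => decide (g p.2 = fl r p.2)) r (clr r z) =
      decide (g (clr r z) = fl r (clr r z)) := by
    simp [coin, hr]
  rw [h1]
  rcases eq_or_eq_fl_of_clr (z := z) (w := clr r z) (r := r)
    (by funext i; by_cases h : i.val = r <;> simp [clr, h]) with h2 | h2
  · rw [← h2]
    by_cases h3 : g z = fl r z
    · simp [h3]
    · rcases hg z with h4 | h4
      · rw [if_neg (by simpa using h3)]
        exact h4.symm
      · exact absurd h4 h3
  · have h5 : fl r z = clr r z := by rw [h2, fl_fl]; exact congrArg _ h2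
    have h6 : fl r (clr r z) = z := h2.symm
    rw [h6]
    by_cases h3 : g (clr r z) = z
    · have h7 : g z ≠ z := by
        intro h8
        have h9 := g.injective (h8.trans h3.symm)
        exact fl_ne hr (h5.trans h9.symm)
      rcases hg z with h4 | h4
      · exact absurd h4 h7
      · simp [h3, h4]
    · have h8 : g (clr r z) = clr r z := by
        rcases hg (clr r z) with h4 | h4
        · exact h4
        · rw [h6] at h4; exact absurd h4 h3
      have h9 : g z ≠ fl r z := by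
        intro h10
        rw [h5, ← h8] at h10
        have h11 := g.injective h10
        exact fl_ne hr (h5.trans h11.symm)
      rcases hg z with h4 | h4
      · simp [h3, h4]
      · exact absurd h4 h9

variable {V : Type*} [NormedAddCommGroup V] [InnerProductSpace ℝ V]

theorem sum_coins_mul (ρ : Perm (Pos m) →* (V →L[ℝ] V)) (r : ℕ) (ω0 : Coins m) :
    ∑ ω : Coins m, ρ (lay r ω0 * lay r ω) = ∑ ω : Coins m, ρ (lay r ω) := by
  refine Finset.sum_bij' (fun ω _ => xorC ω0 ω) (fun ω _ => xorC ω0 ω) ?_ ?_ ?_ ?_ ?_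
  · intro ω _; exact Finset.mem_univ _
  · intro ω _; exact Finset.mem_univ _
  · intro ω _; funext p; simp [xorC]
  · intro ω _; funext p; simp [xorC]
  · intro ω _; rw [lay_xorC]

theorem GT_mul_lay {r : ℕ} {g : Perm (Pos m)} (hg : g ∈ GT (fl r : Pos m → Pos m)) (ω : Coins m) :
    g * lay r ω ∈ GT (fl r : Pos m → Pos m) := by
  rw [mem_GT] at hg ⊢
  intro z
  rw [Perm.mul_apply, lay_apply]
  by_cases h : coin ω r (clr r z) = true
  · rw [if_pos h]
    rcases hg (fl r z) with h1 | h1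
    · right; exact h1
    · left; rw [h1, fl_fl]
  · rw [if_neg h]; exact hg z

theorem sum_GT_mul (ρ : Perm (Pos m) →* (V →L[ℝ] V)) (r : ℕ) (ω : Coins m) :
    ∑ g ∈ GT (fl r : Pos m → Pos m), ρ (g * lay r ω) = ∑ g ∈ GT (fl r : Pos m → Pos m), ρ g := by
  refine Finset.sum_bij' (fun g _ => g * lay r ω) (fun g _ => g * lay r ω) ?_ ?_ ?_ ?_ ?_
  · intro g hg; exact GT_mul_lay hg ω
  · intro g hg; exact GT_mul_lay hg ω
  · intro g _
    show g * lay r ω * lay r ω = g
    rw [mul_assoc, lay_mul_lay, mul_one]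
  · intro g _
    show g * lay r ω * lay r ω = g
    rw [mul_assoc, lay_mul_lay, mul_one]
  · intro g _; rfl

theorem mat_eq_coins {r : ℕ} (hr : r < m) (ρ : Perm (Pos m) →* (V →L[ℝ] V)) :
    mat ρ (fl r : Pos m → Pos m) =
      ((Fintype.card (Coins m) : ℝ))⁻¹ • ∑ ω : Coins m, ρ (lay r ω) := by
  have h0 : ∀ g ∈ GT (fl r : Pos m → Pos m), ∑ ω : Coins m, ρ (g * lay r ω) =
      ∑ ω : Coins m, ρ (lay r ω) := by
    intro g hg
    obtain ⟨ω0, h0⟩ := exists_coins hr hg
    rw [← h0]
    exact sum_coins_mul ρ r ω0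
  have h1 : ∑ g ∈ GT (fl r : Pos m → Pos m), ∑ ω : Coins m, ρ (g * lay r ω) =
      ((GT (fl r : Pos m → Pos m)).card : ℝ) • ∑ ω : Coins m, ρ (lay r ω) := by
    rw [Finset.sum_congr rfl h0, Finset.sum_const, ← Nat.cast_smul_eq_nsmul ℝ]
  have h2 : ∑ ω : Coins m, ∑ g ∈ GT (fl r : Pos m → Pos m), ρ (g * lay r ω) =
      (Fintype.card (Coins m) : ℝ) • ∑ g ∈ GT (fl r : Pos m → Pos m), ρ g := by
    rw [Finset.sum_congr rfl fun ω _ => sum_GT_mul ρ r ω, Finset.sum_const, Finset.card_univ,
      ← Nat.cast_smul_eq_nsmul ℝ]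
  rw [Finset.sum_comm, h1] at h2
  have h3 : (0 : ℝ) < (GT (fl r : Pos m → Pos m)).card := by
    have : 0 < (GT (fl r : Pos m → Pos m)).card :=
      Finset.card_pos.2 ⟨_, lay_mem_GT (fun _ => false) r⟩
    exact_mod_cast this
  have h4 : (0 : ℝ) < Fintype.card (Coins m) := card_coins_pos
  unfold mat
  rw [inv_smul_eq_iff₀ h3.ne', smul_comm, h2, inv_smul_smul₀ h4.ne']

end layer

/-! ### Action on the indicator functions -/

section action

variable {m j : ℕ}

theorem mat_G {r : ℕ} (hr : r < m) (x y : Fin j ↪ Pos m) :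
    mat (reg (Pos m)) (fl r) (G x y) = ∑ x', layM m j r x x' • G x' y := by
  rw [mat_eq_coins hr]
  have h1 : (((Fintype.card (Coins m) : ℝ))⁻¹ • ∑ ω : Coins m, reg (Pos m) (lay r ω)) (G x y) =
      ((Fintype.card (Coins m) : ℝ))⁻¹ • ∑ ω : Coins m, G (mv (lay r ω) x) y := by
    rw [smul_apply, _root_.sum_apply]
    congr 1
    exact Finset.sum_congr rfl fun ω _ => reg_G _ _ _
  rw [h1]
  have h2 : ∀ ω : Coins m, G (mv (lay r ω) x) y = ∑ x', ind (lay r ω) x x' • G x' y := by
    intro ω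
    rw [Finset.sum_eq_single (mv (lay r ω) x)]
    · rw [ind_eq]
      unfold mv
      rw [if_pos rfl, one_smul]
    · intro x' _ hx'
      rw [ind_eq]
      unfold mv at hx'
      rw [if_neg hx', zero_smul]
    · intro h; exact absurd (Finset.mem_univ _) h
  rw [Finset.sum_congr rfl fun ω _ => h2 ω, Finset.sum_comm, Finset.smul_sum]
  refine Finset.sum_congr rfl fun x' _ => ?_
  rw [← Finset.sum_smul, smul_smul, layM_eq]
  unfold av
  congr 1
  rw [div_eq_inv_mul]

theorem passR_G {r : ℕ} (hr : r ≤ m) (x y : Fin j ↪ Pos m) :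
    passR (reg (Pos m)) r (G x y) = ∑ x', passM m j r x x' • G x' y := by
  induction r generalizing x with
  | zero =>
    rw [passR, passM, Finset.sum_eq_single x]
    · rw [Matrix.one_apply_eq, one_smul]; rfl
    · intro x' _ hx'
      rw [Matrix.one_apply_ne (Ne.symm hx'), zero_smul]
    · intro h; exact absurd (Finset.mem_univ _) h
  | succ r ih =>
    rw [passR, passM, mul_apply_eq_comp, mat_G (by omega), map_sum]
    simp only [map_smul, ih (by omega), Finset.smul_sum, smul_smul]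
    rw [Finset.sum_comm]
    refine Finset.sum_congr rfl fun x' _ => ?_
    rw [← Finset.sum_smul, Matrix.mul_apply]

/-- Powers of the pass operator on the indicator functions. -/
theorem PP_pow_G (t : ℕ) (x y : Fin j ↪ Pos m) :
    ((PP m) ^ t) (G x y) = ∑ x', ((passM m j m) ^ t) x x' • G x' y := by
  induction t generalizing x with
  | zero =>
    rw [pow_zero, pow_zero, Finset.sum_eq_single x]
    · rw [Matrix.one_apply_eq, one_smul]; rfl
    · intro x' _ hx'
      rw [Matrix.one_apply_ne (Ne.symm hx'), zero_smul]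
    · intro h; exact absurd (Finset.mem_univ _) h
  | succ t ih =>
    rw [pow_succ, pow_succ', mul_apply_eq_comp]
    have h1 : PP m (G x y) = ∑ x', passM m j m x x' • G x' y := passR_G le_rfl x y
    rw [h1, map_sum]
    simp only [map_smul, ih, Finset.smul_sum, smul_smul]
    rw [Finset.sum_comm]
    refine Finset.sum_congr rfl fun x' _ => ?_
    rw [← Finset.sum_smul, Matrix.mul_apply]

theorem norm_PP_pow_G (t : ℕ) (x y : Fin j ↪ Pos m) :
    ‖((PP m) ^ t) (G x y)‖ ^ 2 =
      fc (Pos m) j * ∑ x', ((passM m j m) ^ t) x x' ^ 2 := by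
  rw [PP_pow_G, norm_sum_G]

end action

/-! ### Adjoints and invariant subspaces -/

section adj

variable {V : Type*} [NormedAddCommGroup V] [InnerProductSpace ℝ V] {m : ℕ}

theorem mat_symm {r : ℕ} (hr : r < m) {ρ : Perm (Pos m) →* (V →L[ℝ] V)} (hρ : IsOrth ρ)
    (v w : V) : ⟪mat ρ (fl r : Pos m → Pos m) v, w⟫_ℝ = ⟪v, mat ρ (fl r : Pos m → Pos m) w⟫_ℝ := by
  rw [mat_eq_coins hr]
  simp only [smul_apply, _root_.sum_apply, real_inner_smul_left,
    real_inner_smul_right, sum_inner, inner_sum]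
  congr 1
  refine Finset.sum_congr rfl fun ω _ => ?_
  rw [← inner_rho hρ (lay r ω) v (ρ (lay r ω) w)]
  congr 1
  have : (ρ (lay r ω) * ρ (lay r ω)) w = w := by
    rw [← map_mul, lay_mul_lay, map_one]; rfl
  exact this.symm

/-- The adjoint of `passR`. -/
noncomputable def passA (ρ : Perm (Pos m) →* (V →L[ℝ] V)) : ℕ → (V →L[ℝ] V)
  | 0 => 1
  | r + 1 => mat ρ (fl r) * passA ρ r

theorem passR_adj {r : ℕ} (hr : r ≤ m) {ρ : Perm (Pos m) →* (V →L[ℝ] V)} (hρ : IsOrth ρ)
    (v w : V) : ⟪passR ρ r v, w⟫_ℝ = ⟪v, passA ρ r w⟫_ℝ := by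
  induction r generalizing v with
  | zero => rfl
  | succ r ih =>
    rw [passR, passA, mul_apply_eq_comp, mul_apply_eq_comp,
      ih (by omega), mat_symm (by omega) hρ]

theorem mat_mem {X : Type*} [Fintype X] [DecidableEq X] {ρ : Perm X →* (V →L[ℝ] V)}
    {N : Submodule ℝ V} (hN : ∀ g, ∀ v ∈ N, ρ g v ∈ N) (τ : X → X) {v : V} (hv : v ∈ N) :
    mat ρ τ v ∈ N := by
  unfold mat
  rw [smul_apply, _root_.sum_apply]
  exact N.smul_mem _ (N.sum_mem fun g _ => hN g v hv)

theorem passR_mem {ρ : Perm (Pos m) →* (V →L[ℝ] V)} {N : Submodule ℝ V}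
    (hN : ∀ g, ∀ v ∈ N, ρ g v ∈ N) (r : ℕ) {v : V} (hv : v ∈ N) : passR ρ r v ∈ N := by
  induction r generalizing v with
  | zero => exact hv
  | succ r ih => exact ih (mat_mem hN _ hv)

theorem passA_mem {ρ : Perm (Pos m) →* (V →L[ℝ] V)} {N : Submodule ℝ V}
    (hN : ∀ g, ∀ v ∈ N, ρ g v ∈ N) (r : ℕ) {v : V} (hv : v ∈ N) : passA ρ r v ∈ N := by
  induction r generalizing v with
  | zero => exact hv
  | succ r ih => exact mat_mem hN _ (ih hv)

theorem PP_pow_mem {N : Submodule ℝ (EuclideanSpace ℝ (Perm (Pos m)))}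
    (hN : ∀ g, ∀ v ∈ N, reg (Pos m) g v ∈ N) (t : ℕ) {v : EuclideanSpace ℝ (Perm (Pos m))}
    (hv : v ∈ N) : ((PP m) ^ t) v ∈ N := by
  induction t generalizing v with
  | zero => exact hv
  | succ t ih =>
    rw [pow_succ]
    exact ih (passR_mem hN m hv)

theorem PP_pow_mem_W (t b : ℕ) {v : EuclideanSpace ℝ (Perm (Pos m))} (hv : v ∈ W (Pos m) b) :
    ((PP m) ^ t) v ∈ W (Pos m) b := PP_pow_mem (fun g _ hv => reg_W g b hv) t hv

theorem PP_pow_mem_W_orth (t b : ℕ) {v : EuclideanSpace ℝ (Perm (Pos m))}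
    (hv : v ∈ (W (Pos m) b)ᗮ) : ((PP m) ^ t) v ∈ (W (Pos m) b)ᗮ :=
  PP_pow_mem (fun g _ hv => reg_W_orth g b hv) t hv

/-- Matrix elements of the pass operator. -/
theorem passR_inner {r j : ℕ} (hr : r ≤ m) (v : EuclideanSpace ℝ (Perm (Pos m)))
    (x' y : Fin j ↪ Pos m) :
    ⟪passR (reg (Pos m)) r v, G x' y⟫_ℝ = ∑ x, passM m j r x x' * ⟪v, G x y⟫_ℝ := by
  induction r generalizing v with
  | zero =>
    rw [passR, passM, Finset.sum_eq_single x']
    · rw [Matrix.one_apply_eq, one_mul]; rfl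
    · intro x _ hx
      rw [Matrix.one_apply_ne hx, zero_mul]
    · intro h; exact absurd (Finset.mem_univ _) h
  | succ r ih =>
    rw [passR, passM, mul_apply_eq_comp, ih (by omega)]
    simp only [mat_symm (show r < m by omega) (reg_orth (Pos m)), mat_G (show r < m by omega),
      inner_sum, real_inner_smul_right, Finset.mul_sum]
    rw [Finset.sum_comm]
    refine Finset.sum_congr rfl fun x _ => ?_
    rw [Matrix.mul_apply, Finset.sum_mul]
    refine Finset.sum_congr rfl fun u _ => ?_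
    have h1 : layM m j r u x = layM m j r x u := by
      conv_lhs => rw [← layM_transpose, Matrix.transpose_apply]
    rw [h1]
    ring

end adj

end Vale.Agent.ThorpO
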