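import Mathlib

/-!
# P162, `t_mix (2 ^ d) = O(d)`: a trace inequality
-/

namespace Vale.Agent.ThorpO

open Matrix

variable {n : Type*} [Fintype n] [DecidableEq n]

theorem mul_pow_swap (X Y : Matrix n n ℝ) (m : ℕ) : (X * Y) ^ (m + 1) = X * (Y * X) ^ m * Y := by
  induction m with
  | zero => simp
  | succ m ih =>
    rw [pow_succ, ih, pow_succ (Y * X) m]
    simp only [Matrix.mul_assoc]

theorem trace_pow_swap (X Y : Matrix n n ℝ) (m : ℕ) :
    ((X * Y) ^ m).trace = ((Y * X) ^ m).trace := by
  cases m with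
  | zero => simp
  | succ m =>
    rw [mul_pow_swap, Matrix.trace_mul_comm, ← Matrix.mul_assoc, pow_succ']

/-- pairing up a list -/
theorem pair_up (m : ℕ) : ∀ l : List (Matrix n n ℝ), l.length = 2 * m →
    ∃ l' : List (Matrix n n ℝ), l'.length = m ∧ l'.prod = l.prod ∧
      ∀ C ∈ l', ∃ A ∈ l, ∃ A' ∈ l, C = A * A' := by
  induction m with
  | zero =>
    intro l hl
    have : l = [] := List.length_eq_zero_iff.1 (by omega)
    subst this
    exact ⟨[], rfl, rfl, fun C hC => absurd hC List.not_mem_nil⟩
  | succ m ih =>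
    intro l hl
    match l, hl with
    | A :: A' :: t, hl =>
      obtain ⟨l', h1, h2, h3⟩ := ih t (by simp only [List.length_cons] at hl; omega)
      refine ⟨(A * A') :: l', by simp [h1], ?_, ?_⟩
      · rw [List.prod_cons, h2, List.prod_cons, List.prod_cons, Matrix.mul_assoc]
      · intro C hC
        rcases List.mem_cons.1 hC with h | h
        · exact ⟨A, by simp, A', by simp, h⟩
        · obtain ⟨B, hB, B', hB', hC'⟩ := h3 C h
          exact ⟨B, by simp [hB], B', by simp [hB'], hC'⟩
    | [_], hl => exact absurd hl (by simp only [List.length_cons, List.length_nil]; omega)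
    | [], hl => exact absurd hl (by simp only [List.length_nil]; omega)

/-- alternating list -/
theorem alt_list (P Q : Matrix n n ℝ) (m : ℕ) :
    ∃ l : List (Matrix n n ℝ), l.length = 2 * m ∧ l.prod = (P * Q) ^ m ∧
      ∀ X ∈ l, X = P ∨ X = Q := by
  induction m with
  | zero => exact ⟨[], rfl, by simp, fun C hC => absurd hC List.not_mem_nil⟩
  | succ m ih =>
    obtain ⟨l, h1, h2, h3⟩ := ih
    refine ⟨P :: Q :: l, by simp only [List.length_cons]; omega, ?_, ?_⟩
    · rw [List.prod_cons, List.prod_cons, h2, pow_succ', Matrix.mul_assoc]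
    · intro X hX
      rcases List.mem_cons.1 hX with h | h
      · exact Or.inl h
      · rcases List.mem_cons.1 h with h | h
        · exact Or.inr h
        · exact h3 X h

omit [DecidableEq n] in
theorem trace_two (A B : Matrix n n ℝ) (c : ℝ) (hA : (A.transpose * A).trace ≤ c)
    (hB : (B.transpose * B).trace ≤ c) : |(A * B).trace| ≤ c := by
  have hsq : ∀ C : Matrix n n ℝ, (C.transpose * C).trace = ∑ x, ∑ y, (C x y) ^ 2 := by
    intro C
    rw [Matrix.trace, Finset.sum_comm]
    refine Finset.sum_congr rfl fun y _ => ?_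
    rw [Matrix.diag_apply, Matrix.mul_apply]
    exact Finset.sum_congr rfl fun x _ => by rw [Matrix.transpose_apply, pow_two]
  have hAB : (A * B).trace = ∑ x, ∑ y, A x y * B y x := by
    rw [Matrix.trace]
    exact Finset.sum_congr rfl fun x _ => by rw [Matrix.diag_apply, Matrix.mul_apply]
  rw [hsq] at hA hB
  rw [Finset.sum_comm] at hB
  have key : ∀ x y, |A x y * B y x| ≤ ((A x y) ^ 2 + (B y x) ^ 2) / 2 := by
    intro x y
    rw [abs_le]
    constructor <;> nlinarith [sq_nonneg (A x y - B y x), sq_nonneg (A x y + B y x)]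
  rw [hAB]
  calc |∑ x, ∑ y, A x y * B y x| ≤ ∑ x, |∑ y, A x y * B y x| := Finset.abs_sum_le_sum_abs _ _
    _ ≤ ∑ x, ∑ y, |A x y * B y x| :=
        Finset.sum_le_sum fun x _ => Finset.abs_sum_le_sum_abs _ _
    _ ≤ ∑ x, ∑ y, ((A x y) ^ 2 + (B y x) ^ 2) / 2 :=
        Finset.sum_le_sum fun x _ => Finset.sum_le_sum fun y _ => key x y
    _ = (∑ x, ∑ y, (A x y) ^ 2 + ∑ x, ∑ y, (B y x) ^ 2) / 2 := by
        rw [← Finset.sum_add_distrib, Finset.sum_div]
        refine Finset.sum_congr rfl fun x _ => ?_
        rw [← Finset.sum_add_distrib, Finset.sum_div]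
    _ ≤ c := by linarith

theorem schatten_list (i : ℕ) : ∀ (c : ℝ) (l : List (Matrix n n ℝ)), l.length = 2 ^ (i + 1) →
    (∀ A ∈ l, ((A.transpose * A) ^ (2 ^ i)).trace ≤ c) → |l.prod.trace| ≤ c := by
  induction i with
  | zero =>
    intro c l hl h
    match l, hl with
    | [A, B], _ =>
      have hA := h A (by simp)
      have hB := h B (by simp)
      simp only [pow_zero, pow_one] at hA hB
      simpa using trace_two A B c hA hB
    | [], hl => exact absurd hl (by simp)
    | [_], hl => exact absurd hl (by simp)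
    | _ :: _ :: _ :: _, hl =>
      simp only [List.length_cons] at hl
      omega
  | succ i ih =>
    intro c l hl h
    obtain ⟨l', h1, h2, h3⟩ := pair_up (2 ^ (i + 1)) l (by rw [hl, pow_succ 2 (i + 1)]; ring)
    rw [← h2]
    refine ih c l' h1 fun C hC => ?_
    obtain ⟨A, hA, A', hA', rfl⟩ := h3 C hC
    set P := A.transpose * A with hP
    set Q := A' * A'.transpose with hQ
    have hPs : P.transpose = P := by rw [hP, Matrix.transpose_mul, Matrix.transpose_transpose]
    have hQs : Q.transpose = Q := by rw [hQ, Matrix.transpose_mul, Matrix.transpose_transpose]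
    have e1 : ((A * A').transpose * (A * A')) = A'.transpose * (P * A') := by
      rw [Matrix.transpose_mul, hP]
      simp only [Matrix.mul_assoc]
    have e2 : (((A * A').transpose * (A * A')) ^ (2 ^ i)).trace = ((P * Q) ^ (2 ^ i)).trace := by
      rw [e1, trace_pow_swap, Matrix.mul_assoc, ← hQ]
    rw [e2]
    obtain ⟨lq, g1, g2, g3⟩ := alt_list P Q (2 ^ i)
    rw [← g2]
    refine (le_abs_self _).trans (ih c lq (by rw [g1, pow_succ]; ring) fun X hX => ?_)
    have hcP : ((P * P) ^ (2 ^ i)).trace ≤ c := by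
      have : (P * P) ^ (2 ^ i) = P ^ (2 ^ (i + 1)) := by
        rw [← pow_two, ← pow_mul]; congr 1; rw [pow_succ]; ring
      rw [this]
      exact h A hA
    have hcQ : ((Q * Q) ^ (2 ^ i)).trace ≤ c := by
      have : (Q * Q) ^ (2 ^ i) = Q ^ (2 ^ (i + 1)) := by
        rw [← pow_two, ← pow_mul]; congr 1; rw [pow_succ]; ring
      rw [this, hQ, trace_pow_swap]
      exact h A' hA'
    rcases g3 X hX with h' | h' <;> rw [h']
    · rw [hPs]; exact hcP
    · rw [hQs]; exact hcQ

theorem schatten (B : Matrix n n ℝ) (i : ℕ) :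
    ∑ x, ∑ y, ((B ^ (2 ^ i)) x y) ^ 2 ≤ ((B * B.transpose) ^ (2 ^ i)).trace := by
  have h := schatten_list i (((B * B.transpose) ^ (2 ^ i)).trace)
    (List.replicate (2 ^ i) B ++ List.replicate (2 ^ i) B.transpose)
    (by rw [List.length_append, List.length_replicate, List.length_replicate, pow_succ]; ring)
    (by
      intro A hA
      rcases List.mem_append.1 hA with h | h
      · rw [List.eq_of_mem_replicate h, trace_pow_swap]
      · rw [List.eq_of_mem_replicate h, Matrix.transpose_transpose])
  rw [List.prod_append, List.prod_replicate, List.prod_replicate] at h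
  refine le_trans (le_of_eq ?_) ((le_abs_self _).trans h)
  rw [← Matrix.transpose_pow, Matrix.trace]
  refine Finset.sum_congr rfl fun x _ => ?_
  rw [Matrix.diag_apply, Matrix.mul_apply]
  exact Finset.sum_congr rfl fun y _ => by rw [Matrix.transpose_apply, pow_two]

end Vale.Agent.ThorpO
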