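import Vale.Agent.ThorpO.AlphaA2
import Vale.Agent.ThorpO.Link
import Vale.Agent.ThorpO.Schatten

/-!
# P162, part ALPHA (A3): levels and traces
-/

open scoped InnerProductSpace

namespace Vale.Agent.ThorpO

open Equiv Finset Vale.Agent.Thorp Vale.Agent.Thorp.PD

section level

variable {X : Type} [Fintype X] [DecidableEq X]

theorem uni_mem [Nonempty X] (b : ℕ) : uni X ∈ W X b := by
  obtain ⟨x⟩ := ‹Nonempty X›
  refine A2.RInv.mem (y := fun _ => x) fun h _ => ?_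
  ext σ
  rw [rt_apply]
  rfl

theorem QQ_nonneg (b : ℕ) (v : EuclideanSpace ℝ (Perm X)) : 0 ≤ ⟪v, A2.QQ X b v⟫_ℝ := by
  rw [A2.inner_QQ]
  exact Finset.sum_nonneg fun x _ => Finset.sum_nonneg fun y _ => mul_self_nonneg _

theorem QQ_mono {b : ℕ} {u w : EuclideanSpace ℝ (Perm X)} (h : ⟪u - w, A2.QQ X b w⟫_ℝ = 0) :
    ⟪w, A2.QQ X b w⟫_ℝ ≤ ⟪u, A2.QQ X b u⟫_ℝ := by
  have h1 : u = w + (u - w) := by abel
  have h2 : ⟪w, A2.QQ X b (u - w)⟫_ℝ = 0 := by
    rw [← A2.QQ_symm b w (u - w), real_inner_comm]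
    exact h
  have h3 := QQ_nonneg b (u - w)
  have h4 : ⟪u, A2.QQ X b u⟫_ℝ = ⟪w, A2.QQ X b w⟫_ℝ + ⟪w, A2.QQ X b (u - w)⟫_ℝ +
      ⟪u - w, A2.QQ X b w⟫_ℝ + ⟪u - w, A2.QQ X b (u - w)⟫_ℝ := by
    conv_lhs => rw [h1]
    rw [map_add, inner_add_left, inner_add_right, inner_add_right]
    ring
  rw [h4, h2, h]
  linarith

theorem inner_QQ_self (b : ℕ) (v : EuclideanSpace ℝ (Perm X)) :
    ⟪v, A2.QQ X b v⟫_ℝ = ∑ y : Fin b ↪ X, ∑ x : Fin b ↪ X, ⟪v, G x y⟫_ℝ ^ 2 := by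
  rw [A2.inner_QQ, Finset.sum_comm]
  refine Finset.sum_congr rfl fun y _ => Finset.sum_congr rfl fun x _ => ?_
  rw [real_inner_comm v, sq]
  rfl

theorem level_abs [Nonempty X] (T : EuclideanSpace ℝ (Perm X) →L[ℝ] EuclideanSpace ℝ (Perm X))
    (hT : ∀ b, ∀ v ∈ W X b, T v ∈ W X b) (hT' : ∀ b, ∀ v ∈ (W X b)ᗮ, T v ∈ (W X b)ᗮ) {j : ℕ}
    (hj : 1 ≤ j) (hjn : j ≤ Fintype.card X) (K : Matrix (Fin j ↪ X) (Fin j ↪ X) ℝ)
    (hK : ∀ x y, ⟪T (dlt X + uni X), G x y⟫_ℝ = K y x) :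
    ((Fintype.card X).factorial : ℝ) * ‖T (comp X (j - 1) - comp X j)‖ ^ 2 ≤
      ((Fintype.card X).choose j : ℝ) * ∑ y, ∑ x, (K y x) ^ 2 := by
  obtain ⟨b, rfl⟩ : ∃ b, j = b + 1 := ⟨j - 1, by omega⟩
  rw [Nat.add_sub_cancel]
  set u := T (dlt X + uni X) with hu
  set w := T (comp X b - comp X (b + 1)) with hw
  have hc : ∀ b, comp X b = dlt X - (W X b).starProjection (dlt X) := fun b => rfl
  have hle : W X b ≤ W X (b + 1) := W_le_succ b
  have hw1 : w ∈ W X (b + 1) := by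
    refine hT _ _ ?_
    have h1 : comp X b - comp X (b + 1) = (W X (b + 1)).starProjection (dlt X) -
        (W X b).starProjection (dlt X) := by
      rw [hc, hc]; abel
    rw [h1]
    exact Submodule.sub_mem _ (Submodule.starProjection_apply_mem _ _)
      (hle (Submodule.starProjection_apply_mem _ _))
  have hw2 : w ∈ (W X b)ᗮ := by
    refine hT' _ _ (Submodule.sub_mem _ (comp_mem b) ?_)
    exact Submodule.orthogonal_le hle (comp_mem (b + 1))
  have hQ1 : A2.QQ X (b + 1) w ∈ W X (b + 1) := A2.QQ_W _ _ hw1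
  have hQ2 : A2.QQ X (b + 1) w ∈ (W X b)ᗮ := A2.QQ_W_orth _ _ hw2
  have horth : ⟪u - w, A2.QQ X (b + 1) w⟫_ℝ = 0 := by
    have h1 : u - w = T ((W X b).starProjection (dlt X) + uni X) + T (comp X (b + 1)) := by
      rw [hu, hw, ← map_sub, ← map_add]
      congr 1
      rw [hc b]
      abel
    rw [h1, inner_add_left]
    have h2 : ⟪T ((W X b).starProjection (dlt X) + uni X), A2.QQ X (b + 1) w⟫_ℝ = 0 :=
      (Submodule.mem_orthogonal _ _).1 hQ2 _ (hT _ _ (Submodule.add_mem _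
        (Submodule.starProjection_apply_mem _ _) (uni_mem b)))
    have h3 : ⟪T (comp X (b + 1)), A2.QQ X (b + 1) w⟫_ℝ = 0 := by
      rw [real_inner_comm]
      exact (Submodule.mem_orthogonal _ _).1 (hT' _ _ (comp_mem (b + 1))) _ hQ1
    rw [h2, h3, add_zero]
  have h1 := A2.L_lower_aux hw1 hw2
  have h2 := h1.trans (QQ_mono horth)
  rw [inner_QQ_self] at h2
  simp only [hK] at h2
  have h3 : ((Fintype.card X).factorial : ℝ) = ((Fintype.card X).choose (b + 1) : ℝ) *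
      (((b + 1).factorial : ℝ) * ((Fintype.card X - (b + 1)).factorial : ℝ)) := by
    rw [← Nat.choose_mul_factorial_mul_factorial hjn]
    push_cast
    ring
  rw [h3, mul_assoc]
  exact mul_le_mul_of_nonneg_left h2 (Nat.cast_nonneg _)

theorem all_abs [Nonempty X] (T : EuclideanSpace ℝ (Perm X) →L[ℝ] EuclideanSpace ℝ (Perm X))
    (hT : ∀ b, ∀ v ∈ W X b, T v ∈ W X b) (hT' : ∀ b, ∀ v ∈ (W X b)ᗮ, T v ∈ (W X b)ᗮ) {j : ℕ}
    (hj : j = Fintype.card X) (K : Matrix (Fin j ↪ X) (Fin j ↪ X) ℝ)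
    (hK : ∀ x y, ⟪T (dlt X + uni X), G x y⟫_ℝ = K y x) (b : ℕ) :
    ((Fintype.card X).factorial : ℝ) * ‖T (comp X b)‖ ^ 2 ≤ ∑ y, ∑ x, (K y x) ^ 2 := by
  set u := T (dlt X + uni X) with hu
  have hc : comp X b = dlt X - (W X b).starProjection (dlt X) := rfl
  have h1 : u = T (comp X b) + T ((W X b).starProjection (dlt X) + uni X) := by
    rw [hu, ← map_add]
    congr 1
    rw [hc]
    abel
  have h2 : ‖T (comp X b)‖ ^ 2 ≤ ‖u‖ ^ 2 := by
    have h3 : ⟪T (comp X b), T ((W X b).starProjection (dlt X) + uni X)⟫_ℝ = 0 := by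
      rw [real_inner_comm]
      exact (Submodule.mem_orthogonal _ _).1 (hT' _ _ (comp_mem b)) _ (hT _ _
        (Submodule.add_mem _ (Submodule.starProjection_apply_mem _ _) (uni_mem b)))
    rw [h1, norm_add_sq_real, h3]
    have := sq_nonneg ‖T ((W X b).starProjection (dlt X) + uni X)‖
    linarith
  have h3 : ∀ y : Fin j ↪ X, ∑ x, (K y x) ^ 2 = ‖u‖ ^ 2 := by
    intro y
    have hy : A2.RInv y u := by
      intro h hh
      have hsurj : Function.Surjective y := by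
        have : Function.Bijective y := by
          rw [Fintype.bijective_iff_injective_and_card]
          exact ⟨y.injective, by rw [Fintype.card_fin, hj]⟩
        exact this.2
      have h1 : h = 1 := by
        ext z
        obtain ⟨i, rfl⟩ := hsurj z
        exact hh i
      rw [h1]
      ext σ
      rw [rt_apply]
      simp
    have h4 := A2.sq_sum_fibr hy
    have h5 : Fintype.card X - j = 0 := by omega
    rw [h5, Nat.factorial_zero, Nat.cast_one, one_mul] at h4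
    rw [← h4]
    refine Finset.sum_congr rfl fun x _ => ?_
    rw [← hK]
    rfl
  have h5 : ((univ : Finset (Fin j ↪ X)).card : ℝ) = ((Fintype.card X).factorial : ℝ) := by
    rw [Finset.card_univ, Fintype.card_embedding_eq, Fintype.card_fin, hj, Nat.descFactorial_self]
  rw [Finset.sum_congr rfl fun y _ => h3 y, Finset.sum_const, nsmul_eq_mul, h5]
  exact mul_le_mul_of_nonneg_left h2 (Nat.cast_nonneg _)

end level

theorem PP_pow_inner {m j : ℕ} (t : ℕ) (v : EuclideanSpace ℝ (Perm (Pos m)))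
    (x' y : Fin j ↪ Pos m) :
    ⟪((PP m) ^ t) v, G x' y⟫_ℝ = ∑ x, ((passM m j m) ^ t) x x' * ⟪v, G x y⟫_ℝ := by
  induction t generalizing v with
  | zero =>
    rw [pow_zero, pow_zero, Finset.sum_eq_single x']
    · rw [Matrix.one_apply_eq, one_mul]; rfl
    · intro x _ hx
      rw [Matrix.one_apply_ne hx, zero_mul]
    · intro h; exact absurd (Finset.mem_univ _) h
  | succ t ih =>
    have h1 : ((PP m) ^ (t + 1)) v = ((PP m) ^ t) (PP m v) := by
      rw [pow_succ]; rfl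
    rw [h1, ih]
    have h2 : ∀ x, ⟪PP m v, G x y⟫_ℝ = ∑ u, passM m j m u x * ⟪v, G u y⟫_ℝ := fun x =>
      passR_inner le_rfl v x y
    simp only [h2, Finset.mul_sum]
    rw [Finset.sum_comm]
    refine Finset.sum_congr rfl fun u _ => ?_
    rw [pow_succ', Matrix.mul_apply, Finset.sum_mul]
    refine Finset.sum_congr rfl fun x _ => ?_
    ring

theorem inner_pt {X : Type} [Fintype X] [DecidableEq X] {j : ℕ} (x y : Fin j ↪ X) :
    ⟪dlt X + uni X, G x y⟫_ℝ = if x = y then 1 else 0 := by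
  rw [show G x y = FF j (x, y) from rfl, A2.inner_FF]
  have h1 : ∀ σ : Perm X, (dlt X + uni X) σ = if σ = 1 then 1 else 0 := by
    intro σ
    change ((if σ = 1 then (1 : ℝ) else 0) - ((Fintype.card X).factorial : ℝ)⁻¹) +
      ((Fintype.card X).factorial : ℝ)⁻¹ = _
    ring
  rw [Finset.sum_congr rfl fun σ _ => h1 σ, Finset.sum_ite_eq']
  refine if_congr ⟨fun h => ?_, fun h => ?_⟩ rfl rfl
  · rw [A2.fibr, Finset.mem_filter] at h
    ext i
    exact (h.2 i).symm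
  · rw [A2.fibr, Finset.mem_filter, h]
    exact ⟨Finset.mem_univ _, fun i => rfl⟩

theorem PP_pow_inner_pt {m j : ℕ} (t : ℕ) (x y : Fin j ↪ Pos m) :
    ⟪((PP m) ^ t) (dlt (Pos m) + uni (Pos m)), G x y⟫_ℝ = ((passM m j m) ^ t) y x := by
  rw [PP_pow_inner, Finset.sum_eq_single y]
  · rw [inner_pt, if_pos rfl, mul_one]
  · intro x' _ hx'
    rw [inner_pt, if_neg hx', mul_zero]
  · intro h; exact absurd (Finset.mem_univ _) h

/-- A3 -/
theorem level_trace (m j : ℕ) (hj : 1 ≤ j) (hjm : j ≤ 2 ^ m) :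
    ((2 ^ m).factorial : ℝ) *
      ‖((PP m) ^ 1024) (Thorp.PD.comp (Pos m) (j - 1) - Thorp.PD.comp (Pos m) j)‖ ^ 2 ≤
      ((2 ^ m).choose j : ℝ) * ((benes m j m) ^ 1024).trace := by
  have hcard : Fintype.card (Pos m) = 2 ^ m := by simp
  have h := level_abs ((PP m) ^ 1024) (fun b v hv => PP_pow_mem_W 1024 b hv)
    (fun b v hv => PP_pow_mem_W_orth 1024 b hv) hj (by rw [hcard]; exact hjm)
    ((passM m j m) ^ 1024) (fun x y => PP_pow_inner_pt 1024 x y)
  rw [hcard] at h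
  refine h.trans (mul_le_mul_of_nonneg_left ?_ (Nat.cast_nonneg _))
  rw [benes_eq]
  exact schatten (passM m j m) 10

/-- A3' -/
theorem all_trace (m b : ℕ) :
    ((2 ^ m).factorial : ℝ) * ‖((PP m) ^ 1024) (Thorp.PD.comp (Pos m) b)‖ ^ 2 ≤
      ((benes m (2 ^ m) m) ^ 1024).trace := by
  have hcard : Fintype.card (Pos m) = 2 ^ m := by simp
  have h := all_abs ((PP m) ^ 1024) (fun b v hv => PP_pow_mem_W 1024 b hv)
    (fun b v hv => PP_pow_mem_W_orth 1024 b hv) hcard.symm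
    ((passM m (2 ^ m) m) ^ 1024) (fun x y => PP_pow_inner_pt 1024 x y) b
  rw [hcard] at h
  refine h.trans ?_
  rw [benes_eq]
  exact schatten (passM m (2 ^ m) m) 10

end Vale.Agent.ThorpO
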