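import Vale.Agent.Thorp.PartC

/-!
# P162: the elementary lower bound on the mixing time
-/

namespace Vale.Agent.ThorpO

open Equiv Finset Vale.Agent.Thorp

theorem lawPow_sum (h t : ℕ) : ∑ σ, lawPow h t σ = 1 := by
  induction t with
  | zero => simp [lawPow]
  | succ t ih =>
    simp only [lawPow]
    rw [Finset.sum_comm]
    have h1 : ∀ τ : Perm (Fin (2 * h)), ∑ σ, thorpLaw h τ * lawPow h t (τ⁻¹ * σ) =
        thorpLaw h τ := by
      intro τ
      rw [← Finset.mul_sum, Fintype.sum_equiv (Equiv.mulLeft τ⁻¹) (fun σ => lawPow h t (τ⁻¹ * σ))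
        (fun σ => lawPow h t σ) (fun σ => rfl), ih, mul_one]
    simp only [h1]
    exact thorpLaw_sum h

theorem exists_support (h t : ℕ) : ∃ S : Finset (Perm (Fin (2 * h))), S.card ≤ 2 ^ (h * t) ∧
    ∀ σ, σ ∉ S → lawPow h t σ = 0 := by
  classical
  induction t with
  | zero =>
    refine ⟨{1}, by simp, fun σ hσ => ?_⟩
    have : σ ≠ 1 := fun h => hσ (h ▸ Finset.mem_singleton_self _)
    simp [lawPow, this]
  | succ t ih =>
    obtain ⟨S, hS, h0⟩ := ih
    refine ⟨(univ ×ˢ S).image fun q : (Fin h → Bool) × Perm (Fin (2 * h)) => shuf h q.1 * q.2,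
      ?_, fun σ hσ => ?_⟩
    · refine Finset.card_image_le.trans ?_
      rw [Finset.card_product, Finset.card_univ, Fintype.card_fun, Fintype.card_bool,
        Fintype.card_fin, mul_add, mul_one, pow_add, mul_comm]
      exact Nat.mul_le_mul_right _ hS
    · simp only [lawPow]
      refine Finset.sum_eq_zero fun τ _ => ?_
      by_cases h1 : τ⁻¹ * σ ∈ S
      · have h2 : thorpLaw h τ = 0 := by
          unfold thorpLaw
          have : (univ.filter fun c : Fin h → Bool => shuf h c = τ) = ∅ := by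
            rw [Finset.filter_eq_empty_iff]
            intro c _ hc
            apply hσ
            refine Finset.mem_image.2 ⟨(c, τ⁻¹ * σ), ?_, ?_⟩
            · rw [Finset.mem_product]
              exact ⟨Finset.mem_univ _, h1⟩
            · change shuf h c * (τ⁻¹ * σ) = σ
              rw [hc, mul_inv_cancel_left]
          rw [this]
          simp
        rw [h2, zero_mul]
      · rw [h0 _ h1, mul_zero]

theorem tv_ge (h t : ℕ) : 1 - (2 : ℝ) ^ (h * t) / (2 * h).factorial ≤ tv h t := by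
  classical
  obtain ⟨S, hS, h0⟩ := exists_support h t
  have hN : (0 : ℝ) < (2 * h).factorial := by exact_mod_cast Nat.factorial_pos _
  have hcard : (Fintype.card (Perm (Fin (2 * h))) : ℝ) = (2 * h).factorial := by
    rw [Fintype.card_perm, Fintype.card_fin]
  set u : ℝ := ((2 * h).factorial : ℝ)⁻¹ with hu
  have hu0 : 0 < u := inv_pos.2 hN
  have h1 : ∑ σ ∈ S, (lawPow h t σ - u) + ∑ σ ∈ Sᶜ, u ≤
      ∑ σ : Perm (Fin (2 * h)), |lawPow h t σ - u| := by
    rw [← Finset.sum_add_sum_compl S]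
    refine add_le_add (Finset.sum_le_sum fun σ _ => le_abs_self _) (Finset.sum_le_sum fun σ hσ => ?_)
    rw [h0 σ (Finset.mem_compl.1 hσ), zero_sub, abs_neg, abs_of_pos hu0]
  have h2 : ∑ σ ∈ S, lawPow h t σ = 1 := by
    rw [← lawPow_sum h t, ← Finset.sum_add_sum_compl S]
    rw [Finset.sum_eq_zero (s := Sᶜ) fun σ hσ => h0 σ (Finset.mem_compl.1 hσ), add_zero]
  have h3 : (Sᶜ.card : ℝ) = (2 * h).factorial - S.card := by
    rw [Finset.card_compl, Nat.cast_sub (Finset.card_le_univ S), hcard]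
  rw [Finset.sum_sub_distrib, h2, Finset.sum_const, Finset.sum_const, nsmul_eq_mul, nsmul_eq_mul,
    h3, sub_mul, hu, mul_inv_cancel₀ hN.ne', ← hu] at h1
  have h4 : (S.card : ℝ) * u ≤ (2 : ℝ) ^ (h * t) * u := by
    refine mul_le_mul_of_nonneg_right ?_ hu0.le
    exact_mod_cast hS
  unfold tv
  rw [div_eq_mul_inv, ← hu]
  linarith

/-- At least `d + 1` shuffles are needed for a deck of `2 ^ (d + 1)` cards. -/
theorem main_lower' (d t : ℕ) (h : tv (2 ^ d) t ≤ 1 / 4) : d + 1 ≤ t := by
  by_contra hcon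
  push Not at hcon
  have htd : t ≤ d := by omega
  have h1 := tv_ge (2 ^ d) t
  set N := 2 ^ d with hN
  have hN1 : 1 ≤ N := Nat.one_le_two_pow
  have hfac : N ^ N * 2 ≤ (2 * N).factorial := by
    have h2 : N.factorial * (N + 1) ^ N ≤ (N + N).factorial := Nat.factorial_mul_pow_le_factorial
    have h3 : 1 ≤ N.factorial := Nat.factorial_pos N
    have h4 : N ^ N * 2 ≤ (N + 1) ^ N := by
      have h5 : (N : ℝ) ^ N * 2 ≤ ((N : ℝ) + 1) ^ N := by
        have hNR : (1 : ℝ) ≤ N := by exact_mod_cast hN1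
        have h6 := one_add_mul_le_pow (a := (1 : ℝ) / N) (by
          have : (0 : ℝ) ≤ 1 / N := by positivity
          linarith) N
        have h7 : (N : ℝ) * (1 / N) = 1 := by field_simp
        rw [h7] at h6
        have h8 : ((N : ℝ) + 1) ^ N = N ^ N * (1 + 1 / N) ^ N := by
          rw [← mul_pow]; congr 1; field_simp
        rw [h8]
        refine mul_le_mul_of_nonneg_left ?_ (by positivity)
        linarith
      exact_mod_cast h5
    calc N ^ N * 2 ≤ (N + 1) ^ N := h4
      _ = 1 * (N + 1) ^ N := (one_mul _).symm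
      _ ≤ N.factorial * (N + 1) ^ N := Nat.mul_le_mul_right _ h3
      _ ≤ (N + N).factorial := h2
      _ = (2 * N).factorial := by rw [two_mul]
  have hpow : 2 ^ (N * t) ≤ N ^ N := by
    calc 2 ^ (N * t) ≤ 2 ^ (N * d) := Nat.pow_le_pow_right (by norm_num) (Nat.mul_le_mul_left _ htd)
      _ = N ^ N := by
        rw [mul_comm, pow_mul, ← hN]
  have hF : (0 : ℝ) < (2 * N).factorial := by exact_mod_cast Nat.factorial_pos _
  have h5 : (2 : ℝ) ^ (N * t) / (2 * N).factorial ≤ 1 / 2 := by
    rw [div_le_div_iff₀ hF (by norm_num)]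
    have : 2 ^ (N * t) * 2 ≤ 1 * (2 * N).factorial := by
      rw [one_mul]
      exact (Nat.mul_le_mul_right 2 hpow).trans hfac
    exact_mod_cast this
  linarith

/-- PART LOWER: elementary counting bound. -/
theorem main_lower : ∃ c : ℝ, 0 < c ∧ ∀ d t : ℕ, tv (2 ^ d) t ≤ 1 / 4 →
    c * (d + 1) ≤ t := by
  refine ⟨1, one_pos, fun d t h => ?_⟩
  rw [one_mul]
  exact_mod_cast main_lower' d t h

end Vale.Agent.ThorpO
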