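import Mathlib

/-!
# P162: numerical end of the proof
-/

namespace Vale.Agent.ThorpO

open Finset

/-- `n choose j ≤ (e n / j) ^ j`. -/
theorem choose_le_exp {n j : ℕ} (hj : 1 ≤ j) :
    (n.choose j : ℝ) ≤ (Real.exp 1 * (n / j)) ^ j := by
  have hj0 : (0 : ℝ) < j := by exact_mod_cast hj
  have h1 : (n.choose j : ℝ) ≤ (n : ℝ) ^ j / j.factorial := Nat.choose_le_pow_div j n
  have h2 : (j : ℝ) ^ j / j.factorial ≤ Real.exp j := Real.pow_div_factorial_le_exp j hj0.le j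
  have hf : (0 : ℝ) < j.factorial := by exact_mod_cast Nat.factorial_pos j
  have h3 : (n : ℝ) ^ j / j.factorial = (n / j) ^ j * ((j : ℝ) ^ j / j.factorial) := by
    rw [div_pow]
    field_simp
  rw [mul_pow, ← Real.exp_nat_mul, mul_one]
  refine h1.trans ?_
  rw [h3, mul_comm]
  exact mul_le_mul_of_nonneg_right h2 (by positivity)

theorem exists_g {x : ℝ} (hx : 2 ^ 34 ≤ x) : ∃ g : ℕ, 1 ≤ g ∧ (2 : ℝ) ^ (34 * g) ≤ x ∧
    x ≤ 2 ^ (34 * (g + 1)) := by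
  have h34 : ∀ g : ℕ, (2 : ℝ) ^ (34 * g) = (2 ^ 34) ^ g := fun g => pow_mul _ _ _
  obtain ⟨g, hg1, hg2⟩ := exists_nat_pow_near (x := x) (y := (2 : ℝ) ^ 34)
    (le_trans (by norm_num) hx) (by norm_num)
  refine ⟨g, ?_, ?_, ?_⟩
  · by_contra h
    have hg0 : g = 0 := by omega
    rw [hg0] at hg2
    simp only [zero_add, pow_one] at hg2
    linarith
  · rw [h34]; exact hg1
  · rw [h34]; exact hg2.le

/-- The constants. -/
noncomputable def K0 : ℝ := Real.exp 3073 ^ 34 * 2 ^ 34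
noncomputable def K1 : ℝ := K0 ^ 4 * Real.exp (1024 + 2 ^ 32)
noncomputable def al : ℝ := min (1 / 2 ^ 34) (1 / (4 * K1))

theorem K0_pos : 0 < K0 := by unfold K0; positivity
theorem K1_pos : 0 < K1 := by unfold K1; have := K0_pos; positivity
theorem al_pos : 0 < al := by
  unfold al
  have := K1_pos
  exact lt_min (by norm_num) (by positivity)
theorem al_le : al ≤ 1 / 2 ^ 34 := min_le_left _ _
theorem al_le' : K1 * al ≤ 1 / 4 := by
  have h := K1_pos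
  have h2 : al ≤ 1 / (4 * K1) := min_le_right _ _
  have h3 := mul_le_mul_of_nonneg_left h2 h.le
  refine h3.trans (le_of_eq ?_)
  field_simp

/-- Choice of `g` for the level `j`. -/
theorem num1 {n j : ℕ} (hj : 1 ≤ j) (hjn : (j : ℝ) ≤ al * n) :
    ∃ g : ℕ, 1 ≤ g ∧ 2 ^ (34 * g) * j ≤ n ∧
      ((Real.exp 3073 / 2 ^ g) ^ j) ^ 136 ≤ ((K0 * (j / n)) ^ 4) ^ j := by
  have hj0 : (0 : ℝ) < j := by exact_mod_cast hj
  have hn0 : (0 : ℝ) < n := by
    by_contra h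
    have hn : (n : ℝ) = 0 := le_antisymm (not_lt.1 h) (Nat.cast_nonneg _)
    rw [hn, mul_zero] at hjn
    linarith
  have hx : (2 : ℝ) ^ 34 ≤ n / j := by
    rw [le_div_iff₀ hj0]
    have h1 := mul_le_mul_of_nonneg_right al_le hn0.le
    have h2 : (j : ℝ) ≤ 1 / 2 ^ 34 * n := hjn.trans h1
    have h3 : (2 : ℝ) ^ 34 * (1 / 2 ^ 34 * n) = n := by field_simp
    calc (2 : ℝ) ^ 34 * j ≤ 2 ^ 34 * (1 / 2 ^ 34 * n) :=
          mul_le_mul_of_nonneg_left h2 (by positivity)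
      _ = n := h3
  obtain ⟨g, hg1, hg2, hg3⟩ := exists_g hx
  refine ⟨g, hg1, ?_, ?_⟩
  · rw [le_div_iff₀ hj0] at hg2
    exact_mod_cast hg2
  · set G : ℝ := (2 : ℝ) ^ g with hG
    have hGp : 0 < G := by positivity
    have hG34 : (2 : ℝ) ^ (34 * g) = G ^ 34 := by rw [hG, ← pow_mul, mul_comm]
    have h5 : (n : ℝ) / j ≤ G ^ 34 * 2 ^ 34 := by
      refine hg3.trans (le_of_eq ?_)
      rw [mul_add, pow_add, hG34]
    have h6 : 1 / G ^ 34 ≤ 2 ^ 34 * (j / n) := by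
      rw [div_le_iff₀ (by positivity)]
      have h7 : (1 : ℝ) = (n / j) * (j / n) := by field_simp
      rw [h7]
      calc (n : ℝ) / j * (j / n) ≤ (G ^ 34 * 2 ^ 34) * (j / n) :=
            mul_le_mul_of_nonneg_right h5 (by positivity)
        _ = _ := by ring
    have h8 : ((Real.exp 3073 / G) ^ j) ^ 136 = ((Real.exp 3073 ^ 34 * (1 / G ^ 34)) ^ 4) ^ j := by
      rw [← pow_mul, ← pow_mul, mul_one_div, ← div_pow, ← pow_mul]
      congr 1
      ring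
    rw [h8]
    apply pow_le_pow_left₀ (by positivity)
    apply pow_le_pow_left₀ (by positivity)
    unfold K0
    rw [mul_assoc]
    exact mul_le_mul_of_nonneg_left h6 (by positivity)

theorem num2 {n j : ℕ} (hj : 1 ≤ j) (hjn : (j : ℝ) ≤ al * n) {s : ℝ}
    (h1 : s ≤ ((K0 * (j / n)) ^ 4) ^ j) :
    s * ((n.choose j) * Real.exp (j * (1023 + 2 ^ 32))) ≤ (1 / 4) ^ j * (j / n) := by
  have hj0 : (0 : ℝ) < j := by exact_mod_cast hj
  have hn0 : (0 : ℝ) < n := by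
    by_contra h
    have hn : (n : ℝ) = 0 := le_antisymm (not_lt.1 h) (Nat.cast_nonneg _)
    rw [hn, mul_zero] at hjn
    linarith
  set x : ℝ := j / n with hx
  have hx0 : 0 < x := by positivity
  have hxal : x ≤ al := by rw [hx, div_le_iff₀ hn0]; exact hjn
  have hx1 : x ≤ 1 := hxal.trans (al_le.trans (by norm_num))
  have hK0 := K0_pos
  have hK1 := K1_pos
  have e2 := choose_le_exp (n := n) hj
  have e3 : Real.exp (j * (1023 + 2 ^ 32)) = (Real.exp (1023 + 2 ^ 32)) ^ j :=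
    Real.exp_nat_mul _ _
  have e4 : (n : ℝ) / j = 1 / x := by rw [hx]; field_simp
  rw [e4] at e2
  rw [e3]
  have e5 : s * ((n.choose j) * (Real.exp (1023 + 2 ^ 32)) ^ j) ≤
      ((K0 * x) ^ 4) ^ j * ((Real.exp 1 * (1 / x)) ^ j * (Real.exp (1023 + 2 ^ 32)) ^ j) := by
    apply mul_le_mul h1 _ (by positivity) (by positivity)
    exact mul_le_mul_of_nonneg_right e2 (by positivity)
  refine e5.trans ?_
  rw [← mul_pow, ← mul_pow]
  have e6 : (K0 * x) ^ 4 * ((Real.exp 1 * (1 / x)) * Real.exp (1023 + 2 ^ 32)) = K1 * x ^ 3 := by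
    unfold K1
    rw [show (1024 + 2 ^ 32 : ℝ) = 1 + (1023 + 2 ^ 32) by ring, Real.exp_add 1]
    field_simp
  rw [e6]
  have e7 : K1 * x ^ 3 ≤ 1 / 4 * x := by
    have h2 : K1 * x ≤ 1 / 4 := (mul_le_mul_of_nonneg_left hxal hK1.le).trans al_le'
    have h3 : x ^ 2 ≤ x := by nlinarith
    calc K1 * x ^ 3 = (K1 * x) * x ^ 2 := by ring
      _ ≤ 1 / 4 * x := mul_le_mul h2 h3 (by positivity) (by norm_num)
  calc (K1 * x ^ 3) ^ j ≤ (1 / 4 * x) ^ j := pow_le_pow_left₀ (by positivity) e7 j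
    _ = (1 / 4) ^ j * x ^ j := mul_pow _ _ _
    _ ≤ (1 / 4) ^ j * x := by
        apply mul_le_mul_of_nonneg_left _ (by positivity)
        calc x ^ j ≤ x ^ 1 := pow_le_pow_of_le_one hx0.le hx1 hj
          _ = x := pow_one x

theorem sum_quarter (J : ℕ) : ∑ j ∈ Finset.Icc 1 J, (1 / 4 : ℝ) ^ j * j ≤ 4 / 9 := by
  have h : ∀ J : ℕ, ∑ j ∈ Finset.Icc 1 J, (1 / 4 : ℝ) ^ j * j =
      4 / 9 - (1 / 4) ^ J * (4 / 9 + J / 3) := by
    intro J
    induction J with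
    | zero => simp
    | succ J ih =>
      rw [Finset.sum_Icc_succ_top (by omega), ih, pow_succ]
      push_cast
      ring
  rw [h]
  have : (0 : ℝ) ≤ (1 / 4) ^ J * (4 / 9 + J / 3) := by positivity
  linarith

/-- High levels. -/
theorem num3 : ∃ T : ℕ, ∀ n j0 : ℕ, al * n < j0 + 1 →
      Real.exp (-(T * (j0 + 1) / 144)) * Real.exp (n * (1023 + 2 ^ 32)) ≤ 1 / 20 := by
  obtain ⟨T2, hT2⟩ := exists_nat_ge (144 * ((1023 + 2 ^ 32) / al + 3))
  refine ⟨T2, ?_⟩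
  intro n j0 hj0
  rw [← Real.exp_add]
  have hal := al_pos
  have h3 : (n : ℝ) * (1023 + 2 ^ 32) ≤ (j0 + 1) * ((1023 + 2 ^ 32) / al) := by
    have h4 : (n : ℝ) ≤ (j0 + 1) / al := by
      rw [le_div_iff₀ hal]; linarith
    calc (n : ℝ) * (1023 + 2 ^ 32) ≤ ((j0 + 1) / al) * (1023 + 2 ^ 32) := by
          apply mul_le_mul_of_nonneg_right h4; norm_num
      _ = _ := by ring
  have h5 : (0 : ℝ) < (j0 : ℝ) + 1 := by positivity
  have h6 : -((T2 : ℝ) * (j0 + 1) / 144) + n * (1023 + 2 ^ 32) ≤ -3 := by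
    have h7 : (j0 + 1) * ((1023 + 2 ^ 32) / al + 3) ≤ (T2 : ℝ) * (j0 + 1) / 144 := by
      have := mul_le_mul_of_nonneg_left hT2 h5.le
      rw [le_div_iff₀ (by norm_num)]
      nlinarith
    have h8 : (1 : ℝ) ≤ j0 + 1 := by
      have : (0 : ℝ) ≤ j0 := Nat.cast_nonneg _
      linarith
    nlinarith
  refine (Real.exp_le_exp.2 h6).trans ?_
  rw [Real.exp_neg, ← one_div]
  refine one_div_le_one_div_of_le (by norm_num) ?_
  have h9 := Real.exp_one_gt_d9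
  have h10 : Real.exp 3 = Real.exp 1 ^ 3 := by rw [← Real.exp_nat_mul]; norm_num
  rw [h10]
  have h11 : (2.718 : ℝ) ^ 3 ≤ Real.exp 1 ^ 3 := pow_le_pow_left₀ (by norm_num) (by linarith) 3
  norm_num at h11
  linarith

/-- Sum over the low levels. -/
theorem num4 (n J : ℕ) (hJ : (J : ℝ) ≤ al * n) :
    ∑ j ∈ Finset.Icc 1 J, (1 / 4 : ℝ) ^ j * (j / n) ≤ 1 / 20 := by
  rcases Nat.eq_zero_or_pos J with hJ0 | hJ0
  · rw [hJ0]; simp
  · have hJ1 : (1 : ℝ) ≤ J := by exact_mod_cast hJ0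
    have hn : (2 : ℝ) ^ 34 ≤ n := by
      have h1 : (1 : ℝ) ≤ al * n := hJ1.trans hJ
      have h2 := mul_le_mul_of_nonneg_right al_le (Nat.cast_nonneg (α := ℝ) n)
      have h3 : (1 : ℝ) ≤ 1 / 2 ^ 34 * n := h1.trans h2
      have h4 := mul_le_mul_of_nonneg_left h3 (show (0 : ℝ) ≤ 2 ^ 34 by positivity)
      have h5 : (2 : ℝ) ^ 34 * (1 / 2 ^ 34 * n) = n := by field_simp
      rw [h5, mul_one] at h4
      exact h4
    have hn0 : (0 : ℝ) < n := lt_of_lt_of_le (by positivity) hn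
    have h6 : ∑ j ∈ Finset.Icc 1 J, (1 / 4 : ℝ) ^ j * (j / n) =
        (∑ j ∈ Finset.Icc 1 J, (1 / 4 : ℝ) ^ j * j) / n := by
      rw [Finset.sum_div]
      exact Finset.sum_congr rfl fun j _ => by ring
    rw [h6, div_le_iff₀ hn0]
    have h7 := sum_quarter J
    nlinarith

end Vale.Agent.ThorpO
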