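import Vale.Agent.ThorpO.Trace1

/-!
# P162, part TRACE
-/

namespace Vale.Agent.ThorpO

open Equiv Finset

/-- The statement of part B. -/
def PartB : Prop := ∀ (d g k : ℕ) (_ : 1 ≤ g) (ωi : Coins d) (D : ℕ → Finset (Pos d))
    (_ : ∀ r, ∀ z ∈ D r, bit z r = false) (_ : ∀ r, 2 * (D r).card ≤ k),
    (av fun ωo : Coins d => (2 : ℝ) ^ ((1 / 512 : ℝ) *
      ∑ r ∈ Finset.Ico (16 * g) d, (orbs (HH ωi ωo r) (D r) : ℝ))) ≤
      Real.exp (2 * k / 2 ^ g)

section benes

variable {d k : ℕ}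

theorem net_inv (ωi ωo : Coins d) (r : ℕ) : (net ωi ωo r)⁻¹ = net ωo ωi r := by
  induction r with
  | zero => rfl
  | succ r ih =>
    rw [net, net, mul_inv_rev, mul_inv_rev, ih, lay_symm, lay_symm, mul_assoc]

theorem benes_comm (r : ℕ) (x y : Fin k ↪ Pos d) : benes d k r x y = benes d k r y x := by
  unfold benes
  rw [av_comm]
  refine av_congr fun ωo => av_congr fun ωi => ?_
  have : (∀ c, net ωi ωo r (x c) = y c) ↔ ∀ c, net ωo ωi r (y c) = x c := by
    refine forall_congr' fun c => ?_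
    rw [← net_inv, Perm.inv_eq_iff_eq, eq_comm]
  by_cases h : ∀ c, net ωi ωo r (x c) = y c
  · rw [if_pos h, if_pos (this.1 h)]
  · rw [if_neg h, if_neg fun h' => h (this.2 h')]

theorem benes_nonneg (r : ℕ) (x y : Fin k ↪ Pos d) : 0 ≤ benes d k r x y :=
  av_nonneg fun _ => av_nonneg fun _ => by split_ifs <;> norm_num

/-- Sum over the end positions. -/
theorem sum_ind (x : Fin k ↪ Pos d) (g : Perm (Pos d)) (F : ℝ) :
    ∑ y : Fin k ↪ Pos d, (if ∀ c, g (x c) = y c then F else 0) = F := by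
  rw [Finset.sum_eq_single (x.trans g.toEmbedding)]
  · rw [if_pos]
    intro c; rfl
  · intro y _ hy
    rw [if_neg]
    intro h
    apply hy
    ext1 c
    exact (h c).symm
  · intro h; exact absurd (Finset.mem_univ _) h

theorem benes_row_sum (r : ℕ) (x : Fin k ↪ Pos d) : ∑ y, benes d k r x y = 1 := by
  unfold benes
  rw [← av_sum]
  simp only [← av_sum]
  simp only [sum_ind, av_const]

end benes

/-! ### Hoelder -/

section holder

variable {d : ℕ}

theorem av_holder {s : ℝ} (hs : 0 < s) (I : Coins d → Coins d → Prop)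
    [∀ a b, Decidable (I a b)] (Y : Coins d → Coins d → ℕ) :
    (av fun a => av fun b => if I a b then (1 : ℝ) else 0) ^ (1 + 1 / s) ≤
      (av fun a => av fun b => if I a b then (2 : ℝ) ^ ((1 / s) * Y a b) else 0) *
        (av fun a => av fun b => if I a b then ((2 : ℝ) ^ Y a b)⁻¹ else 0) ^ (1 / s) := by
  set N : ℝ := (Fintype.card (Coins d) : ℝ) with hN
  have hN0 : 0 < N := card_coins_pos
  set p : ℝ := 1 + 1 / s with hp
  have hp1 : 1 ≤ p := by rw [hp]; have : 0 < 1 / s := by positivity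
                         linarith
  have hp0 : 0 < p := by linarith
  have conv : ∀ F : Coins d → Coins d → ℝ, (av fun a => av fun b => F a b) =
      ∑ q : Coins d × Coins d, F q.1 q.2 / N ^ 2 := by
    intro F
    rw [Fintype.sum_prod_type]
    unfold av
    simp only [← Finset.sum_div]
    rw [div_div, sq]
  rw [conv, conv, conv]
  have h := Real.inner_le_weight_mul_Lp_of_nonneg (univ : Finset (Coins d × Coins d)) hp1
    (fun q => (if I q.1 q.2 then ((2 : ℝ) ^ Y q.1 q.2)⁻¹ else 0) / N ^ 2)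
    (fun q => (2 : ℝ) ^ Y q.1 q.2)
    (fun q => div_nonneg (by split_ifs <;> positivity) (by positivity)) (fun q => by positivity)
  have e1 : ∑ q : Coins d × Coins d, (if I q.1 q.2 then ((2 : ℝ) ^ Y q.1 q.2)⁻¹ else 0) / N ^ 2 *
      (2 : ℝ) ^ Y q.1 q.2 = ∑ q : Coins d × Coins d, (if I q.1 q.2 then (1 : ℝ) else 0) / N ^ 2 := by
    refine Finset.sum_congr rfl fun q _ => ?_
    split_ifs
    · have : (2 : ℝ) ^ Y q.1 q.2 ≠ 0 := by positivity
      field_simp
    · simp
  have e2 : ∑ q : Coins d × Coins d, (if I q.1 q.2 then ((2 : ℝ) ^ Y q.1 q.2)⁻¹ else 0) / N ^ 2 *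
      ((2 : ℝ) ^ Y q.1 q.2) ^ p =
      ∑ q : Coins d × Coins d, (if I q.1 q.2 then (2 : ℝ) ^ ((1 / s) * Y q.1 q.2) else 0) / N ^ 2 := by
    refine Finset.sum_congr rfl fun q _ => ?_
    split_ifs
    · rw [← Real.rpow_natCast 2 (Y q.1 q.2), ← Real.rpow_neg (by norm_num),
        ← Real.rpow_mul (by norm_num), div_mul_eq_mul_div, ← Real.rpow_add (by norm_num)]
      congr 2
      rw [hp]; ring
    · simp
  rw [e1, e2] at h
  set S1 := ∑ q : Coins d × Coins d, (if I q.1 q.2 then (1 : ℝ) else 0) / N ^ 2 with hS1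
  set S2 := ∑ q : Coins d × Coins d,
    (if I q.1 q.2 then ((2 : ℝ) ^ Y q.1 q.2)⁻¹ else 0) / N ^ 2 with hS2
  set S3 := ∑ q : Coins d × Coins d,
    (if I q.1 q.2 then (2 : ℝ) ^ ((1 / s) * Y q.1 q.2) else 0) / N ^ 2 with hS3
  have h1 : 0 ≤ S1 := Finset.sum_nonneg fun q _ =>
    div_nonneg (by split_ifs <;> positivity) (by positivity)
  have h2 : 0 ≤ S2 := Finset.sum_nonneg fun q _ =>
    div_nonneg (by split_ifs <;> positivity) (by positivity)
  have h3 : 0 ≤ S3 := Finset.sum_nonneg fun q _ =>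
    div_nonneg (by split_ifs <;> positivity) (by positivity)
  calc S1 ^ p ≤ (S2 ^ (1 - p⁻¹) * S3 ^ p⁻¹) ^ p := Real.rpow_le_rpow h1 h hp0.le
    _ = S3 * S2 ^ (1 / s) := by
        rw [Real.mul_rpow (Real.rpow_nonneg h2 _) (Real.rpow_nonneg h3 _), ← Real.rpow_mul h2,
          ← Real.rpow_mul h3, inv_mul_cancel₀ hp0.ne', Real.rpow_one, mul_comm]
        congr 2
        rw [sub_mul, inv_mul_cancel₀ hp0.ne', hp]
        ring

/-- Jensen for powers. -/
theorem av_pow_le (F : Coins d → ℝ) (hF : ∀ ω, 0 ≤ F ω) (m : ℕ) :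
    (av F) ^ m ≤ av fun ω => (F ω) ^ m := by
  have h := Real.pow_arith_mean_le_arith_mean_pow (univ : Finset (Coins d))
    (fun _ => (Fintype.card (Coins d) : ℝ)⁻¹) F (fun _ _ => by positivity) (by
      rw [Finset.sum_const, Finset.card_univ, nsmul_eq_mul]
      exact mul_inv_cancel₀ card_coins_pos.ne') (fun ω _ => hF ω) m
  unfold av
  rw [← Finset.mul_sum, ← Finset.mul_sum] at h
  rw [div_eq_inv_mul, div_eq_inv_mul]
  exact h

end holder

/-! ### The row sums -/

section rows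

variable {d k : ℕ}

/-- The kernel `p ψ ^ (1 / q)`, `q = 1023`. -/
noncomputable def KK (d k : ℕ) : Matrix (Fin k ↪ Pos d) (Fin k ↪ Pos d) ℝ :=
  Matrix.of fun x y => (((2 : ℝ) ^ d) ^ k) ^ (1 / 1023 : ℝ) * (benes d k d x y) ^ (1 + 1 / 1023 : ℝ)

theorem KK_le (x y : Fin k ↪ Pos d) :
    KK d k x y ≤ av fun ωi : Coins d => av fun ωo : Coins d =>
      if ∀ c, net ωi ωo d (x c) = y c then
        (2 : ℝ) ^ ((1 / 1023 : ℝ) * YY ωi ωo d (univ.image x)) else 0 := by
  have h1 := av_holder (d := d) (s := 1023) (by norm_num)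
    (fun ωi ωo => ∀ c, net ωi ωo d (x c) = y c) (fun ωi ωo => YY ωi ωo d (univ.image x))
  have h2 := star d k x y
  have hn : (0 : ℝ) < ((2 : ℝ) ^ d) ^ k := by positivity
  set S2 := av fun ωi : Coins d => av fun ωo : Coins d =>
      if ∀ c, net ωi ωo d (x c) = y c then ((2 : ℝ) ^ YY ωi ωo d (univ.image x))⁻¹ else 0 with hS2
  set S3 := av fun ωi : Coins d => av fun ωo : Coins d =>
      if ∀ c, net ωi ωo d (x c) = y c then
        (2 : ℝ) ^ ((1 / 1023 : ℝ) * YY ωi ωo d (univ.image x)) else 0 with hS3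
  have h20 : 0 ≤ S2 := av_nonneg fun _ => av_nonneg fun _ => by split_ifs <;> positivity
  have h30 : 0 ≤ S3 := av_nonneg fun _ => av_nonneg fun _ => by split_ifs <;> positivity
  have h3 : S2 ^ (1 / 1023 : ℝ) ≤ ((((2 : ℝ) ^ d) ^ k)⁻¹) ^ (1 / 1023 : ℝ) :=
    Real.rpow_le_rpow h20 h2 (by norm_num)
  have h4 : (benes d k d x y) ^ (1 + 1 / 1023 : ℝ) ≤
      S3 * ((((2 : ℝ) ^ d) ^ k)⁻¹) ^ (1 / 1023 : ℝ) := by
    refine le_trans ?_ (mul_le_mul_of_nonneg_left h3 h30)
    exact h1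
  calc KK d k x y = (((2 : ℝ) ^ d) ^ k) ^ (1 / 1023 : ℝ) *
        (benes d k d x y) ^ (1 + 1 / 1023 : ℝ) := rfl
    _ ≤ (((2 : ℝ) ^ d) ^ k) ^ (1 / 1023 : ℝ) *
        (S3 * ((((2 : ℝ) ^ d) ^ k)⁻¹) ^ (1 / 1023 : ℝ)) :=
        mul_le_mul_of_nonneg_left h4 (by positivity)
    _ = S3 := by
        rw [Real.inv_rpow hn.le]
        have : (((2 : ℝ) ^ d) ^ k) ^ (1 / 1023 : ℝ) ≠ 0 := (Real.rpow_pos_of_pos hn _).ne'
        field_simp

theorem row_le (x : Fin k ↪ Pos d) :
    ∑ y, KK d k x y ≤ av fun ωi : Coins d => av fun ωo : Coins d =>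
        (2 : ℝ) ^ ((1 / 1023 : ℝ) * YY ωi ωo d (univ.image x)) := by
  refine (Finset.sum_le_sum fun y _ => KK_le x y).trans ?_
  rw [← av_sum]
  simp only [← av_sum]
  simp only [sum_ind]
  exact le_rfl

theorem row_le2 (hB : PartB) {g : ℕ} (hg : 1 ≤ g) (x : Fin k ↪ Pos d) :
    (∑ y, KK d k x y) ^ 1023 ≤ Real.exp (2046 * k / 2 ^ g) *
      av fun ωi : Coins d =>
        (2 : ℝ) ^ (16 * g * coll (16 * g) fun c => inP ωi (16 * g) (d - 16 * g) (x c)) := by
  set h := 16 * g with hh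
  have hx0 : 0 ≤ ∑ y, KK d k x y := Finset.sum_nonneg fun y _ =>
    mul_nonneg (by positivity) (Real.rpow_nonneg (benes_nonneg _ _ _) _)
  -- bound for fixed input coins
  have hfix : ∀ ωi : Coins d, (av fun ωo : Coins d =>
      (2 : ℝ) ^ ((1 / 1023 : ℝ) * YY ωi ωo d (univ.image x))) ≤
      Real.exp (2 * k / 2 ^ g) *
        (2 : ℝ) ^ ((1 / 1023 : ℝ) * (h * coll h fun c => inP ωi h (d - h) (x c) : ℕ)) := by
    intro ωi
    by_cases hd : h ≤ d
    · obtain ⟨D, hD1, hD2, hD3⟩ := YY_split ωi h (d - h) (by omega) x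
      rw [Nat.add_sub_cancel' hd] at hD3
      have hb := hB d g k hg ωi D hD1 hD2
      calc (av fun ωo : Coins d => (2 : ℝ) ^ ((1 / 1023 : ℝ) * YY ωi ωo d (univ.image x)))
          ≤ av fun ωo : Coins d => (2 : ℝ) ^ ((1 / 512 : ℝ) *
              ∑ r ∈ Finset.Ico (16 * g) d, (orbs (HH ωi ωo r) (D r) : ℝ)) *
              (2 : ℝ) ^ ((1 / 1023 : ℝ) * (h * coll h fun c => inP ωi h (d - h) (x c) : ℕ)) := by
            apply av_mono
            intro ωo
            rw [hD3 ωo, ← Real.rpow_add (by norm_num)]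
            apply Real.rpow_le_rpow_of_exponent_le (by norm_num)
            have h1 := YY_low (ωi := ωi) (ωo := ωo) (le_refl h) hd
              (fun c => inP ωi h (d - h) (x c))
            have h1' : (YY ωi ωo h (univ.image fun c => inP ωi h (d - h) (x c)) : ℝ) ≤
                ((h * coll h fun c => inP ωi h (d - h) (x c) : ℕ) : ℝ) := by exact_mod_cast h1
            have h2 : (0 : ℝ) ≤ ∑ r ∈ Finset.Ico (16 * g) d, (orbs (HH ωi ωo r) (D r) : ℝ) :=
              Finset.sum_nonneg fun _ _ => Nat.cast_nonneg _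
            push_cast at h1' ⊢
            rw [← hh] at h2 ⊢
            nlinarith
        _ = (av fun ωo : Coins d => (2 : ℝ) ^ ((1 / 512 : ℝ) *
              ∑ r ∈ Finset.Ico (16 * g) d, (orbs (HH ωi ωo r) (D r) : ℝ))) *
              (2 : ℝ) ^ ((1 / 1023 : ℝ) * (h * coll h fun c => inP ωi h (d - h) (x c) : ℕ)) :=
            av_mul_right _ _
        _ ≤ _ := mul_le_mul_of_nonneg_right hb (by positivity)
    · have hdh : d - h = 0 := by omega
      have h0 : (1 : ℝ) ≤ Real.exp (2 * k / 2 ^ g) := Real.one_le_exp (by positivity)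
      refine le_trans ?_ (mul_le_mul_of_nonneg_right h0 (by positivity))
      rw [one_mul]
      refine le_trans (av_mono fun ωo => ?_) (av_const _).le
      apply Real.rpow_le_rpow_of_exponent_le (by norm_num)
      have h1 := YY_low (ωi := ωi) (ωo := ωo) (h := h) (by omega) (le_refl d) x
      have h2 : YY ωi ωo d (univ.image x) ≤ h * coll h fun c => inP ωi h (d - h) (x c) := by
        rw [hdh]
        exact h1.trans (Nat.mul_le_mul_right _ (by omega))
      have h3 : (YY ωi ωo d (univ.image x) : ℝ) ≤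
          ((h * coll h fun c => inP ωi h (d - h) (x c) : ℕ) : ℝ) := by exact_mod_cast h2
      linarith
  have h1 : ∑ y, KK d k x y ≤ Real.exp (2 * k / 2 ^ g) * av fun ωi : Coins d =>
      (2 : ℝ) ^ ((1 / 1023 : ℝ) * (h * coll h fun c => inP ωi h (d - h) (x c) : ℕ)) := by
    refine (row_le x).trans ((av_mono hfix).trans ?_)
    rw [av_mul_left]
  have h2 : 0 ≤ av fun ωi : Coins d =>
      (2 : ℝ) ^ ((1 / 1023 : ℝ) * (h * coll h fun c => inP ωi h (d - h) (x c) : ℕ)) :=
    av_nonneg fun _ => by positivity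
  calc (∑ y, KK d k x y) ^ 1023 ≤ (Real.exp (2 * k / 2 ^ g) * av fun ωi : Coins d =>
      (2 : ℝ) ^ ((1 / 1023 : ℝ) * (h * coll h fun c => inP ωi h (d - h) (x c) : ℕ))) ^ 1023 :=
        pow_le_pow_left₀ hx0 h1 _
    _ = Real.exp (2046 * k / 2 ^ g) * (av fun ωi : Coins d =>
      (2 : ℝ) ^ ((1 / 1023 : ℝ) * (h * coll h fun c => inP ωi h (d - h) (x c) : ℕ))) ^ 1023 := by
        rw [mul_pow, ← Real.exp_nat_mul]
        congr 2
        push_cast
        ring
    _ ≤ Real.exp (2046 * k / 2 ^ g) * av fun ωi : Coins d =>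
      ((2 : ℝ) ^ ((1 / 1023 : ℝ) * (h * coll h fun c => inP ωi h (d - h) (x c) : ℕ))) ^ 1023 :=
        mul_le_mul_of_nonneg_left (av_pow_le _ (fun _ => by positivity) _) (Real.exp_pos _).le
    _ = _ := by
        congr 1
        refine av_congr fun ωi => ?_
        rw [← Real.rpow_natCast, ← Real.rpow_mul (by norm_num), ← Real.rpow_natCast]
        congr 1
        push_cast
        ring

theorem KK_pos_row (x : Fin k ↪ Pos d) : 0 < ∑ y, KK d k x y := by
  have h0 : ∀ y, 0 ≤ KK d k x y := fun y =>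
    mul_nonneg (by positivity) (Real.rpow_nonneg (benes_nonneg _ _ _) _)
  have h1 : ∃ y, 0 < benes d k d x y := by
    by_contra hcon
    push Not at hcon
    have h2 := benes_row_sum d x
    have h3 : ∑ y, benes d k d x y ≤ 0 := Finset.sum_nonpos fun y _ => hcon y
    linarith
  obtain ⟨y, hy⟩ := h1
  refine Finset.sum_pos' (fun y _ => h0 y) ⟨y, Finset.mem_univ _, ?_⟩
  exact mul_pos (by positivity) (Real.rpow_pos_of_pos hy _)

/-- **Part TRACE**, given part B. -/
theorem trace_bound_of (hB : PartB) (d g k : ℕ) (hg : 1 ≤ g) :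
    ((benes d k d) ^ 1024).trace ≤
      Real.exp (k * (2046 / 2 ^ g + k / 2 ^ d * 2 ^ (32 * g))) := by
  set n : ℝ := (2 : ℝ) ^ d with hn
  have hn0 : 0 < n := by positivity
  set P : Matrix (Fin k ↪ Pos d) (Fin k ↪ Pos d) ℝ :=
    Matrix.of fun x y => (benes d k d x y) ^ (1 + 1 / (1023 : ℕ) : ℝ) with hP
  have h1 : ((benes d k d) ^ 1024).trace ≤ ∑ x, ∑ y, (P ^ 1023) x y :=
    trace_le_chain (benes d k d) (fun x y => benes_nonneg _ _ _) (m := 1023) (by norm_num)
  -- `KK` is a multiple of `P`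
  have h2 : KK d k = ((n ^ k) ^ (1 / 1023 : ℝ)) • P := by
    ext x y
    rw [Matrix.smul_apply, hP, Matrix.of_apply, smul_eq_mul]
    show (n ^ k) ^ (1 / 1023 : ℝ) * (benes d k d x y) ^ (1 + 1 / 1023 : ℝ) = _
    push_cast
    rfl
  have h3 : (KK d k) ^ 1023 = (n ^ k) • P ^ 1023 := by
    rw [h2, smul_pow, ← Real.rpow_natCast, ← Real.rpow_mul (by positivity)]
    congr 1
    norm_num
  have h4 : ∑ x, ∑ y, ((KK d k) ^ (1022 + 1)) x y ≤ ∑ x, (∑ y, KK d k x y) ^ (1022 + 1) := by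
    apply chain
    · intro x y
      exact mul_nonneg (by positivity) (Real.rpow_nonneg (benes_nonneg _ _ _) _)
    · intro x y
      show (((2 : ℝ) ^ d) ^ k) ^ (1 / 1023 : ℝ) * (benes d k d x y) ^ (1 + 1 / 1023 : ℝ) =
        (((2 : ℝ) ^ d) ^ k) ^ (1 / 1023 : ℝ) * (benes d k d y x) ^ (1 + 1 / 1023 : ℝ)
      rw [benes_comm]
    · exact KK_pos_row
    · norm_num
  have h5 : ∑ x, ∑ y, ((KK d k) ^ (1022 + 1)) x y = n ^ k * ∑ x, ∑ y, (P ^ 1023) x y := by
    rw [show 1022 + 1 = 1023 from rfl, h3, Finset.mul_sum]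
    refine Finset.sum_congr rfl fun x _ => ?_
    rw [Finset.mul_sum]
    exact Finset.sum_congr rfl fun y _ => by rw [Matrix.smul_apply, smul_eq_mul]
  -- sum of the row bounds
  have h6 : ∑ x : Fin k ↪ Pos d, (∑ y, KK d k x y) ^ (1022 + 1) ≤
      Real.exp (2046 * k / 2 ^ g) * (n + k * 4 ^ (16 * g)) ^ k := by
    have e1 : ∀ ωi : Coins d, ∑ x : Fin k ↪ Pos d,
        (2 : ℝ) ^ (16 * g * coll (16 * g) fun c => inP ωi (16 * g) (d - 16 * g) (x c)) ≤
        (n + k * 4 ^ (16 * g)) ^ k := by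
      intro ωi
      have e2 : ∑ x : Fin k ↪ Pos d,
          (2 : ℝ) ^ (16 * g * coll (16 * g) fun c => inP ωi (16 * g) (d - 16 * g) (x c)) =
          ∑ x : Fin k ↪ Pos d, (2 : ℝ) ^ (16 * g * coll (16 * g) fun c => x c) := by
        exact Equiv.sum_comp
          (Equiv.embeddingCongr (Equiv.refl (Fin k)) (inP ωi (16 * g) (d - 16 * g)))
          (fun x : Fin k ↪ Pos d => (2 : ℝ) ^ (16 * g * coll (16 * g) fun c => x c))
      rw [e2]
      have e3 : ∑ x : Fin k ↪ Pos d, (2 : ℝ) ^ (16 * g * coll (16 * g) fun c => x c) ≤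
          ∑ x : Fin k → Pos d, (2 : ℝ) ^ (16 * g * coll (16 * g) x) := by
        rw [← Finset.sum_image (s := (univ : Finset (Fin k ↪ Pos d)))
          (g := fun x : Fin k ↪ Pos d => (x : Fin k → Pos d))
          (f := fun x : Fin k → Pos d => (2 : ℝ) ^ (16 * g * coll (16 * g) x))]
        · exact Finset.sum_le_sum_of_subset_of_nonneg (Finset.subset_univ _)
            fun _ _ _ => by positivity
        · intro x _ y _ hxy
          exact DFunLike.coe_injective hxy
      exact e3.trans (sum_coll_le (16 * g) k k le_rfl)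
    calc ∑ x : Fin k ↪ Pos d, (∑ y, KK d k x y) ^ (1022 + 1)
        ≤ ∑ x : Fin k ↪ Pos d, Real.exp (2046 * k / 2 ^ g) * av fun ωi : Coins d =>
          (2 : ℝ) ^ (16 * g * coll (16 * g) fun c => inP ωi (16 * g) (d - 16 * g) (x c)) :=
          Finset.sum_le_sum fun x _ => row_le2 hB hg x
      _ = Real.exp (2046 * k / 2 ^ g) * av fun ωi : Coins d => ∑ x : Fin k ↪ Pos d,
          (2 : ℝ) ^ (16 * g * coll (16 * g) fun c => inP ωi (16 * g) (d - 16 * g) (x c)) := by
          rw [← Finset.mul_sum, av_sum]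
      _ ≤ Real.exp (2046 * k / 2 ^ g) * (n + k * 4 ^ (16 * g)) ^ k := by
          refine mul_le_mul_of_nonneg_left ?_ (Real.exp_pos _).le
          exact (av_mono e1).trans (av_const _).le
  have h7 : n ^ k * ((benes d k d) ^ 1024).trace ≤
      Real.exp (2046 * k / 2 ^ g) * (n + k * 4 ^ (16 * g)) ^ k := by
    refine (mul_le_mul_of_nonneg_left h1 (by positivity)).trans ?_
    rw [← h5]
    exact h4.trans h6
  have h8 : (n + k * 4 ^ (16 * g)) ^ k ≤ n ^ k * Real.exp (k * (k / n * 2 ^ (32 * g))) := by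
    have e1 : n + k * 4 ^ (16 * g) = n * (1 + k / n * 2 ^ (32 * g)) := by
      have : (4 : ℝ) ^ (16 * g) = 2 ^ (32 * g) := by
        rw [show (4 : ℝ) = 2 ^ 2 by norm_num, ← pow_mul]
        congr 1; ring
      rw [this]
      field_simp
    rw [e1, mul_pow]
    refine mul_le_mul_of_nonneg_left ?_ (by positivity)
    rw [Real.exp_nat_mul]
    refine pow_le_pow_left₀ (by positivity) ?_ _
    have := Real.add_one_le_exp (k / n * 2 ^ (32 * g) : ℝ)
    linarith
  have h9 : n ^ k * ((benes d k d) ^ 1024).trace ≤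
      n ^ k * Real.exp (k * (2046 / 2 ^ g + k / n * 2 ^ (32 * g))) := by
    refine h7.trans ((mul_le_mul_of_nonneg_left h8 (Real.exp_pos _).le).trans (le_of_eq ?_))
    rw [mul_left_comm, ← Real.exp_add]
    congr 2
    ring
  exact le_of_mul_le_mul_left h9 (by positivity)

end rows

end Vale.Agent.ThorpO
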