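import Vale.Agent.ThorpO.LD
import Vale.Agent.ThorpO.Trace

/-!
# P162, part B
-/

namespace Vale.Agent.ThorpO

open Equiv Finset

section decomposition

variable {d : ℕ}

theorem coin_mix_of {R : Fin d × Pos d → Prop} [DecidablePred R] {ω' ω : Coins d} {i : ℕ}
    {z : Pos d} (hR : ∀ h : i < d, R (⟨i, h⟩, z)) : coin (mix R ω' ω) i z = coin ω' i z := by
  by_cases h : i < d
  · simp [coin, h, mix, hR h]
  · simp [coin, h]

theorem coin_mix_of_not {R : Fin d × Pos d → Prop} [DecidablePred R] {ω' ω : Coins d} {i : ℕ}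
    {z : Pos d} (hR : ∀ h : i < d, ¬ R (⟨i, h⟩, z)) : coin (mix R ω' ω) i z = coin ω i z := by
  by_cases h : i < d
  · simp [coin, h, mix, hR h]
  · simp [coin, h]

theorem win_add (ω : Coins d) (l a b : ℕ) :
    win ω l (a + b) = win ω (l + a) b * win ω l a := by
  induction b with
  | zero => simp [win]
  | succ b ih =>
    rw [← add_assoc, win, ih, win, mul_assoc, add_assoc]

theorem net_eq (ωi ωo : Coins d) (r : ℕ) : net ωi ωo r = win ωo 0 r * inP ωi 0 r := by
  induction r with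
  | zero => rfl
  | succ r ih =>
    rw [net, ih, win, inP, Nat.zero_add]
    simp only [mul_assoc]

theorem win_congr {ω ω' : Coins d} {l b : ℕ}
    (h : ∀ i, l ≤ i → i < l + b → ∀ z, coin ω i z = coin ω' i z) : win ω l b = win ω' l b := by
  induction b with
  | zero => rfl
  | succ b ih =>
    rw [win, win, ih (fun i h1 h2 => h i h1 (by omega)), lay_congr (h (l + b) (by omega) (by omega))]

/-- On positions with a given bit `r`, only the coins at positions with the same bit matter. -/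
theorem win_congr_bit {ω ω' : Coins d} {l b r : ℕ} {v : Bool} (hr : l + b ≤ r)
    (h : ∀ i, l ≤ i → i < l + b → ∀ z, bit z r = v → coin ω i z = coin ω' i z) {z : Pos d}
    (hz : bit z r = v) : win ω l b z = win ω' l b z := by
  induction b with
  | zero => rfl
  | succ b ih =>
    have ih' := ih (by omega) (fun i h1 h2 => h i h1 (by omega))
    rw [win_succ, win_succ, ← ih', lay_apply, lay_apply]
    have h1 : bit (clr (l + b) (win ω l b z)) r = v := by
      rw [bit_clr_ne (by omega), bit_win_out (by omega), hz]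
    rw [h (l + b) (by omega) (by omega) _ h1]

theorem bit_inP_ge {ω : Coins d} {r s i : ℕ} (h : r + s ≤ i) (z : Pos d) :
    bit (inP ω r s z) i = bit z i := by
  induction s generalizing z with
  | zero => rfl
  | succ s ih =>
    rw [inP, Perm.mul_apply, ih (by omega), bit_lay_ne (by omega)]

theorem apply_inv' {Y : Type*} (σ : Perm Y) (z : Y) : σ (σ⁻¹ z) = z := σ.apply_symm_apply z

/-- Coins of the levels `l, …, l + b - 1`. -/
def Wn (d l b : ℕ) : Fin d × Pos d → Prop := fun j => l ≤ j.1.val ∧ j.1.val < l + b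

instance (l b : ℕ) : DecidablePred (Wn d l b) := fun j =>
  inferInstanceAs (Decidable (l ≤ j.1.val ∧ j.1.val < l + b))

/-- Coins of the levels `l, …, l + b - 1` at positions with bit `r` false. -/
def Wr (d l b r : ℕ) : Fin d × Pos d → Prop :=
  fun j => (l ≤ j.1.val ∧ j.1.val < l + b) ∧ bit j.2 r = false

instance (l b r : ℕ) : DecidablePred (Wr d l b r) := fun j =>
  inferInstanceAs (Decidable ((l ≤ j.1.val ∧ j.1.val < l + b) ∧ bit j.2 r = false))

/-- Window average of one level. -/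
theorem window (l β r : ℕ) (hlr : l + 8 * β ≤ r) (hrd : r < d) (ωi ω : Coins d)
    (D : Finset (Pos d)) (hD : ∀ z ∈ D, bit z r = false) :
    (av fun ω' : Coins d => (2 : ℝ) ^ ((β / 16 : ℝ) *
      (orbs (HH ωi (mix (Wn d l (8 * β)) ω' ω) r) D : ℝ))) ≤
      Real.exp (2 * D.card / 2 ^ β) := by
  set b := 8 * β with hb
  rw [← av_mix (Wr d l b r), av_comm]
  refine (av_mono fun ζ => ?_).trans (av_const _).le
  -- fixed ζ
  set V : Perm (Pos d) := win ω 0 l * inP ωi 0 r with hV
  set U : Perm (Pos d) := win ω (l + b) (r - (l + b)) with hU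
  set θ0 : Coins d := mix (Wn d l b) ζ ω with hθ0
  set Q : Perm (Pos d) := flP d r * (net ωi θ0 r)⁻¹ * flP d r * U with hQ
  have key : ∀ ω'' : Coins d, orbs (HH ωi (mix (Wn d l b) (mix (Wr d l b r) ω'' ζ) ω) r) D =
      orbs (fun w => (V * Q) (win ω'' l b w)) (D.image V) := by
    intro ω''
    set θ : Coins d := mix (Wn d l b) (mix (Wr d l b r) ω'' ζ) ω with hθ
    have hout : ∀ i, (i < l ∨ l + b ≤ i) → ∀ z, coin θ i z = coin ω i z := by
      intro i hi z
      rw [hθ, coin_mix_of_not]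
      intro h
      simp only [Wn]
      omega
    have hin0 : ∀ i, l ≤ i → i < l + b → ∀ z, bit z r = false → coin θ i z = coin ω'' i z := by
      intro i h1 h2 z hz
      rw [hθ, coin_mix_of (fun _ => ⟨h1, h2⟩), coin_mix_of (fun _ => ⟨⟨h1, h2⟩, hz⟩)]
    have hin1 : ∀ i, ∀ z, bit z r = true → coin θ i z = coin θ0 i z := by
      intro i z hz
      by_cases hi : l ≤ i ∧ i < l + b
      · have k1 : coin θ i z = coin (mix (Wr d l b r) ω'' ζ) i z := coin_mix_of (fun _ => hi)
        have k2 : coin (mix (Wr d l b r) ω'' ζ) i z = coin ζ i z :=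
          coin_mix_of_not (fun _ h => by
            have h2 : bit z r = false := h.2
            rw [hz] at h2
            exact absurd h2 (by decide))
        have k3 : coin θ0 i z = coin ζ i z := coin_mix_of (fun _ => hi)
        rw [k1, k2, k3]
      · rw [hθ, hθ0, coin_mix_of_not (fun _ => hi), coin_mix_of_not (fun _ => hi)]
    have hnet : net ωi θ r = win θ (l + b) (r - (l + b)) * win θ l b * win θ 0 l * inP ωi 0 r := by
      rw [net_eq]
      have h1 := win_add θ 0 l (b + (r - (l + b)))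
      have h2 := win_add θ l b (r - (l + b))
      have hr : l + (b + (r - (l + b))) = r := by omega
      rw [hr, Nat.zero_add, h2] at h1
      rw [h1]
    have e1 : win θ (l + b) (r - (l + b)) = U :=
      win_congr fun i h1 _ z => hout i (Or.inr h1) z
    have e2 : win θ 0 l = win ω 0 l := win_congr fun i _ h2 z => hout i (Or.inl (by omega)) z
    have hbitV : ∀ z, bit (V z) r = bit z r := by
      intro z
      rw [hV, Perm.mul_apply, bit_win_out (by omega), bit_inP_ge (by omega)]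
    -- the network on bit r = false
    have hnet0 : ∀ z, bit z r = false → net ωi θ r z = U (win ω'' l b (V z)) := by
      intro z hz
      rw [hnet, e1, e2]
      simp only [Perm.mul_apply]
      congr 1
      have : bit (win ω 0 l (inP ωi 0 r z)) r = false := by
        have := hbitV z
        rw [hV, Perm.mul_apply] at this
        rw [this, hz]
      rw [win_congr_bit (v := false) hlr hin0 this]
      rfl
    -- the network on bit r = true
    have hnet1 : ∀ z, bit z r = true → net ωi θ r z = net ωi θ0 r z := by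
      intro z hz
      rw [net_eq, net_eq, Perm.mul_apply, Perm.mul_apply]
      apply win_congr_bit (v := true) (by omega) (fun i _ _ z hz => hin1 i z hz)
      rw [bit_inP_ge (by omega), hz]
    have hinv1 : ∀ w, bit w r = true → (net ωi θ r)⁻¹ w = (net ωi θ0 r)⁻¹ w := by
      intro w hw
      rw [Perm.inv_eq_iff_eq]
      have hb1 : bit ((net ωi θ0 r)⁻¹ w) r = true := by
        have := bit_net_ge (le_refl r) ωi θ0 ((net ωi θ0 r)⁻¹ w)
        rw [apply_inv'] at this
        rw [← this, hw]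
      rw [hnet1 _ hb1, apply_inv']
    have hHH : ∀ z ∈ D, HH ωi θ r z = Q (win ω'' l b (V z)) := by
      intro z hz
      have hz' := hD z hz
      unfold HH
      rw [hQ]
      simp only [Perm.mul_apply]
      rw [hnet0 z hz', flP_apply, hinv1]
      · rfl
      · rw [flP_apply, bit_fl hrd, ← hnet0 z hz', bit_net_ge le_rfl, hz']
        rfl
    rw [orbs_congr hHH, ← orbs_conj V]
    congr 1
    funext w
    simp [Perm.mul_apply]
  simp only [key]
  have h := LD d l β (by omega) (V * Q) (D.image V)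
  rw [Finset.card_image_of_injective _ V.injective] at h
  exact h

end decomposition

section groups

variable {d : ℕ}

/-- Sum of the numbers of classes over the group `m`. -/
noncomputable def Wg (g : ℕ) (ωi : Coins d) (D : ℕ → Finset (Pos d)) (m : ℕ) (ω : Coins d) : ℝ :=
  ∑ r ∈ Finset.Ico (16 * (g * 2 ^ m)) (32 * (g * 2 ^ m)), (orbs (HH ωi ω r) (D r) : ℝ)

/-- Window average of a group. -/
theorem group_window {g k : ℕ} (hg : 1 ≤ g) (ωi : Coins d) (D : ℕ → Finset (Pos d))
    (hD : ∀ r, ∀ z ∈ D r, bit z r = false) (hDk : ∀ r, 2 * (D r).card ≤ k)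
    (hDd : ∀ r, d ≤ r → D r = ∅) (m : ℕ) (ω : Coins d) :
    (av fun ω' : Coins d => (2 : ℝ) ^ ((1 / 256 : ℝ) *
      Wg g ωi D m (mix (Wn d (8 * (g * 2 ^ m)) (8 * (g * 2 ^ m))) ω' ω))) ≤
      Real.exp (k / 2 ^ (g * 2 ^ m)) := by
  set β := g * 2 ^ m with hβ
  have hβ1 : 1 ≤ β := by
    rw [hβ]
    exact Nat.one_le_iff_ne_zero.2 (by positivity)
  have hβ0 : (0 : ℝ) < β := by exact_mod_cast hβ1
  set R := Finset.Ico (16 * β) (32 * β) with hR
  have hRc : R.card = 16 * β := by rw [hR, Nat.card_Ico]; omega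
  have hpt : ∀ ω' : Coins d, (2 : ℝ) ^ ((1 / 256 : ℝ) *
      Wg g ωi D m (mix (Wn d (8 * β) (8 * β)) ω' ω)) ≤
      ∑ r ∈ R, (1 / (16 * β) : ℝ) * (2 : ℝ) ^ ((β / 16 : ℝ) *
        (orbs (HH ωi (mix (Wn d (8 * β) (8 * β)) ω' ω) r) (D r) : ℝ)) := by
    intro ω'
    have h := Real.geom_mean_le_arith_mean_weighted R (fun _ => (1 / (16 * β) : ℝ))
      (fun r => (2 : ℝ) ^ ((β / 16 : ℝ) *
        (orbs (HH ωi (mix (Wn d (8 * β) (8 * β)) ω' ω) r) (D r) : ℝ)))
      (fun _ _ => by positivity) (by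
        rw [Finset.sum_const, hRc, nsmul_eq_mul]
        push_cast
        field_simp) (fun _ _ => by positivity)
    refine le_trans (le_of_eq ?_) h
    have h1 : ∀ r ∈ R, ((2 : ℝ) ^ ((β / 16 : ℝ) *
        (orbs (HH ωi (mix (Wn d (8 * β) (8 * β)) ω' ω) r) (D r) : ℝ))) ^ (1 / (16 * β) : ℝ) =
        (2 : ℝ) ^ ((1 / 256 : ℝ) *
          (orbs (HH ωi (mix (Wn d (8 * β) (8 * β)) ω' ω) r) (D r) : ℝ)) := by
      intro r _
      rw [← Real.rpow_mul (by norm_num)]
      congr 1
      field_simp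
      ring
    rw [Finset.prod_congr rfl h1, ← Real.rpow_sum_of_pos (by norm_num), ← Finset.mul_sum]
    rfl
  refine (av_mono hpt).trans ?_
  rw [av_sum]
  have hr : ∀ r ∈ R, (av fun ω' : Coins d => (1 / (16 * β) : ℝ) * (2 : ℝ) ^ ((β / 16 : ℝ) *
        (orbs (HH ωi (mix (Wn d (8 * β) (8 * β)) ω' ω) r) (D r) : ℝ))) ≤
        (1 / (16 * β) : ℝ) * Real.exp (k / 2 ^ β) := by
    intro r hr
    rw [av_mul_left]
    refine mul_le_mul_of_nonneg_left ?_ (by positivity)
    by_cases hrd : r < d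
    · refine (window (8 * β) β r ?_ hrd ωi ω (D r) (hD r)).trans ?_
      · have := (Finset.mem_Ico.1 hr).1
        omega
      · apply Real.exp_le_exp.2
        have : ((2 * (D r).card : ℕ) : ℝ) ≤ k := by exact_mod_cast hDk r
        push_cast at this
        gcongr
    · rw [hDd r (by omega)]
      have h0 : ∀ f : Pos d → Pos d, orbs f (∅ : Finset (Pos d)) = 0 := by
        intro f
        have := orbs_le_card f (∅ : Finset (Pos d))
        simpa using this
      simp only [h0, Nat.cast_zero, mul_zero, Real.rpow_zero]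
      rw [av_const]
      exact Real.one_le_exp (by positivity)
  refine (Finset.sum_le_sum hr).trans ?_
  rw [Finset.sum_const, hRc, nsmul_eq_mul]
  push_cast
  rw [← mul_assoc]
  have : (16 * (β : ℝ)) * (1 / (16 * β)) = 1 := by field_simp
  rw [this, one_mul]

/-- The groups of smaller index do not depend on the window. -/
theorem Wg_mix {g m l b : ℕ} (hl : 32 * (g * 2 ^ m) ≤ l) (ωi : Coins d)
    (D : ℕ → Finset (Pos d)) (ω' ω : Coins d) :
    Wg g ωi D m (mix (Wn d l b) ω' ω) = Wg g ωi D m ω := by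
  unfold Wg
  refine Finset.sum_congr rfl fun r hr => ?_
  have hr' := (Finset.mem_Ico.1 hr).2
  rw [HH_congr (ωi' := ωi) (ωo' := ω) (fun _ _ _ => rfl) (fun i hi z => ?_)]
  apply coin_mix_of_not
  intro h
  simp only [Wn]
  omega

theorem groups_iter {g k : ℕ} (hg : 1 ≤ g) (ωi : Coins d) (D : ℕ → Finset (Pos d))
    (hD : ∀ r, ∀ z ∈ D r, bit z r = false) (hDk : ∀ r, 2 * (D r).card ≤ k)
    (hDd : ∀ r, d ≤ r → D r = ∅) (e : ℕ) (M : ℕ) :
    (av fun ω : Coins d => ∏ i ∈ range M, (2 : ℝ) ^ ((1 / 256 : ℝ) * Wg g ωi D (2 * i + e) ω)) ≤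
      ∏ i ∈ range M, Real.exp (k / 2 ^ (g * 2 ^ (2 * i + e))) := by
  induction M with
  | zero => simp [av_const]
  | succ M ih =>
    set β := g * 2 ^ (2 * M + e) with hβ
    rw [← av_mix (Wn d (8 * β) (8 * β)), av_comm]
    simp only [Finset.prod_range_succ]
    have h1 : ∀ ω' ω : Coins d, ∏ i ∈ range M, (2 : ℝ) ^ ((1 / 256 : ℝ) *
        Wg g ωi D (2 * i + e) (mix (Wn d (8 * β) (8 * β)) ω' ω)) =
        ∏ i ∈ range M, (2 : ℝ) ^ ((1 / 256 : ℝ) * Wg g ωi D (2 * i + e) ω) := by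
      intro ω' ω
      refine Finset.prod_congr rfl fun i hi => ?_
      have hi' := Finset.mem_range.1 hi
      rw [Wg_mix]
      rw [hβ]
      have h2 : 2 ^ (2 * i + e) * 4 ≤ 2 ^ (2 * M + e) := by
        have : 2 ^ (2 * i + e) * 4 = 2 ^ (2 * i + e + 2) := by ring
        rw [this]
        exact Nat.pow_le_pow_right (by norm_num) (by omega)
      nlinarith
    simp only [h1]
    calc (av fun ω : Coins d => av fun ω' : Coins d =>
          (∏ i ∈ range M, (2 : ℝ) ^ ((1 / 256 : ℝ) * Wg g ωi D (2 * i + e) ω)) *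
            (2 : ℝ) ^ ((1 / 256 : ℝ) * Wg g ωi D (2 * M + e)
              (mix (Wn d (8 * β) (8 * β)) ω' ω)))
        = av fun ω : Coins d =>
          (∏ i ∈ range M, (2 : ℝ) ^ ((1 / 256 : ℝ) * Wg g ωi D (2 * i + e) ω)) *
            av fun ω' : Coins d => (2 : ℝ) ^ ((1 / 256 : ℝ) * Wg g ωi D (2 * M + e)
              (mix (Wn d (8 * β) (8 * β)) ω' ω)) := by
          refine av_congr fun ω => ?_
          rw [av_mul_left]
      _ ≤ av fun ω : Coins d =>
          (∏ i ∈ range M, (2 : ℝ) ^ ((1 / 256 : ℝ) * Wg g ωi D (2 * i + e) ω)) *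
            Real.exp (k / 2 ^ β) :=
          av_mono fun ω => mul_le_mul_of_nonneg_left
            (group_window hg ωi D hD hDk hDd (2 * M + e) ω)
            (Finset.prod_nonneg fun _ _ => by positivity)
      _ = (av fun ω : Coins d =>
          (∏ i ∈ range M, (2 : ℝ) ^ ((1 / 256 : ℝ) * Wg g ωi D (2 * i + e) ω))) *
            Real.exp (k / 2 ^ β) := av_mul_right _ _
      _ ≤ _ := mul_le_mul_of_nonneg_right ih (Real.exp_pos _).le

theorem groups_iter' {g k : ℕ} (hg : 1 ≤ g) (ωi : Coins d) (D : ℕ → Finset (Pos d))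
    (hD : ∀ r, ∀ z ∈ D r, bit z r = false) (hDk : ∀ r, 2 * (D r).card ≤ k)
    (hDd : ∀ r, d ≤ r → D r = ∅) (e : ℕ) (M : ℕ) :
    (av fun ω : Coins d => (2 : ℝ) ^ ((1 / 256 : ℝ) * ∑ i ∈ range M, Wg g ωi D (2 * i + e) ω)) ≤
      Real.exp (2 * k / 2 ^ g) := by
  have h1 : ∀ ω : Coins d, (2 : ℝ) ^ ((1 / 256 : ℝ) * ∑ i ∈ range M, Wg g ωi D (2 * i + e) ω) =
      ∏ i ∈ range M, (2 : ℝ) ^ ((1 / 256 : ℝ) * Wg g ωi D (2 * i + e) ω) := by
    intro ω
    rw [Finset.mul_sum, Real.rpow_sum_of_pos (by norm_num)]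
  simp only [h1]
  refine (groups_iter hg ωi D hD hDk hDd e M).trans ?_
  rw [← Real.exp_sum]
  apply Real.exp_le_exp.2
  have h2 : ∀ i ∈ range M, (k : ℝ) / 2 ^ (g * 2 ^ (2 * i + e)) ≤ (k / 2 ^ g) * (1 / 2) ^ i := by
    intro i _
    have e1 : g + i ≤ g * 2 ^ (2 * i + e) := by
      have : 2 * i + e < 2 ^ (2 * i + e) := Nat.lt_two_pow_self
      nlinarith
    have e2 : (2 : ℝ) ^ (g + i) ≤ 2 ^ (g * 2 ^ (2 * i + e)) :=
      pow_le_pow_right₀ (by norm_num) e1
    have e3 : (k / 2 ^ g : ℝ) * (1 / 2) ^ i = k / 2 ^ (g + i) := by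
      rw [pow_add, one_div, inv_pow, div_mul_eq_div_div, div_eq_mul_inv _ ((2 : ℝ) ^ i)]
    rw [e3]
    gcongr
  refine (Finset.sum_le_sum h2).trans ?_
  rw [← Finset.mul_sum]
  have h3 : ∑ i ∈ range M, (1 / 2 : ℝ) ^ i ≤ 2 := by
    have h4 : ∀ M : ℕ, ∑ i ∈ range M, (1 / 2 : ℝ) ^ i = 2 - 2 * (1 / 2) ^ M := by
      intro M
      induction M with
      | zero => simp
      | succ M ih => rw [Finset.sum_range_succ, ih, pow_succ]; ring
    rw [h4]
    have : (0 : ℝ) ≤ 2 * (1 / 2) ^ M := by positivity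
    linarith
  have h5 : (0 : ℝ) ≤ k / 2 ^ g := by positivity
  have := mul_le_mul_of_nonneg_left h3 h5
  calc (k / 2 ^ g : ℝ) * ∑ i ∈ range M, (1 / 2 : ℝ) ^ i ≤ k / 2 ^ g * 2 := this
    _ = 2 * k / 2 ^ g := by ring

theorem sum_groups (g : ℕ) (ωi : Coins d) (D : ℕ → Finset (Pos d)) (ω : Coins d) (M : ℕ) :
    ∑ m ∈ range M, Wg g ωi D m ω =
      ∑ r ∈ Finset.Ico (16 * g) (16 * (g * 2 ^ M)), (orbs (HH ωi ω r) (D r) : ℝ) := by
  induction M with
  | zero => simp
  | succ M ih =>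
    have e : 32 * (g * 2 ^ M) = 16 * (g * 2 ^ (M + 1)) := by rw [pow_succ]; ring
    rw [Finset.sum_range_succ, ih, Wg, e, Finset.sum_Ico_consecutive]
    · have : 1 ≤ 2 ^ M := Nat.one_le_two_pow
      nlinarith
    · rw [pow_succ]
      nlinarith [Nat.zero_le (g * 2 ^ M)]

/-- **Part B.** -/
theorem partB : PartB := by
  intro d g k hg ωi D hD hDk
  set D' : ℕ → Finset (Pos d) := fun r => if r < d then D r else ∅ with hD'
  have hD1 : ∀ r, ∀ z ∈ D' r, bit z r = false := by
    intro r z hz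
    rw [hD'] at hz
    dsimp only at hz
    by_cases hr : r < d
    · rw [if_pos hr] at hz; exact hD r z hz
    · rw [if_neg hr] at hz; exact absurd hz (Finset.notMem_empty z)
  have hD2 : ∀ r, 2 * (D' r).card ≤ k := by
    intro r
    rw [hD']
    dsimp only
    by_cases hr : r < d
    · rw [if_pos hr]; exact hDk r
    · rw [if_neg hr]; simp
  have hD3 : ∀ r, d ≤ r → D' r = ∅ := by
    intro r hr
    rw [hD']
    dsimp only
    rw [if_neg (by omega)]
  have hpt : ∀ ω : Coins d, (2 : ℝ) ^ ((1 / 512 : ℝ) *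
      ∑ r ∈ Finset.Ico (16 * g) d, (orbs (HH ωi ω r) (D r) : ℝ)) ≤
      (1 / 2) * (2 : ℝ) ^ ((1 / 256 : ℝ) * ∑ i ∈ range d, Wg g ωi D' (2 * i + 0) ω) +
      (1 / 2) * (2 : ℝ) ^ ((1 / 256 : ℝ) * ∑ i ∈ range d, Wg g ωi D' (2 * i + 1) ω) := by
    intro ω
    have h1 : ∑ r ∈ Finset.Ico (16 * g) d, (orbs (HH ωi ω r) (D r) : ℝ) ≤
        ∑ r ∈ Finset.Ico (16 * g) (16 * (g * 2 ^ (2 * d))), (orbs (HH ωi ω r) (D' r) : ℝ) := by
      have e1 : ∑ r ∈ Finset.Ico (16 * g) d, (orbs (HH ωi ω r) (D r) : ℝ) =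
          ∑ r ∈ Finset.Ico (16 * g) d, (orbs (HH ωi ω r) (D' r) : ℝ) := by
        refine Finset.sum_congr rfl fun r hr => ?_
        rw [hD']
        dsimp only
        rw [if_pos (Finset.mem_Ico.1 hr).2]
      rw [e1]
      refine Finset.sum_le_sum_of_subset_of_nonneg ?_ fun _ _ _ => Nat.cast_nonneg _
      apply Finset.Ico_subset_Ico_right
      have : 2 * d < 2 ^ (2 * d) := Nat.lt_two_pow_self
      nlinarith
    rw [← sum_groups] at h1
    have h2 : ∀ M : ℕ, ∑ m ∈ range (2 * M), Wg g ωi D' m ω =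
        ∑ i ∈ range M, Wg g ωi D' (2 * i + 0) ω + ∑ i ∈ range M, Wg g ωi D' (2 * i + 1) ω := by
      intro M
      induction M with
      | zero => simp
      | succ M ih =>
        rw [show 2 * (M + 1) = 2 * M + 1 + 1 by ring, Finset.sum_range_succ,
          Finset.sum_range_succ, ih, Finset.sum_range_succ, Finset.sum_range_succ]
        simp only [Nat.add_zero]
        ring
    rw [h2] at h1
    set a := ∑ i ∈ range d, Wg g ωi D' (2 * i + 0) ω with ha
    set c := ∑ i ∈ range d, Wg g ωi D' (2 * i + 1) ω with hc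
    calc (2 : ℝ) ^ ((1 / 512 : ℝ) * ∑ r ∈ Finset.Ico (16 * g) d, (orbs (HH ωi ω r) (D r) : ℝ))
        ≤ (2 : ℝ) ^ ((1 / 512 : ℝ) * (a + c)) := by
          apply Real.rpow_le_rpow_of_exponent_le (by norm_num)
          linarith
      _ = ((2 : ℝ) ^ ((1 / 256 : ℝ) * a)) ^ (1 / 2 : ℝ) *
          ((2 : ℝ) ^ ((1 / 256 : ℝ) * c)) ^ (1 / 2 : ℝ) := by
          rw [← Real.rpow_mul (by norm_num), ← Real.rpow_mul (by norm_num),
            ← Real.rpow_add (by norm_num)]
          congr 1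
          ring
      _ ≤ _ := Real.geom_mean_le_arith_mean2_weighted (by norm_num) (by norm_num)
          (by positivity) (by positivity) (by norm_num)
  refine (av_mono hpt).trans ?_
  rw [av_add, av_mul_left, av_mul_left]
  have h0 := groups_iter' hg ωi D' hD1 hD2 hD3 0 d
  have h1 := groups_iter' hg ωi D' hD1 hD2 hD3 1 d
  linarith

end groups

/-- **Part TRACE.** -/
theorem trace_bound (d g k : ℕ) (hg : 1 ≤ g) :
    ((benes d k d) ^ 1024).trace ≤
      Real.exp (k * (2046 / 2 ^ g + k / 2 ^ d * 2 ^ (32 * g))) :=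
  trace_bound_of partB d g k hg

end Vale.Agent.ThorpO
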