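import Vale.Agent.ThorpO.Rep
import Vale.Agent.ThorpO.Num
import Vale.Agent.ThorpO.PartB

/-!
# P162: assembly of the upper bound, from the pieces of part ALPHA
-/

open scoped InnerProductSpace
open Equiv Finset

namespace Vale.Agent.ThorpO.MO

section ops

variable {m : ℕ}

theorem norm_mat_le {V : Type*} [NormedAddCommGroup V] [InnerProductSpace ℝ V] {X : Type*}
    [Fintype X] [DecidableEq X] {ρ : Perm X →* (V →L[ℝ] V)} (hρ : Thorp.IsOrth ρ) (τ : X → X)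
    (v : V) : ‖Thorp.mat ρ τ v‖ ≤ ‖v‖ := by
  have h : Thorp.mat ρ τ v = ((Thorp.GT τ).card : ℝ)⁻¹ • ∑ g ∈ Thorp.GT τ, ρ g v := by
    unfold Thorp.mat
    simp
  rw [h, norm_smul, Real.norm_of_nonneg (by positivity)]
  have h2 : ‖∑ g ∈ Thorp.GT τ, ρ g v‖ ≤ ∑ _g ∈ Thorp.GT τ, ‖v‖ := by
    refine (norm_sum_le _ _).trans (Finset.sum_le_sum fun c _ => ?_)
    rw [hρ]
  rw [Finset.sum_const, nsmul_eq_mul] at h2
  rcases Nat.eq_zero_or_pos (Thorp.GT τ).card with h0 | h0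
  · rw [h0]; simp
  · have h0' : (0 : ℝ) < (Thorp.GT τ).card := by exact_mod_cast h0
    calc ((Thorp.GT τ).card : ℝ)⁻¹ * ‖∑ g ∈ Thorp.GT τ, ρ g v‖ ≤
          ((Thorp.GT τ).card : ℝ)⁻¹ * ((Thorp.GT τ).card * ‖v‖) := by gcongr
      _ = ‖v‖ := by rw [← mul_assoc, inv_mul_cancel₀ h0'.ne', one_mul]

theorem norm_passR_le {V : Type*} [NormedAddCommGroup V] [InnerProductSpace ℝ V]
    {ρ : Perm (Pos m) →* (V →L[ℝ] V)} (hρ : Thorp.IsOrth ρ) (r : ℕ) (v : V) :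
    ‖passR ρ r v‖ ≤ ‖v‖ := by
  induction r generalizing v with
  | zero => simp [passR]
  | succ r ih => exact (ih _).trans (norm_mat_le hρ _ v)

theorem norm_PP_le (v : EuclideanSpace ℝ (Perm (Pos m))) : ‖PP m v‖ ≤ ‖v‖ :=
  norm_passR_le (Thorp.reg_orth _) m v

theorem norm_PP_pow_le (k : ℕ) (v : EuclideanSpace ℝ (Perm (Pos m))) :
    ‖((PP m) ^ k) v‖ ≤ ‖v‖ := Thorp.norm_pow_le norm_PP_le k v

/-- Invariant subspaces. -/
theorem mat_mem {V : Type*} [NormedAddCommGroup V] [InnerProductSpace ℝ V] {X : Type*}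
    [Fintype X] [DecidableEq X] {ρ : Perm X →* (V →L[ℝ] V)} (τ : X → X) {N : Submodule ℝ V}
    (hN : ∀ g, ∀ v ∈ N, ρ g v ∈ N) {v : V} (hv : v ∈ N) : Thorp.mat ρ τ v ∈ N := by
  have h : Thorp.mat ρ τ v = ((Thorp.GT τ).card : ℝ)⁻¹ • ∑ g ∈ Thorp.GT τ, ρ g v := by
    unfold Thorp.mat
    simp
  rw [h]
  exact N.smul_mem _ (N.sum_mem fun g _ => hN g v hv)

theorem passR_mem {V : Type*} [NormedAddCommGroup V] [InnerProductSpace ℝ V]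
    {ρ : Perm (Pos m) →* (V →L[ℝ] V)} {N : Submodule ℝ V}
    (hN : ∀ g, ∀ v ∈ N, ρ g v ∈ N) (r : ℕ) {v : V} (hv : v ∈ N) : passR ρ r v ∈ N := by
  induction r generalizing v with
  | zero => simpa [passR] using hv
  | succ r ih => exact ih (mat_mem _ hN hv)

theorem PP_pow_mem {N : Submodule ℝ (EuclideanSpace ℝ (Perm (Pos m)))}
    (hN : ∀ g, ∀ v ∈ N, Thorp.reg (Pos m) g v ∈ N) (k : ℕ)
    {v : EuclideanSpace ℝ (Perm (Pos m))} (hv : v ∈ N) : ((PP m) ^ k) v ∈ N := by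
  induction k with
  | zero => simpa using hv
  | succ k ih =>
    rw [pow_succ']
    exact passR_mem hN m ih

theorem PP_pow_W (k b : ℕ) {v : EuclideanSpace ℝ (Perm (Pos m))} (hv : v ∈ Thorp.PD.W (Pos m) b) :
    ((PP m) ^ k) v ∈ Thorp.PD.W (Pos m) b :=
  PP_pow_mem (fun g _ hv => Thorp.PD.reg_W g b hv) k hv

theorem PP_pow_W_orth (k b : ℕ) {v : EuclideanSpace ℝ (Perm (Pos m))}
    (hv : v ∈ (Thorp.PD.W (Pos m) b)ᗮ) : ((PP m) ^ k) v ∈ (Thorp.PD.W (Pos m) b)ᗮ :=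
  PP_pow_mem (fun g _ hv => Thorp.PD.reg_W_orth g b hv) k hv

theorem comp_sub_mem (j : ℕ) (hj : 1 ≤ j) :
    Thorp.PD.comp (Pos m) (j - 1) - Thorp.PD.comp (Pos m) j ∈ Thorp.PD.W (Pos m) j ∧
    Thorp.PD.comp (Pos m) (j - 1) - Thorp.PD.comp (Pos m) j ∈ (Thorp.PD.W (Pos m) (j - 1))ᗮ := by
  have hW1 : Thorp.PD.W (Pos m) (j - 1) ≤ Thorp.PD.W (Pos m) j := Thorp.PD.W_mono (by omega)
  constructor
  · have : Thorp.PD.comp (Pos m) (j - 1) - Thorp.PD.comp (Pos m) j =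
        (Thorp.PD.W (Pos m) j).starProjection (Thorp.dlt (Pos m)) -
          (Thorp.PD.W (Pos m) (j - 1)).starProjection (Thorp.dlt (Pos m)) := by
      unfold Thorp.PD.comp; abel
    rw [this]
    exact Submodule.sub_mem _ (Submodule.starProjection_apply_mem _ _)
      (hW1 (Submodule.starProjection_apply_mem _ _))
  · exact Submodule.sub_mem _ (Thorp.PD.comp_mem (j - 1))
      (Submodule.orthogonal_le hW1 (Thorp.PD.comp_mem j))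

theorem pyth (R j : ℕ) (hj : 1 ≤ j) :
    ‖((PP m) ^ R) (Thorp.PD.comp (Pos m) (j - 1))‖ ^ 2 =
      ‖((PP m) ^ R) (Thorp.PD.comp (Pos m) (j - 1) - Thorp.PD.comp (Pos m) j)‖ ^ 2 +
        ‖((PP m) ^ R) (Thorp.PD.comp (Pos m) j)‖ ^ 2 := by
  set w := Thorp.PD.comp (Pos m) (j - 1) - Thorp.PD.comp (Pos m) j with hw
  have h1 : ((PP m) ^ R) (Thorp.PD.comp (Pos m) (j - 1)) =
      ((PP m) ^ R) w + ((PP m) ^ R) (Thorp.PD.comp (Pos m) j) := by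
    rw [← map_add, hw]
    congr 1
    abel
  have h2 : ⟪((PP m) ^ R) w, ((PP m) ^ R) (Thorp.PD.comp (Pos m) j)⟫_ℝ = 0 :=
    (Submodule.mem_orthogonal _ _).1 (PP_pow_W_orth R j (Thorp.PD.comp_mem j)) _
      (PP_pow_W R j (comp_sub_mem j hj).1)
  rw [h1, norm_add_sq_real, h2]
  ring

end ops

theorem mul3_apply {V : Type*} [NormedAddCommGroup V] [InnerProductSpace ℝ V]
    (A B C : V →L[ℝ] V) (w : V) : (A * B * C) w = A (B (C w)) := rfl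

/-- Trace bounds used in the assembly. -/
theorem trace_level (m j : ℕ) (hjm : j ≤ 2 ^ m) :
    ((benes m j m) ^ 1024).trace ≤ Real.exp (j * (1023 + 2 ^ 32)) := by
  refine (trace_bound m 1 j le_rfl).trans (Real.exp_le_exp.2 ?_)
  refine mul_le_mul_of_nonneg_left ?_ (Nat.cast_nonneg _)
  have h1 : (j : ℝ) / 2 ^ m ≤ 1 := by
    rw [div_le_one (by positivity)]
    exact_mod_cast hjm
  norm_num
  nlinarith

/-- The upper bound from the pieces, with abstract numbers of passes. -/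
theorem main_gen (A B : ℕ)
    (hflat : ∀ d T t : ℕ, (d + 1) * T ≤ t →
      ‖((Thorp.avgOf (Thorp.reg (Fin (2 * 2 ^ d))) (Thorp.shuf (2 ^ d))) ^ t)
        (Thorp.dlt (Fin (2 * 2 ^ d)))‖ ≤ ‖((PP (d + 1)) ^ T) (Thorp.dlt (Pos (d + 1)))‖)
    (hdecay : ∀ (m r b : ℕ) (_ : b + 1 ≤ 2 ^ m) (v : EuclideanSpace ℝ (Perm (Pos m)))
      (_ : v ∈ (Thorp.PD.W (Pos m) b)ᗮ),
      ‖((PP m) ^ r) v‖ ^ 2 ≤ Real.exp (-(r * (b + 1) / 144)) * ‖v‖ ^ 2)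
    (hlevel : ∀ (m j : ℕ) (_ : 1 ≤ j) (_ : j ≤ 2 ^ m), ((2 ^ m).factorial : ℝ) *
      ‖((PP m) ^ A) (Thorp.PD.comp (Pos m) (j - 1) - Thorp.PD.comp (Pos m) j)‖ ^ 2 ≤
      ((2 ^ m).choose j : ℝ) * Real.exp (j * (1023 + 2 ^ 32)))
    (hall : ∀ m b : ℕ,
      ((2 ^ m).factorial : ℝ) * ‖((PP m) ^ A) (Thorp.PD.comp (Pos m) b)‖ ^ 2 ≤
      Real.exp ((2 ^ m : ℕ) * (1023 + 2 ^ 32)))
    (hnorm : ∀ (m j g : ℕ) (_ : 1 ≤ j) (_ : 1 ≤ g) (_ : 2 ^ (34 * g) * j ≤ 2 ^ m)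
      (v : EuclideanSpace ℝ (Perm (Pos m))) (_ : v ∈ Thorp.PD.W (Pos m) j)
      (_ : v ∈ (Thorp.PD.W (Pos m) (j - 1))ᗮ),
      ‖((PP m) ^ B) v‖ ^ 2 ≤ ((Real.exp 3073 / 2 ^ g) ^ j) ^ 136 * ‖v‖ ^ 2) :
    ∃ T : ℕ, ∀ d t : ℕ, T * (d + 1) ≤ t → Thorp.tv (2 ^ d) t ≤ 1 / 4 := by
  obtain ⟨T2, hT2⟩ := num3
  refine ⟨T2 + B + A, ?_⟩
  intro d t ht
  obtain ⟨R, hR⟩ : ∃ R, R = T2 + B + A := ⟨_, rfl⟩
  rw [← hR] at ht
  have hm0 := hflat d R t (by rw [mul_comm]; exact ht)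
  have htv := Thorp.tv_le (2 ^ d) t
  obtain ⟨m, hm⟩ : ∃ m, m = d + 1 := ⟨_, rfl⟩
  obtain ⟨n, hn⟩ : ∃ n, n = 2 ^ m := ⟨_, rfl⟩
  have h3 : 2 * 2 ^ d = n := by rw [hn, hm, pow_succ]; ring
  rw [← hm] at hm0
  have hn0 : (0 : ℝ) < (n : ℝ) := by rw [hn]; positivity
  obtain ⟨N, hN⟩ : ∃ N : ℝ, N = (n.factorial : ℝ) := ⟨_, rfl⟩
  have hN0 : 0 < N := by rw [hN]; positivity
  obtain ⟨j0, hj0⟩ : ∃ j0, j0 = ⌊al * n⌋₊ := ⟨_, rfl⟩
  have hal := al_pos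
  have hj0a : (j0 : ℝ) ≤ al * n := by rw [hj0]; exact Nat.floor_le (by positivity)
  have hj0b : al * n < j0 + 1 := by rw [hj0]; exact Nat.lt_floor_add_one _
  have hn2 : 2 ≤ n := by
    rw [hn, hm, pow_succ]
    have : 1 ≤ 2 ^ d := Nat.one_le_two_pow
    omega
  have hj0n : 2 * j0 ≤ n := by
    have h1 : (j0 : ℝ) ≤ 1 / 2 ^ 34 * n :=
      hj0a.trans (mul_le_mul_of_nonneg_right al_le hn0.le)
    have h2 : (2 * j0 : ℝ) ≤ n := by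
      have : (1 / 2 ^ 34 : ℝ) ≤ 1 / 2 := by norm_num
      nlinarith
    exact_mod_cast h2
  have hsplit : ∀ w : EuclideanSpace ℝ (Perm (Pos m)),
      ((PP m) ^ R) w = ((PP m) ^ T2) (((PP m) ^ B) (((PP m) ^ A) w)) := by
    intro w
    rw [hR, pow_add, pow_add, mul3_apply]
  -- low levels
  have hlow : ∀ j : ℕ, 1 ≤ j → j ≤ j0 →
      N * ‖((PP m) ^ R) (Thorp.PD.comp (Pos m) (j - 1) - Thorp.PD.comp (Pos m) j)‖ ^ 2 ≤
        (1 / 4) ^ j * (j / n) := by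
    intro j hj hjj0
    have hja : (j : ℝ) ≤ al * n := le_trans (by exact_mod_cast hjj0) hj0a
    have hjn : j ≤ n := by omega
    obtain ⟨g, hg1, hg2, hg3⟩ := num1 hj hja
    have e4 := hlevel m j hj (by rw [← hn]; exact hjn)
    rw [← hn, ← hN] at e4
    have hw1 := (comp_sub_mem (m := m) j hj).1
    have hw2 := (comp_sub_mem (m := m) j hj).2
    generalize Thorp.PD.comp (Pos m) (j - 1) - Thorp.PD.comp (Pos m) j = w at *
    have e3 := hnorm m j g hj hg1 (by rw [← hn]; exact hg2) _ (PP_pow_W A j hw1)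
      (PP_pow_W_orth A (j - 1) hw2)
    have e2 : ‖((PP m) ^ R) w‖ ^ 2 ≤ ‖((PP m) ^ B) (((PP m) ^ A) w)‖ ^ 2 := by
      rw [hsplit]
      exact pow_le_pow_left₀ (norm_nonneg _) (norm_PP_pow_le _ _) 2
    calc N * ‖((PP m) ^ R) w‖ ^ 2 ≤
          N * (((Real.exp 3073 / 2 ^ g) ^ j) ^ 136 * ‖((PP m) ^ A) w‖ ^ 2) :=
          mul_le_mul_of_nonneg_left (e2.trans e3) hN0.le
      _ = ((Real.exp 3073 / 2 ^ g) ^ j) ^ 136 * (N * ‖((PP m) ^ A) w‖ ^ 2) := by ring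
      _ ≤ ((Real.exp 3073 / 2 ^ g) ^ j) ^ 136 *
          ((n.choose j : ℝ) * Real.exp (j * (1023 + 2 ^ 32))) :=
          mul_le_mul_of_nonneg_left e4 (by positivity)
      _ ≤ _ := num2 hj hja hg3
  -- high levels
  have hhigh : N * ‖((PP m) ^ R) (Thorp.PD.comp (Pos m) j0)‖ ^ 2 ≤ 1 / 20 := by
    have e4 := hall m j0
    have hcm := Thorp.PD.comp_mem (X := Pos m) j0
    rw [← hn, ← hN] at e4
    generalize Thorp.PD.comp (Pos m) j0 = c at *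
    have e2 := hdecay m T2 j0 (by rw [← hn]; omega) _
      (PP_pow_W_orth B j0 (PP_pow_W_orth A j0 hcm))
    rw [← hsplit] at e2
    have e3 : ‖((PP m) ^ B) (((PP m) ^ A) c)‖ ^ 2 ≤ ‖((PP m) ^ A) c‖ ^ 2 :=
      pow_le_pow_left₀ (norm_nonneg _) (norm_PP_pow_le _ _) 2
    calc N * ‖((PP m) ^ R) c‖ ^ 2 ≤
          N * (Real.exp (-(T2 * (j0 + 1) / 144)) * ‖((PP m) ^ A) c‖ ^ 2) :=
          mul_le_mul_of_nonneg_left
            (e2.trans (mul_le_mul_of_nonneg_left e3 (Real.exp_pos _).le)) hN0.le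
      _ = Real.exp (-(T2 * (j0 + 1) / 144)) * (N * ‖((PP m) ^ A) c‖ ^ 2) := by ring
      _ ≤ Real.exp (-(T2 * (j0 + 1) / 144)) * Real.exp (n * (1023 + 2 ^ 32)) :=
          mul_le_mul_of_nonneg_left e4 (Real.exp_pos _).le
      _ ≤ 1 / 20 := hT2 n j0 hj0b
  -- telescoping
  have htel : ∀ J : ℕ, J ≤ j0 → N * ‖((PP m) ^ R) (Thorp.PD.comp (Pos m) 0)‖ ^ 2 ≤
      ∑ j ∈ Finset.Icc 1 J, (1 / 4 : ℝ) ^ j * (j / n) +
        N * ‖((PP m) ^ R) (Thorp.PD.comp (Pos m) J)‖ ^ 2 := by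
    intro J
    induction J with
    | zero => intro _; simp
    | succ J ih =>
      intro hJ
      have h1 := ih (by omega)
      have h2 := pyth (m := m) R (J + 1) (by omega)
      have h3 := hlow (J + 1) (by omega) hJ
      rw [Nat.add_sub_cancel] at h2 h3
      rw [Finset.sum_Icc_succ_top (by omega)]
      rw [h2, mul_add] at h1
      linarith
  have htot : N * ‖((PP m) ^ R) (Thorp.dlt (Pos m))‖ ^ 2 ≤ 1 / 10 := by
    have h1 := htel j0 le_rfl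
    rw [Thorp.PD.comp_zero] at h1
    have h2 := num4 n j0 hj0a
    linarith
  -- total variation
  rw [hN, ← h3] at htot
  exact htv.trans (Thorp.final_calc (Nat.cast_nonneg _) hm0 (norm_nonneg _) htot)

/-- The upper bound from the pieces. -/
theorem main_of
    (hflat : ∀ d T t : ℕ, (d + 1) * T ≤ t →
      ‖((Thorp.avgOf (Thorp.reg (Fin (2 * 2 ^ d))) (Thorp.shuf (2 ^ d))) ^ t)
        (Thorp.dlt (Fin (2 * 2 ^ d)))‖ ≤ ‖((PP (d + 1)) ^ T) (Thorp.dlt (Pos (d + 1)))‖)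
    (hdecay : ∀ (m r b : ℕ) (_ : b + 1 ≤ 2 ^ m) (v : EuclideanSpace ℝ (Perm (Pos m)))
      (_ : v ∈ (Thorp.PD.W (Pos m) b)ᗮ),
      ‖((PP m) ^ r) v‖ ^ 2 ≤ Real.exp (-(r * (b + 1) / 144)) * ‖v‖ ^ 2)
    (hlevel : ∀ (m j : ℕ) (_ : 1 ≤ j) (_ : j ≤ 2 ^ m), ((2 ^ m).factorial : ℝ) *
      ‖((PP m) ^ 1024) (Thorp.PD.comp (Pos m) (j - 1) - Thorp.PD.comp (Pos m) j)‖ ^ 2 ≤
      ((2 ^ m).choose j : ℝ) * ((benes m j m) ^ 1024).trace)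
    (hall : ∀ m b : ℕ,
      ((2 ^ m).factorial : ℝ) * ‖((PP m) ^ 1024) (Thorp.PD.comp (Pos m) b)‖ ^ 2 ≤
      ((benes m (2 ^ m) m) ^ 1024).trace)
    (hnorm : ∀ (m j g r : ℕ) (_ : 1 ≤ j) (_ : 1 ≤ g) (_ : 2 ^ (34 * g) * j ≤ 2 ^ m)
      (v : EuclideanSpace ℝ (Perm (Pos m))) (_ : v ∈ Thorp.PD.W (Pos m) j)
      (_ : v ∈ (Thorp.PD.W (Pos m) (j - 1))ᗮ),
      ‖((PP m) ^ (1024 * r)) v‖ ^ 2 ≤ ((Real.exp 3073 / 2 ^ g) ^ j) ^ r * ‖v‖ ^ 2) :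
    ∃ T : ℕ, ∀ d t : ℕ, T * (d + 1) ≤ t → Thorp.tv (2 ^ d) t ≤ 1 / 4 := by
  refine main_gen 1024 (1024 * 136) hflat hdecay ?_ ?_ ?_
  · intro m j h1 h2
    exact (hlevel m j h1 h2).trans (mul_le_mul_of_nonneg_left (trace_level m j h2)
      (Nat.cast_nonneg _))
  · intro m b
    exact (hall m b).trans (trace_level m (2 ^ m) le_rfl)
  · intro m j g h1 h2 h3 v h4 h5
    exact hnorm m j g 136 h1 h2 h3 v h4 h5

end Vale.Agent.ThorpO.MO
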