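import Vale.Agent.ThorpO.Defs

/-!
# P162, part DELTA: alternating sums of pure functions do not vanish
-/

namespace Vale.Agent.ThorpO

open Finset

section alt

variable {X : Type*} [Fintype X] [DecidableEq X] {j : ℕ}

/-- Alternating sum over the subsets `E` of `R`: `b` on `E`, `a` off `E`. -/
noncomputable def alt (g : (Fin j → X) → ℝ) (R : Finset (Fin j)) (a b : Fin j → X) : ℝ :=
  ∑ E ∈ R.powerset, (-1 : ℝ) ^ E.card * g (fun e => if e ∈ E then b e else a e)

omit [Fintype X] [DecidableEq X] in
theorem alt_empty (g : (Fin j → X) → ℝ) (a b : Fin j → X) : alt g ∅ a b = g a := by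
  simp [alt]

omit [Fintype X] [DecidableEq X] in
theorem alt_insert (g : (Fin j → X) → ℝ) {s : Finset (Fin j)} {e : Fin j} (he : e ∉ s)
    (a b : Fin j → X) :
    alt g (insert e s) a b = alt g s a b - alt g s (Function.update a e (b e)) b := by
  unfold alt
  rw [Finset.sum_powerset_insert he, sub_eq_add_neg, ← Finset.sum_neg_distrib]
  congr 1
  refine Finset.sum_congr rfl fun E hE => ?_
  have heE : e ∉ E := fun h => he (Finset.mem_powerset.1 hE h)
  rw [Finset.card_insert_of_notMem heE, pow_succ]
  have : (fun e' => if e' ∈ insert e E then b e' else a e') =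
      (fun e' => if e' ∈ E then b e' else Function.update a e (b e) e') := by
    funext e'
    by_cases h : e' = e
    · subst h
      rw [if_pos (Finset.mem_insert_self _ _), if_neg heE, Function.update_self]
    · rw [Function.update_of_ne h]
      by_cases h2 : e' ∈ E
      · rw [if_pos (Finset.mem_insert_of_mem h2), if_pos h2]
      · rw [if_neg h2, if_neg]
        intro h3
        rcases Finset.mem_insert.1 h3 with h4 | h4
        · exact h h4
        · exact h2 h4
  rw [this]
  ring

omit [Fintype X] [DecidableEq X] in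
theorem alt_congr_b (g : (Fin j → X) → ℝ) {s : Finset (Fin j)} (a : Fin j → X)
    {b b' : Fin j → X} (h : ∀ e ∈ s, b e = b' e) : alt g s a b = alt g s a b' := by
  unfold alt
  refine Finset.sum_congr rfl fun E hE => ?_
  congr 2
  funext e
  by_cases h2 : e ∈ E
  · rw [if_pos h2, if_pos h2, h e (Finset.mem_powerset.1 hE h2)]
  · rw [if_neg h2, if_neg h2]

theorem ext0_eq_zero (f : (Fin j ↪ X) → ℝ) {z : Fin j → X} (h : ¬ Function.Injective z) :
    ext0 f z = 0 := by
  unfold ext0
  rw [dif_neg h]

theorem ext0_coe (f : (Fin j ↪ X) → ℝ) (z : Fin j ↪ X) : ext0 f z = f z := by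
  unfold ext0
  rw [dif_pos z.injective]
  rfl

theorem alt_zero (f : (Fin j ↪ X) → ℝ) {s : Finset (Fin j)} {e₁ e₂ : Fin j} (h12 : e₁ ≠ e₂)
    (h1 : e₁ ∉ s) (h2 : e₂ ∉ s) (a b : Fin j → X) (ha : a e₁ = a e₂) :
    alt (ext0 f) s a b = 0 := by
  unfold alt
  refine Finset.sum_eq_zero fun E hE => ?_
  rw [ext0_eq_zero, mul_zero]
  intro hinj
  apply h12
  apply hinj
  have h3 : e₁ ∉ E := fun h => h1 (Finset.mem_powerset.1 hE h)
  have h4 : e₂ ∉ E := fun h => h2 (Finset.mem_powerset.1 hE h)
  simp only [if_neg h3, if_neg h4, ha]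

theorem alt_pure {f : (Fin j ↪ X) → ℝ} (hf : Pure f) {s : Finset (Fin j)} {e : Fin j}
    (he : e ∉ s) (a b : Fin j → X) :
    ∑ v, alt (ext0 f) s (Function.update a e v) b = 0 := by
  unfold alt
  rw [Finset.sum_comm]
  refine Finset.sum_eq_zero fun E hE => ?_
  rw [← Finset.mul_sum]
  have heE : e ∉ E := fun h => he (Finset.mem_powerset.1 hE h)
  have : ∀ v, (fun e' => if e' ∈ E then b e' else Function.update a e v e') =
      Function.update (fun e' => if e' ∈ E then b e' else a e') e v := by
    intro v
    funext e'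
    by_cases h : e' = e
    · subst h
      rw [if_neg heE, Function.update_self, Function.update_self]
    · rw [Function.update_of_ne h, Function.update_of_ne h]
  simp only [this]
  rw [hf, mul_zero]

/-- `a` is injective, `b` is injective on `R` and its values on `R` are not values of `a`. -/
def Good (R : Finset (Fin j)) (a b : Fin j → X) : Prop :=
  Function.Injective a ∧ (∀ e ∈ R, ∀ e' ∈ R, b e = b e' → e = e') ∧ ∀ e ∈ R, ∀ e', b e ≠ a e'

open Classical in
/-- Maximum of `|alt|` over the sets of size `r`. -/
noncomputable def mm (f : (Fin j ↪ X) → ℝ) (r : ℕ) : ℝ :=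
  ⨆ t : Finset (Fin j) × (Fin j → X) × (Fin j → X),
    if t.1.card = r ∧ Good t.1 t.2.1 t.2.2 then |alt (ext0 f) t.1 t.2.1 t.2.2| else 0

theorem le_mm (f : (Fin j ↪ X) → ℝ) {R : Finset (Fin j)} {a b : Fin j → X} (h : Good R a b) :
    |alt (ext0 f) R a b| ≤ mm f R.card := by
  classical
  have h1 := le_ciSup (f := fun t : Finset (Fin j) × (Fin j → X) × (Fin j → X) =>
    if t.1.card = R.card ∧ Good t.1 t.2.1 t.2.2 then |alt (ext0 f) t.1 t.2.1 t.2.2| else 0)
    (Set.finite_range _).bddAbove (R, a, b)
  have h2 : (if R.card = R.card ∧ Good R a b then |alt (ext0 f) R a b| else 0) =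
    |alt (ext0 f) R a b| := if_pos ⟨rfl, h⟩
  rw [← h2]
  unfold mm
  convert h1

theorem mm_nonneg (f : (Fin j ↪ X) → ℝ) (r : ℕ) : 0 ≤ mm f r := by
  unfold mm
  refine Real.iSup_nonneg fun t => ?_
  split_ifs
  · exact abs_nonneg _
  · exact le_rfl

theorem mm_le (f : (Fin j ↪ X) → ℝ) (r : ℕ) {B : ℝ} (hB : 0 ≤ B)
    (h : ∀ (R : Finset (Fin j)) (a b : Fin j → X), R.card = r → Good R a b →
      |alt (ext0 f) R a b| ≤ B) : mm f r ≤ B := by
  unfold mm
  refine Real.iSup_le (fun t => ?_) hB
  split_ifs with h2
  · exact h _ _ _ h2.1 h2.2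
  · exact hB

/-- The basic relation. -/
theorem alt_relation {f : (Fin j ↪ X) → ℝ} (hf : Pure f) {R : Finset (Fin j)} {a b : Fin j → X}
    (hg : Good R a b) {e₀ : Fin j} (he : e₀ ∉ R) :
    ((Fintype.card X : ℝ) - j - R.card + 1) * alt (ext0 f) R a b =
      ∑ v ∈ univ \ (univ.image a ∪ R.image b),
        alt (ext0 f) (insert e₀ R) a (Function.update b e₀ v) -
      ∑ e ∈ R, (alt (ext0 f) R (Function.update a e₀ (a e)) b +
        alt (ext0 f) R (Function.update a e₀ (b e)) b) := by
  classical
  obtain ⟨ha, hb, hab⟩ := hg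
  set S := univ \ (univ.image a ∪ R.image b) with hS
  have hdisj : Disjoint (univ.image a) (R.image b) := by
    rw [Finset.disjoint_left]
    intro v hv hv2
    obtain ⟨e, _, rfl⟩ := Finset.mem_image.1 hv
    obtain ⟨e', he', h⟩ := Finset.mem_image.1 hv2
    exact hab e' he' e h
  have hcard : (univ.image a ∪ R.image b).card = j + R.card := by
    rw [Finset.card_union_of_disjoint hdisj, Finset.card_image_of_injective _ ha,
      Finset.card_image_of_injOn (fun e he e' he' h => hb e he e' he' h), Finset.card_univ,
      Fintype.card_fin]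
  have hScard : (S.card : ℝ) = (Fintype.card X : ℝ) - j - R.card := by
    have h1 : S.card + (univ.image a ∪ R.image b).card = Fintype.card X := by
      rw [hS, Finset.card_sdiff_add_card_eq_card (Finset.subset_univ _), Finset.card_univ]
    rw [hcard] at h1
    have h2 : ((S.card + (j + R.card) : ℕ) : ℝ) = (Fintype.card X : ℝ) := by rw [h1]
    push_cast at h2
    linarith
  have h1 : ∀ v ∈ S, alt (ext0 f) (insert e₀ R) a (Function.update b e₀ v) =
      alt (ext0 f) R a b - alt (ext0 f) R (Function.update a e₀ v) b := by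
    intro v _
    rw [alt_insert _ he, Function.update_self]
    have h2 : ∀ e ∈ R, Function.update b e₀ v e = b e := by
      intro e heR
      refine Function.update_of_ne (fun h : e = e₀ => he ?_) _ _
      rw [← h]; exact heR
    rw [alt_congr_b _ a h2, alt_congr_b _ _ h2]
  rw [Finset.sum_congr rfl h1, Finset.sum_sub_distrib, Finset.sum_const, nsmul_eq_mul, hScard]
  have h3 : ∑ v ∈ S, alt (ext0 f) R (Function.update a e₀ v) b =
      -∑ v ∈ univ.image a ∪ R.image b, alt (ext0 f) R (Function.update a e₀ v) b := by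
    rw [eq_neg_iff_add_eq_zero, hS, Finset.sum_sdiff (Finset.subset_univ _)]
    exact alt_pure hf he a b
  have h4 : ∑ v ∈ univ.image a ∪ R.image b, alt (ext0 f) R (Function.update a e₀ v) b =
      alt (ext0 f) R a b + ∑ e ∈ R, (alt (ext0 f) R (Function.update a e₀ (a e)) b +
        alt (ext0 f) R (Function.update a e₀ (b e)) b) := by
    rw [Finset.sum_union hdisj, Finset.sum_image (fun e _ e' _ h => ha h),
      Finset.sum_image (fun e he e' he' h => hb e he e' he' h), Finset.sum_add_distrib,
      ← add_assoc]
    congr 1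
    rw [← Finset.sum_subset (Finset.subset_univ (insert e₀ R))]
    · rw [Finset.sum_insert he, Function.update_eq_self]
    · intro e _ heR
      have h5 : e ≠ e₀ := fun h => heR (h ▸ Finset.mem_insert_self _ _)
      have h6 : e ∉ R := fun h => heR (Finset.mem_insert_of_mem h)
      refine alt_zero f h5 h6 he _ _ ?_
      rw [Function.update_self, Function.update_of_ne h5]
  rw [h3, h4]
  ring

theorem alt_a_le {f : (Fin j ↪ X) → ℝ} {R : Finset (Fin j)} {a b : Fin j → X}
    (hg : Good R a b) {e₀ : Fin j} (he : e₀ ∉ R) {e : Fin j} (heR : e ∈ R) :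
    |alt (ext0 f) R (Function.update a e₀ (a e)) b| ≤ mm f (R.card - 1) := by
  obtain ⟨ha, hb, hab⟩ := hg
  have hne : e ≠ e₀ := fun h => he (h ▸ heR)
  have hR : insert e (R.erase e) = R := Finset.insert_erase heR
  have h0 : e₀ ∉ R.erase e := fun h => he (Finset.mem_of_mem_erase h)
  rw [← Finset.card_erase_of_mem heR]
  conv_lhs => rw [← hR]
  rw [alt_insert _ (Finset.notMem_erase e R), alt_zero f hne (Finset.notMem_erase e R) h0 _ _
    (by rw [Function.update_self, Function.update_of_ne hne]), zero_sub, abs_neg]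
  refine le_mm f ⟨?_, fun e₁ h₁ e₂ h₂ h => hb e₁ (Finset.mem_of_mem_erase h₁) e₂
    (Finset.mem_of_mem_erase h₂) h, fun e₁ h₁ e₂ => ?_⟩
  · intro e₁ e₂ h
    have hval : ∀ e', Function.update (Function.update a e₀ (a e)) e (b e) e' =
        if e' = e then b e else if e' = e₀ then a e else a e' := by
      intro e'
      by_cases h1 : e' = e
      · subst h1; rw [Function.update_self, if_pos rfl]
      · rw [Function.update_of_ne h1, if_neg h1]
        by_cases h2 : e' = e₀
        · subst h2; rw [Function.update_self, if_pos rfl]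
        · rw [Function.update_of_ne h2, if_neg h2]
    rw [hval, hval] at h
    by_cases h1 : e₁ = e
    · by_cases h2 : e₂ = e
      · rw [h1, h2]
      · rw [if_pos h1, if_neg h2] at h
        by_cases h3 : e₂ = e₀
        · rw [if_pos h3] at h; exact absurd h (hab e heR e)
        · rw [if_neg h3] at h; exact absurd h (hab e heR e₂)
    · rw [if_neg h1] at h
      by_cases h2 : e₂ = e
      · rw [if_pos h2] at h
        by_cases h3 : e₁ = e₀
        · rw [if_pos h3] at h; exact absurd h.symm (hab e heR e)
        · rw [if_neg h3] at h; exact absurd h.symm (hab e heR e₁)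
      · rw [if_neg h2] at h
        by_cases h3 : e₁ = e₀
        · rw [if_pos h3] at h
          by_cases h4 : e₂ = e₀
          · rw [h3, h4]
          · rw [if_neg h4] at h; exact absurd (ha h).symm h2
        · rw [if_neg h3] at h
          by_cases h4 : e₂ = e₀
          · rw [if_pos h4] at h; exact absurd (ha h) h1
          · rw [if_neg h4] at h; exact ha h
  · have hR1 := Finset.mem_of_mem_erase h₁
    have hne1 := Finset.ne_of_mem_erase h₁
    by_cases h1 : e₂ = e
    · subst h1
      rw [Function.update_self]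
      intro h
      exact hne1 (hb e₁ hR1 e₂ heR h)
    · rw [Function.update_of_ne h1]
      by_cases h2 : e₂ = e₀
      · subst h2; rw [Function.update_self]; exact hab e₁ hR1 e
      · rw [Function.update_of_ne h2]; exact hab e₁ hR1 e₂

theorem alt_b_le {f : (Fin j ↪ X) → ℝ} {R : Finset (Fin j)} {a b : Fin j → X}
    (hg : Good R a b) {e₀ : Fin j} (he : e₀ ∉ R) {e : Fin j} (heR : e ∈ R) :
    |alt (ext0 f) R (Function.update a e₀ (b e)) b| ≤ mm f (R.card - 1) := by
  obtain ⟨ha, hb, hab⟩ := hg
  have hne : e ≠ e₀ := fun h => he (h ▸ heR)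
  have hR : insert e (R.erase e) = R := Finset.insert_erase heR
  have h0 : e₀ ∉ R.erase e := fun h => he (Finset.mem_of_mem_erase h)
  rw [← Finset.card_erase_of_mem heR]
  conv_lhs => rw [← hR]
  rw [alt_insert _ (Finset.notMem_erase e R), alt_zero f hne (Finset.notMem_erase e R) h0
    (Function.update (Function.update a e₀ (b e)) e (b e)) _
    (by rw [Function.update_self, Function.update_of_ne hne.symm, Function.update_self]), sub_zero]
  refine le_mm f ⟨?_, fun e₁ h₁ e₂ h₂ h => hb e₁ (Finset.mem_of_mem_erase h₁) e₂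
    (Finset.mem_of_mem_erase h₂) h, fun e₁ h₁ e₂ => ?_⟩
  · intro e₁ e₂ h
    by_cases h1 : e₁ = e₀
    · by_cases h2 : e₂ = e₀
      · rw [h1, h2]
      · rw [h1, Function.update_self, Function.update_of_ne h2] at h
        exact absurd h (hab e heR e₂)
    · rw [Function.update_of_ne h1] at h
      by_cases h2 : e₂ = e₀
      · rw [h2, Function.update_self] at h
        exact absurd h.symm (hab e heR e₁)
      · rw [Function.update_of_ne h2] at h
        exact ha h
  · have hR1 := Finset.mem_of_mem_erase h₁
    have hne1 := Finset.ne_of_mem_erase h₁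
    by_cases h2 : e₂ = e₀
    · subst h2
      rw [Function.update_self]
      intro h
      exact hne1 (hb e₁ hR1 e heR h)
    · rw [Function.update_of_ne h2]; exact hab e₁ hR1 e₂

theorem mm_rec {f : (Fin j ↪ X) → ℝ} (hf : Pure f) {r : ℕ} (hr : r < j)
    (hn : 2 * j ≤ Fintype.card X) :
    ((Fintype.card X : ℝ) - j - r + 1) * mm f r ≤
      ((Fintype.card X : ℝ) - j - r) * mm f (r + 1) + 2 * r * mm f (r - 1) := by
  classical
  have hnR : (2 : ℝ) * j ≤ Fintype.card X := by exact_mod_cast hn
  have hrR : (r : ℝ) < j := by exact_mod_cast hr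
  have hpos : 0 < (Fintype.card X : ℝ) - j - r + 1 := by linarith
  have hpos' : 0 ≤ (Fintype.card X : ℝ) - j - r := by linarith
  have hrhs : 0 ≤ ((Fintype.card X : ℝ) - j - r) * mm f (r + 1) + 2 * r * mm f (r - 1) := by
    have := mm_nonneg f (r + 1)
    have := mm_nonneg f (r - 1)
    positivity
  rw [← le_div_iff₀' hpos]
  refine mm_le f r (div_nonneg hrhs hpos.le) fun R a b hRc hg => ?_
  rw [le_div_iff₀' hpos]
  obtain ⟨e₀, he₀⟩ : ∃ e₀, e₀ ∉ R := by
    by_contra hcon
    push Not at hcon
    have : R = univ := Finset.eq_univ_iff_forall.2 hcon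
    rw [this, Finset.card_univ, Fintype.card_fin] at hRc
    omega
  have hrel := alt_relation hf hg he₀
  rw [hRc] at hrel
  have habs : ((Fintype.card X : ℝ) - j - r + 1) * |alt (ext0 f) R a b| =
      |((Fintype.card X : ℝ) - j - r + 1) * alt (ext0 f) R a b| := by
    rw [abs_mul, abs_of_pos hpos]
  rw [habs, hrel]
  obtain ⟨ha, hb, hab⟩ := hg
  have hdisj : Disjoint (univ.image a) (R.image b) := by
    rw [Finset.disjoint_left]
    intro v hv hv2
    obtain ⟨e, _, rfl⟩ := Finset.mem_image.1 hv
    obtain ⟨e', he', h⟩ := Finset.mem_image.1 hv2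
    exact hab e' he' e h
  have hcard : (univ.image a ∪ R.image b).card = j + r := by
    rw [Finset.card_union_of_disjoint hdisj, Finset.card_image_of_injective _ ha,
      Finset.card_image_of_injOn (fun e he e' he' h => hb e he e' he' h), Finset.card_univ,
      Fintype.card_fin, hRc]
  have hScard : ((univ \ (univ.image a ∪ R.image b)).card : ℝ) =
      (Fintype.card X : ℝ) - j - r := by
    have h1 : (univ \ (univ.image a ∪ R.image b)).card + (univ.image a ∪ R.image b).card =
        Fintype.card X := by
      rw [Finset.card_sdiff_add_card_eq_card (Finset.subset_univ _), Finset.card_univ]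
    rw [hcard] at h1
    have h2 : (((univ \ (univ.image a ∪ R.image b)).card + (j + r) : ℕ) : ℝ) =
      (Fintype.card X : ℝ) := by rw [h1]
    push_cast at h2
    linarith
  refine (abs_sub _ _).trans (add_le_add ?_ ?_)
  · refine (Finset.abs_sum_le_sum_abs _ _).trans ?_
    calc ∑ v ∈ univ \ (univ.image a ∪ R.image b),
          |alt (ext0 f) (insert e₀ R) a (Function.update b e₀ v)|
        ≤ ∑ v ∈ univ \ (univ.image a ∪ R.image b), mm f (r + 1) := by
          refine Finset.sum_le_sum fun v hv => ?_
          have hv' : v ∉ univ.image a ∧ v ∉ R.image b := by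
            have := (Finset.mem_sdiff.1 hv).2
            rwa [Finset.mem_union, not_or] at this
          have h1 := le_mm f (R := insert e₀ R) (a := a) (b := Function.update b e₀ v)
            ⟨ha, ?_, ?_⟩
          · rwa [Finset.card_insert_of_notMem he₀, hRc] at h1
          · intro e he e' he' h
            by_cases h2 : e = e₀
            · by_cases h3 : e' = e₀
              · rw [h2, h3]
              · rw [h2, Function.update_self, Function.update_of_ne h3] at h
                refine absurd ?_ hv'.2
                rw [h]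
                exact Finset.mem_image_of_mem b (Finset.mem_of_mem_insert_of_ne he' h3)
            · rw [Function.update_of_ne h2] at h
              by_cases h3 : e' = e₀
              · rw [h3, Function.update_self] at h
                refine absurd ?_ hv'.2
                rw [← h]
                exact Finset.mem_image_of_mem b (Finset.mem_of_mem_insert_of_ne he h2)
              · rw [Function.update_of_ne h3] at h
                exact hb e (Finset.mem_of_mem_insert_of_ne he h2) e'
                  (Finset.mem_of_mem_insert_of_ne he' h3) h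
          · intro e he e'
            by_cases h2 : e = e₀
            · rw [h2, Function.update_self]
              intro h
              exact hv'.1 (h ▸ Finset.mem_image_of_mem a (Finset.mem_univ _))
            · rw [Function.update_of_ne h2]
              exact hab e (Finset.mem_of_mem_insert_of_ne he h2) e'
      _ = _ := by rw [Finset.sum_const, nsmul_eq_mul, hScard]
  · refine (Finset.abs_sum_le_sum_abs _ _).trans ?_
    calc ∑ e ∈ R, |alt (ext0 f) R (Function.update a e₀ (a e)) b +
          alt (ext0 f) R (Function.update a e₀ (b e)) b|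
        ≤ ∑ e ∈ R, 2 * mm f (r - 1) := by
          refine Finset.sum_le_sum fun e he => ?_
          have h1 := alt_a_le (f := f) ⟨ha, hb, hab⟩ he₀ he
          have h2 := alt_b_le (f := f) ⟨ha, hb, hab⟩ he₀ he
          rw [hRc] at h1 h2
          refine (abs_add_le _ _).trans ?_
          linarith
      _ = _ := by rw [Finset.sum_const, nsmul_eq_mul, hRc]; ring

/-- Alternating sums of a pure function do not all vanish. -/
theorem exists_alt_ne_zero {f : (Fin j ↪ X) → ℝ} (hf : Pure f) (hf0 : f ≠ 0) (hj : 1 ≤ j)
    (hn : 10 * j ≤ Fintype.card X) :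
    ∃ a b : Fin j → X, Good univ a b ∧ alt (ext0 f) univ a b ≠ 0 := by
  by_contra hcon
  push Not at hcon
  have hnR : (10 : ℝ) * j ≤ Fintype.card X := by exact_mod_cast hn
  have hmj : mm f j = 0 := by
    refine le_antisymm (mm_le f j le_rfl fun R a b hRc hg => ?_) (mm_nonneg f j)
    have hR : R = univ := by
      rw [← Finset.card_eq_iff_eq_univ, hRc, Fintype.card_fin]
    rw [hR] at hg ⊢
    rw [hcon a b hg, abs_zero]
  have hdown : ∀ i : ℕ, ∀ r : ℕ, 1 ≤ r → r + i = j → mm f r ≤ mm f (r - 1) / 2 := by
    intro i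
    induction i with
    | zero =>
      intro r hr hrj
      rw [add_zero] at hrj
      rw [hrj, hmj]
      exact div_nonneg (mm_nonneg _ _) (by norm_num)
    | succ i ih =>
      intro r hr hrj
      have h1 := ih (r + 1) (by omega) (by omega)
      rw [Nat.add_sub_cancel] at h1
      have h2 := mm_rec hf (r := r) (by omega) (by omega)
      have hrR : (r : ℝ) + 1 ≤ j := by exact_mod_cast (by omega : r + 1 ≤ j)
      have h3 := mm_nonneg f r
      have h4 := mm_nonneg f (r - 1)
      have hr0 : (0 : ℝ) ≤ r := Nat.cast_nonneg r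
      set N := (Fintype.card X : ℝ) - j - r with hN
      have hN8 : 8 * (r : ℝ) ≤ N := by rw [hN]; linarith
      have h5 : N * mm f (r + 1) ≤ N * (mm f r / 2) :=
        mul_le_mul_of_nonneg_left h1 (by linarith)
      have h6 : (N / 2 + 1) * mm f r ≤ 2 * r * mm f (r - 1) := by linarith
      have h7 : 2 * r * mm f (r - 1) ≤ (N / 2 + 1) * (mm f (r - 1) / 2) := by nlinarith
      have h8 : (N / 2 + 1) * mm f r ≤ (N / 2 + 1) * (mm f (r - 1) / 2) := h6.trans h7
      exact le_of_mul_le_mul_left h8 (by linarith)
  have h1 := hdown (j - 1) 1 le_rfl (by omega)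
  have h2 := mm_rec hf (r := 0) (by omega) (by omega)
  rw [Nat.sub_self] at h1
  simp only [Nat.cast_zero, zero_add, sub_zero, mul_zero, zero_mul, add_zero] at h2
  have h3 := mm_nonneg f 0
  have hjR : (1 : ℝ) ≤ j := by exact_mod_cast hj
  have h4 : mm f 0 ≤ 0 := by nlinarith
  apply hf0
  funext x
  have h5 := le_mm f (R := ∅) (a := x) (b := x) ⟨x.injective, by simp, by simp⟩
  rw [alt_empty, ext0_coe, Finset.card_empty] at h5
  have h6 : |f x| ≤ 0 := h5.trans h4
  exact abs_nonpos_iff.1 h6

end alt

end Vale.Agent.ThorpO
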