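import Mathlib

/-!
# P162, part DELTA: independent eigenvectors and the trace of a power of a symmetric matrix
-/

namespace Vale.Agent.ThorpO

open Finset

section lin

variable {n : Type*} [Fintype n] [DecidableEq n]

/-- The eigenspace, as a subspace of `EuclideanSpace`. -/
def eigS (A : Matrix n n ℝ) (s : ℝ) : Submodule ℝ (EuclideanSpace ℝ n) where
  carrier := {w | ∀ x, ∑ y, A x y * w y = s * w x}
  add_mem' := by
    intro v w hv hw x
    have h1 := hv x
    have h2 := hw x
    simp only [PiLp.add_apply, mul_add, Finset.sum_add_distrib]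
    rw [h1, h2]
  zero_mem' := by
    intro x
    simp
  smul_mem' := by
    intro c v hv x
    have h1 := hv x
    simp only [PiLp.smul_apply, smul_eq_mul]
    have h2 : ∀ y, A x y * (c * v y) = c * (A x y * v y) := fun y => by ring
    simp only [h2]
    rw [← Finset.mul_sum, h1]
    ring

theorem pow_eig (A : Matrix n n ℝ) (s : ℝ) (w : EuclideanSpace ℝ n) (hw : w ∈ eigS A s) (q : ℕ)
    (x : n) : ∑ y, (A ^ q) x y * w y = s ^ q * w x := by
  induction q generalizing x with
  | zero =>
    simp [Matrix.one_apply]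
  | succ q ih =>
    have h1 : ∀ y, (A ^ (q + 1)) x y * w y = ∑ z, (A ^ q) x z * (A z y * w y) := by
      intro y
      rw [pow_succ, Matrix.mul_apply, Finset.sum_mul]
      exact Finset.sum_congr rfl fun z _ => by ring
    simp only [h1]
    rw [Finset.sum_comm]
    have h2 : ∀ z, ∑ y, (A ^ q) x z * (A z y * w y) = s * ((A ^ q) x z * w z) := by
      intro z
      rw [← Finset.mul_sum, hw z]
      ring
    simp only [h2]
    rw [← Finset.mul_sum, ih]
    ring

theorem trace_ge {ι : Type*} [Fintype ι] (A : Matrix n n ℝ) (hA : A.transpose = A)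
    (v : ι → (n → ℝ)) (hv : LinearIndependent ℝ v) (s : ℝ)
    (hs : ∀ i x, ∑ y, A x y * v i y = s * v i x) (q : ℕ) :
    (Fintype.card ι : ℝ) * s ^ (2 * q) ≤ (A ^ (2 * q)).trace := by
  classical
  set W := eigS A s with hW
  -- dimension
  let v' : ι → W := fun i => ⟨WithLp.toLp 2 (v i), fun x => hs i x⟩
  have hv' : LinearIndependent ℝ v' := by
    rw [Fintype.linearIndependent_iff] at hv ⊢
    intro c hc
    apply hv c
    have h1 := congrArg (fun w : W => WithLp.ofLp (w : EuclideanSpace ℝ n)) hc
    simp only [ZeroMemClass.coe_zero, WithLp.ofLp_zero] at h1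
    rw [← h1]
    simp [v', WithLp.ofLp_sum]
  have hdim : (Fintype.card ι : ℝ) ≤ Module.finrank ℝ W := by
    exact_mod_cast hv'.fintype_card_le_finrank
  let b := stdOrthonormalBasis ℝ W
  let u : Fin (Module.finrank ℝ W) → EuclideanSpace ℝ n := fun l => (b l : EuclideanSpace ℝ n)
  have hu : Orthonormal ℝ u := b.orthonormal.comp_linearIsometry W.subtypeₗᵢ
  have hAq : (A ^ q).transpose = A ^ q := by rw [Matrix.transpose_pow, hA]
  have htr : (A ^ (2 * q)).trace = ∑ x, ∑ y, ((A ^ q) x y) ^ 2 := by
    rw [two_mul, pow_add, Matrix.trace]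
    refine Finset.sum_congr rfl fun x _ => ?_
    rw [Matrix.diag_apply, Matrix.mul_apply]
    refine Finset.sum_congr rfl fun y _ => ?_
    have : (A ^ q) y x = (A ^ q) x y := by
      conv_lhs => rw [← hAq]
      rfl
    rw [this]; ring
  have hs2 : 0 ≤ s ^ (2 * q) := by rw [pow_mul]; positivity
  have hbes : ∀ x, ∑ l, (s ^ q * (u l) x) ^ 2 ≤ ∑ y, ((A ^ q) x y) ^ 2 := by
    intro x
    have h1 := hu.sum_inner_products_le (x := (WithLp.toLp 2 ((A ^ q) x) : EuclideanSpace ℝ n))
      (s := univ)
    have h2 : ∀ l, inner ℝ (u l) (WithLp.toLp 2 ((A ^ q) x) : EuclideanSpace ℝ n) =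
        s ^ q * (u l) x := by
      intro l
      rw [← pow_eig A s (u l) (b l).2 q x, PiLp.inner_apply]
      refine Finset.sum_congr rfl fun y _ => ?_
      simp
    simp only [h2, Real.norm_eq_abs, sq_abs] at h1
    rw [EuclideanSpace.norm_sq_eq] at h1
    simpa using h1
  calc (Fintype.card ι : ℝ) * s ^ (2 * q) ≤ Module.finrank ℝ W * s ^ (2 * q) :=
        mul_le_mul_of_nonneg_right hdim hs2
    _ = ∑ x, ∑ l, (s ^ q * (u l) x) ^ 2 := by
        rw [Finset.sum_comm]
        have h1 : ∀ l, ∑ x, (s ^ q * (u l) x) ^ 2 = s ^ (2 * q) := by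
          intro l
          have h2 : ∑ x, ((u l) x) ^ 2 = 1 := by
            have h3 := hu.1 l
            have h4 := EuclideanSpace.norm_sq_eq (u l)
            rw [h3] at h4
            simpa using h4.symm
          have h5 : ∀ x, (s ^ q * (u l) x) ^ 2 = s ^ (2 * q) * ((u l) x) ^ 2 := by
            intro x; ring
          simp only [h5]
          rw [← Finset.mul_sum, h2, mul_one]
        simp only [h1]
        rw [Finset.sum_const, Finset.card_univ, Fintype.card_fin, nsmul_eq_mul]
    _ ≤ ∑ x, ∑ y, ((A ^ q) x y) ^ 2 := Finset.sum_le_sum fun x _ => hbes x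
    _ = _ := htr.symm

end lin

end Vale.Agent.ThorpO
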