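import Vale.Agent.ThorpO.BenesEq
import Vale.Agent.ThorpO.DeltaAlt
import Vale.Agent.ThorpO.DeltaLin

/-!
# P162, part DELTA
-/

namespace Vale.Agent.ThorpO

open Equiv Finset

theorem benes_sum (d k r : ℕ) (x : Fin k ↪ Pos d) (F : (Fin k ↪ Pos d) → ℝ) :
    ∑ y, benes d k r x y * F y = av fun ωi : Coins d => av fun ωo : Coins d =>
      F (x.trans (net ωi ωo r).toEmbedding) := by
  have h1 : ∀ ωi ωo : Coins d, ∑ y, ind (net ωi ωo r) x y * F y =
      F (x.trans (net ωi ωo r).toEmbedding) := by
    intro ωi ωo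
    rw [Finset.sum_eq_single (x.trans (net ωi ωo r).toEmbedding)]
    · rw [ind_eq, if_pos rfl, one_mul]
    · intro y _ hy
      rw [ind_eq, if_neg hy, zero_mul]
    · intro h; exact absurd (Finset.mem_univ _) h
  simp only [← h1, av_sum, benes_apply, av_mul_right]

theorem benes_symm (d k r : ℕ) : (benes d k r).transpose = benes d k r := by
  rw [benes_eq, Matrix.transpose_mul, Matrix.transpose_transpose]

section slots

variable {j M : ℕ}

/-- The slot `(e, i)`. -/
def slot (e : Fin j) (i : Fin (M + 1)) : Fin (j * (M + 1)) := finProdFinEquiv (e, i)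

theorem slot_inj {e e' : Fin j} {i i' : Fin (M + 1)} (h : slot e i = slot e' i') :
    e = e' ∧ i = i' := by
  have := finProdFinEquiv.injective h
  exact Prod.mk.inj this

/-- The slots `(e, J e + 1)`. -/
def slotE (J : Fin j → Fin M) : Fin j ↪ Fin (j * (M + 1)) where
  toFun e := slot e (J e).succ
  inj' _ _ h := (slot_inj h).1

/-- Swap the slots `(e, 0)` and `(e, J e + 1)` for `e ∈ E`. -/
def swE (J : Fin j → Fin M) (E : Finset (Fin j)) : Perm (Fin (j * (M + 1))) :=
  finProdFinEquiv.symm.trans ((Equiv.prodShear (Equiv.refl _) fun e =>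
    if e ∈ E then Equiv.swap 0 (J e).succ else Equiv.refl _).trans finProdFinEquiv)

theorem swE_slot (J : Fin j → Fin M) (E : Finset (Fin j)) (e : Fin j) (i : Fin (M + 1)) :
    swE J E (slot e i) = slot e (if e ∈ E then Equiv.swap 0 (J e).succ i else i) := by
  unfold swE slot
  rw [Equiv.trans_apply, Equiv.symm_apply_apply, Equiv.trans_apply]
  congr 1
  rw [Equiv.prodShear_apply]
  by_cases h : e ∈ E
  · simp [h]
  · simp [h]

variable {X : Type*} [Fintype X] [DecidableEq X]

/-- The functions `F_J`. -/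
def FJ (f : (Fin j ↪ X) → ℝ) (J : Fin j → Fin M) (x : Fin (j * (M + 1)) ↪ X) : ℝ :=
  f ((slotE J).trans x)

theorem FJ_eq (f : (Fin j ↪ X) → ℝ) (J : Fin j → Fin M) (x : Fin (j * (M + 1)) ↪ X) :
    FJ f J x = ext0 f (fun e => x (slot e (J e).succ)) := by
  exact (ext0_coe f ((slotE J).trans x)).symm

/-- Extension of a pair of `j`-tuples to all slots. -/
theorem exists_slots (J : Fin j → Fin M) (a b : Fin j → X) (hg : Good univ a b)
    (hk : j * (M + 1) ≤ Fintype.card X) :
    ∃ x : Fin (j * (M + 1)) ↪ X, ∀ e, x (slot e (J e).succ) = a e ∧ x (slot e 0) = b e := by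
  classical
  obtain ⟨ha, hb, hab⟩ := hg
  let s : Finset (Fin (j * (M + 1))) := univ.image (fun e => slot e (J e).succ) ∪
    univ.image (fun e => slot e 0)
  let F : Fin (j * (M + 1)) → X := fun c =>
    if (finProdFinEquiv.symm c).2 = 0 then b (finProdFinEquiv.symm c).1
    else a (finProdFinEquiv.symm c).1
  have hF0 : ∀ e : Fin j, F (slot e 0) = b e := by
    intro e
    simp only [F, slot, Equiv.symm_apply_apply]
    rw [if_pos trivial]
  have hF1 : ∀ e : Fin j, F (slot e (J e).succ) = a e := by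
    intro e
    simp only [F, slot, Equiv.symm_apply_apply]
    rw [if_neg (Fin.succ_ne_zero _)]
  have hinj : Set.InjOn F s := by
    intro c hc c' hc' h
    simp only [s, Finset.coe_union, Finset.coe_image, Set.mem_union, Set.mem_image,
      Finset.coe_univ, Set.mem_univ, true_and] at hc hc'
    rcases hc with ⟨e, rfl⟩ | ⟨e, rfl⟩ <;> rcases hc' with ⟨e', rfl⟩ | ⟨e', rfl⟩
    · rw [hF1, hF1] at h
      rw [ha h]
    · rw [hF1, hF0] at h
      exact absurd h.symm (hab e' (Finset.mem_univ _) e)
    · rw [hF1, hF0] at h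
      exact absurd h (hab e (Finset.mem_univ _) e')
    · rw [hF0, hF0] at h
      rw [hb e (Finset.mem_univ _) e' (Finset.mem_univ _) h]
  obtain ⟨t, ht1, ht2⟩ := Finset.exists_superset_card_eq (s := s.image F)
    (n := j * (M + 1)) (by
      refine Finset.card_image_le.trans ?_
      calc s.card ≤ (univ : Finset (Fin (j * (M + 1)))).card :=
            Finset.card_le_card (Finset.subset_univ _)
        _ = _ := by rw [Finset.card_univ, Fintype.card_fin]) hk
  obtain ⟨g, hg⟩ := Finset.exists_equiv_extend_of_card_eq (t := t)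
    (by rw [Fintype.card_fin, ht2]) ht1 hinj
  refine ⟨g.toEmbedding.trans (Function.Embedding.subtype _), fun e => ⟨?_, ?_⟩⟩
  · rw [← hF1 e]
    refine hg _ ?_
    simp only [s]
    exact Finset.mem_union_left _ (Finset.mem_image_of_mem _ (Finset.mem_univ e))
  · rw [← hF0 e]
    refine hg _ ?_
    simp only [s]
    exact Finset.mem_union_right _ (Finset.mem_image_of_mem _ (Finset.mem_univ e))

theorem FJ_indep (hj : 1 ≤ j) (hn : 10 * j ≤ Fintype.card X)
    (hk : j * (M + 1) ≤ Fintype.card X) (f : (Fin j ↪ X) → ℝ) (hf : f ≠ 0) (hp : Pure f) :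
    LinearIndependent ℝ (fun J : Fin j → Fin M => FJ f J) := by
  classical
  rw [Fintype.linearIndependent_iff]
  intro c hc J₀
  obtain ⟨a, b, hg, halt⟩ := exists_alt_ne_zero hp hf hj hn
  obtain ⟨x, hx⟩ := exists_slots J₀ a b hg hk
  have h1 : ∀ E : Finset (Fin j), ∑ J, c J * FJ f J ((swE J₀ E).toEmbedding.trans x) = 0 := by
    intro E
    have := congrFun hc ((swE J₀ E).toEmbedding.trans x)
    simpa [Finset.sum_apply] using this
  have h2 : ∀ (J : Fin j → Fin M) (E : Finset (Fin j)),
      FJ f J ((swE J₀ E).toEmbedding.trans x) = ext0 f (fun e =>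
        if e ∈ E then x (slot e (Equiv.swap 0 (J₀ e).succ (J e).succ))
        else x (slot e (J e).succ)) := by
    intro J E
    rw [FJ_eq]
    congr 1
    funext e
    change x (swE J₀ E (slot e (J e).succ)) = _
    rw [swE_slot]
    by_cases h : e ∈ E
    · rw [if_pos h, if_pos h]
    · rw [if_neg h, if_neg h]
  have h3 : ∀ J : Fin j → Fin M, ∑ E ∈ (univ : Finset (Fin j)).powerset,
      (-1 : ℝ) ^ E.card * FJ f J ((swE J₀ E).toEmbedding.trans x) =
      if J = J₀ then alt (ext0 f) univ a b else 0 := by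
    intro J
    simp only [h2]
    change alt (ext0 f) univ (fun e => x (slot e (J e).succ))
      (fun e => x (slot e (Equiv.swap 0 (J₀ e).succ (J e).succ))) = _
    by_cases hJ : J = J₀
    · rw [if_pos hJ, hJ]
      congr 1
      · funext e; exact (hx e).1
      · funext e
        rw [Equiv.swap_apply_right]
        exact (hx e).2
    · rw [if_neg hJ]
      obtain ⟨e₀, he₀⟩ : ∃ e₀, J e₀ ≠ J₀ e₀ := by
        by_contra hcon
        push Not at hcon
        exact hJ (funext hcon)
      rw [← Finset.insert_erase (Finset.mem_univ e₀), alt_insert _ (Finset.notMem_erase _ _)]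
      have h4 : Equiv.swap 0 (J₀ e₀).succ (J e₀).succ = (J e₀).succ :=
        Equiv.swap_apply_of_ne_of_ne (Fin.succ_ne_zero _) (fun h => he₀ (Fin.succ_injective _ h))
      rw [h4, Function.update_eq_self, sub_self]
  have h5 : c J₀ * alt (ext0 f) univ a b = 0 := by
    calc c J₀ * alt (ext0 f) univ a b =
        ∑ J, c J * (if J = J₀ then alt (ext0 f) univ a b else 0) := by
          simp
      _ = ∑ J, c J * ∑ E ∈ (univ : Finset (Fin j)).powerset,
            (-1 : ℝ) ^ E.card * FJ f J ((swE J₀ E).toEmbedding.trans x) := by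
          simp only [h3]
      _ = ∑ E ∈ (univ : Finset (Fin j)).powerset, (-1 : ℝ) ^ E.card *
            ∑ J, c J * FJ f J ((swE J₀ E).toEmbedding.trans x) := by
          simp only [Finset.mul_sum]
          rw [Finset.sum_comm]
          refine Finset.sum_congr rfl fun E _ => Finset.sum_congr rfl fun J _ => by ring
      _ = 0 := by simp only [h1, mul_zero, Finset.sum_const_zero]
  exact (mul_eq_zero.1 h5).resolve_right halt

end slots

/-- PART DELTA. -/
theorem delta (d j M : ℕ) (hj : 1 ≤ j) (hd : 10 * j ≤ 2 ^ d) (hk : j * (M + 1) ≤ 2 ^ d)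
    (f : (Fin j ↪ Pos d) → ℝ) (hf : f ≠ 0) (hp : Pure f) (s : ℝ)
    (hs : ∀ x, ∑ y, benes d j d x y * f y = s * f x) :
    (M : ℝ) ^ j * s ^ 1024 ≤ ((benes d (j * (M + 1)) d) ^ 1024).trace := by
  have hcard : Fintype.card (Pos d) = 2 ^ d := by simp
  have h1 := trace_ge (benes d (j * (M + 1)) d) (benes_symm _ _ _)
    (fun J : Fin j → Fin M => FJ f J)
    (FJ_indep hj (by rw [hcard]; exact hd) (by rw [hcard]; exact hk) f hf hp) s
    (fun J x => by
      have h2 := benes_sum d (j * (M + 1)) d x (FJ f J)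
      rw [h2]
      have h3 := benes_sum d j d ((slotE J).trans x) f
      rw [hs] at h3
      rw [show FJ f J x = f ((slotE J).trans x) from rfl, h3]
      rfl) 512
  have h4 : (Fintype.card (Fin j → Fin M) : ℝ) = (M : ℝ) ^ j := by simp
  rw [h4] at h1
  exact h1

end Vale.Agent.ThorpO
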