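import Vale.Agent.ThorpO.Link
import Vale.Agent.ThorpO.Delta
import Vale.Agent.ThorpO.PartB
import Vale.Agent.ThorpO.Schatten

/-!
# P162: the norm of one pass on the level `j`
-/

open scoped InnerProductSpace
open Equiv Finset

namespace Vale.Agent.ThorpO

open Thorp Thorp.PD

section pure

variable {X : Type} [Fintype X] [DecidableEq X] {j : ℕ}

/-- Matrix coefficients against a vector orthogonal to the lower level are pure. -/
theorem pure_coeff (hj : 1 ≤ j) {v : EuclideanSpace ℝ (Perm X)} (hv : v ∈ (W X (j - 1))ᗮ)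
    (y : Fin j ↪ X) : Pure (fun x : Fin j ↪ X => ⟪v, G x y⟫_ℝ) := by
  obtain ⟨i, rfl⟩ : ∃ i, j = i + 1 := ⟨j - 1, by omega⟩
  intro z e
  have h1 : ∀ z' : Fin (i + 1) → X, ext0 (fun x : Fin (i + 1) ↪ X => ⟪v, G x y⟫_ℝ) z' =
      ⟪v, FF (i + 1) (z', ⇑y)⟫_ℝ := by
    intro z'
    unfold ext0
    by_cases h : Function.Injective z'
    · rw [dif_pos h]; rfl
    · rw [dif_neg h, FF_zero_of_not_inj _ h y.injective, inner_zero_right]
  simp only [h1]
  rw [← inner_sum]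
  have h2 : ∑ w, FF (i + 1) (Function.update z e w, ⇑y) =
      FF i (fun k => z (e.succAbove k), fun k => y (e.succAbove k)) := by
    ext σ
    rw [FF_apply]
    have h3 : (∑ w, FF (i + 1) (Function.update z e w, ⇑y)) σ =
        ∑ w, FF (i + 1) (Function.update z e w, ⇑y) σ := by simp
    rw [h3, Finset.sum_eq_single (σ (y e))]
    · rw [FF_apply]
      refine if_congr ⟨fun h k => ?_, fun h k => ?_⟩ rfl rfl
      · have h4 := h (e.succAbove k)
        simpa [Function.update_of_ne (Fin.succAbove_ne e k)] using h4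
      · by_cases hk : k = e
        · rw [hk]; simp
        · obtain ⟨k', rfl⟩ := Fin.exists_succAbove_eq hk
          have h4 := h k'
          simpa [Function.update_of_ne (Fin.succAbove_ne e k')] using h4
    · intro w _ hw
      rw [FF_apply, if_neg]
      intro h
      have h4 := h e
      simp only [Function.update_self] at h4
      exact hw h4.symm
    · intro h; exact absurd (Finset.mem_univ _) h
  rw [h2, real_inner_comm]
  exact (Submodule.mem_orthogonal _ _).1 hv _ (FF_mem _ _)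

end pure

section norm

variable {m : ℕ}

/-- `P* P` for the pass operator `P`. -/
noncomputable def SP (m : ℕ) :
    EuclideanSpace ℝ (Perm (Pos m)) →L[ℝ] EuclideanSpace ℝ (Perm (Pos m)) :=
  passA (reg (Pos m)) m * PP m

theorem SP_inner (v w : EuclideanSpace ℝ (Perm (Pos m))) :
    ⟪v, SP m w⟫_ℝ = ⟪PP m v, PP m w⟫_ℝ := by
  unfold SP PP
  rw [mul_apply_eq_comp, passR_adj le_rfl (reg_orth (Pos m))]

theorem SP_symm (v w : EuclideanSpace ℝ (Perm (Pos m))) :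
    ⟪SP m v, w⟫_ℝ = ⟪v, SP m w⟫_ℝ := by
  rw [real_inner_comm, SP_inner, SP_inner, real_inner_comm]

theorem SP_self (v : EuclideanSpace ℝ (Perm (Pos m))) : ⟪v, SP m v⟫_ℝ = ‖PP m v‖ ^ 2 := by
  rw [SP_inner, real_inner_self_eq_norm_sq]

/-- The level `j` of the regular representation. -/
noncomputable def LL (m j : ℕ) : Submodule ℝ (EuclideanSpace ℝ (Perm (Pos m))) :=
  W (Pos m) j ⊓ (W (Pos m) (j - 1))ᗮ

theorem mem_LL {j : ℕ} {v : EuclideanSpace ℝ (Perm (Pos m))} :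
    v ∈ LL m j ↔ v ∈ W (Pos m) j ∧ v ∈ (W (Pos m) (j - 1))ᗮ := Iff.rfl

theorem reg_LL {j : ℕ} (g : Perm (Pos m)) (v : EuclideanSpace ℝ (Perm (Pos m)))
    (hv : v ∈ LL m j) : reg (Pos m) g v ∈ LL m j :=
  mem_LL.2 ⟨reg_W g j (mem_LL.1 hv).1, reg_W_orth g (j - 1) (mem_LL.1 hv).2⟩

theorem SP_eigen {j : ℕ} {v : EuclideanSpace ℝ (Perm (Pos m))} {s : ℝ} (h : SP m v = s • v)
    (x y : Fin j ↪ Pos m) :
    ∑ x', benes m j m x x' * ⟪v, G x' y⟫_ℝ = s * ⟪v, G x y⟫_ℝ := by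
  have h1 : s * ⟪v, G x y⟫_ℝ = ⟪PP m v, PP m (G x y)⟫_ℝ := by
    rw [← SP_inner, ← SP_symm, h, real_inner_smul_left]
  have h2 : PP m (G x y) = ∑ x', passM m j m x x' • G x' y := passR_G le_rfl x y
  rw [h1, h2, inner_sum]
  have h3 : ∀ x' : Fin j ↪ Pos m, ⟪PP m v, G x' y⟫_ℝ = ∑ u, passM m j m u x' * ⟪v, G u y⟫_ℝ :=
    fun x' => passR_inner le_rfl v x' y
  simp only [real_inner_smul_right, h3, Finset.mul_sum]
  rw [Finset.sum_comm]
  refine Finset.sum_congr rfl fun u _ => ?_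
  rw [benes_eq, Matrix.mul_apply, Finset.sum_mul]
  refine Finset.sum_congr rfl fun x' _ => ?_
  rw [Matrix.transpose_apply]
  ring

/-- Norm of the pass operator on the level `j`. -/
theorem level_s (m j : ℕ) (hj : 1 ≤ j) (h10 : 10 * j ≤ 2 ^ m) :
    ∃ s : ℝ, 0 ≤ s ∧ (∀ v ∈ LL m j, ‖PP m v‖ ^ 2 ≤ s * ‖v‖ ^ 2) ∧
      ∀ M : ℕ, j * (M + 1) ≤ 2 ^ m →
        (M : ℝ) ^ j * s ^ 1024 ≤ ((benes m (j * (M + 1)) m) ^ 1024).trace := by
  by_cases hne : ∃ v ∈ LL m j, v ≠ 0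
  · have hinv : ∀ v ∈ LL m j, SP m v ∈ LL m j := by
      intro v hv
      unfold SP PP
      rw [mul_apply_eq_comp]
      exact passA_mem (fun g v hv => reg_LL g v hv) m (passR_mem (fun g v hv => reg_LL g v hv) m hv)
    obtain ⟨s, v, hv, hv0, hsv, hs⟩ := eig_upper (SP m) SP_symm (LL m j) hinv hne
    have hs0 : 0 ≤ s := by
      have h1 : s * ‖v‖ ^ 2 = ‖PP m v‖ ^ 2 := by
        rw [← SP_self, hsv, real_inner_smul_right, real_inner_self_eq_norm_sq]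
      have h2 : 0 < ‖v‖ ^ 2 := by
        have := norm_pos_iff.2 hv0
        positivity
      by_contra hc
      push Not at hc
      have h3 : s * ‖v‖ ^ 2 < 0 := mul_neg_of_neg_of_pos hc h2
      rw [h1] at h3
      exact absurd (sq_nonneg ‖PP m v‖) (not_le.2 h3)
    refine ⟨s, hs0, fun w hw => ?_, fun M hM => ?_⟩
    · rw [← SP_self]; exact hs w hw
    · obtain ⟨x, y, hxy⟩ := exists_G_ne hj (mem_LL.1 hv).1 (mem_LL.1 hv).2 hv0
      refine delta m j M hj h10 hM (fun x' => ⟪v, G x' y⟫_ℝ) ?_ (pure_coeff hj (mem_LL.1 hv).2 y)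
        s (fun x' => SP_eigen hsv x' y)
      intro h
      apply hxy
      rw [real_inner_comm]
      exact congrFun h x
  · push Not at hne
    refine ⟨0, le_rfl, fun v hv => ?_, fun M hM => ?_⟩
    · rw [hne v hv, map_zero, norm_zero]; simp
    · rw [zero_pow (by norm_num), mul_zero]
      have hb := schatten (passM m (j * (M + 1)) m) 10
      have h1 : (2 : ℕ) ^ 10 = 1024 := by norm_num
      rw [h1] at hb
      rw [benes_eq]
      refine le_trans ?_ hb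
      exact Finset.sum_nonneg fun x _ => Finset.sum_nonneg fun y _ => sq_nonneg _

theorem exponent_le {m j g : ℕ} (hg : 1 ≤ g) (h : 2 ^ (34 * g) * j ≤ 2 ^ m) :
    ((j * (2 ^ g + 1) : ℕ) : ℝ) *
      (2046 / 2 ^ g + ((j * (2 ^ g + 1) : ℕ) : ℝ) / 2 ^ m * 2 ^ (32 * g)) ≤ 3073 * j := by
  set G : ℝ := (2 : ℝ) ^ g with hG
  have hG2 : 2 ≤ G := by
    calc (2 : ℝ) = 2 ^ 1 := by norm_num
      _ ≤ 2 ^ g := pow_le_pow_right₀ (by norm_num) hg
  have hn : (0 : ℝ) < 2 ^ m := by positivity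
  have h32 : (2 : ℝ) ^ (32 * g) = G ^ 32 := by rw [hG, ← pow_mul, mul_comm]
  have h34 : (2 : ℝ) ^ (34 * g) = G ^ 34 := by rw [hG, ← pow_mul, mul_comm]
  have hR : G ^ 34 * j ≤ 2 ^ m := by
    rw [← h34]; exact_mod_cast h
  have hk : ((j * (2 ^ g + 1) : ℕ) : ℝ) = j * (G + 1) := by push_cast; rfl
  rw [hk, h32, mul_add]
  have e1 : (j : ℝ) * (G + 1) * (2046 / G) ≤ 3069 * j := by
    have h1 : (G + 1) / G ≤ 3 / 2 := by
      rw [div_le_div_iff₀ (by linarith) (by norm_num)]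
      linarith
    have h2 : (j : ℝ) * (G + 1) * (2046 / G) = 2046 * j * ((G + 1) / G) := by
      field_simp
    rw [h2]
    have h3 : (0 : ℝ) ≤ 2046 * j := by positivity
    calc 2046 * (j : ℝ) * ((G + 1) / G) ≤ 2046 * j * (3 / 2) := mul_le_mul_of_nonneg_left h1 h3
      _ = 3069 * j := by ring
  have e2 : (j : ℝ) * (G + 1) * (j * (G + 1) / 2 ^ m * G ^ 32) ≤ 4 * j := by
    have h1 : (j : ℝ) * (G + 1) * (j * (G + 1) / 2 ^ m * G ^ 32) =
        j * (((G + 1) ^ 2 * G ^ 32 * j) / 2 ^ m) := by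
      field_simp
    have h2 : (G + 1) ^ 2 ≤ 4 * G ^ 2 := by nlinarith
    have h3 : (G + 1) ^ 2 * G ^ 32 * j ≤ 4 * (G ^ 34 * j) := by
      have h4 : (0 : ℝ) ≤ G ^ 32 * j := by positivity
      calc (G + 1) ^ 2 * G ^ 32 * j = (G + 1) ^ 2 * (G ^ 32 * j) := by ring
        _ ≤ 4 * G ^ 2 * (G ^ 32 * j) := mul_le_mul_of_nonneg_right h2 h4
        _ = 4 * (G ^ 34 * j) := by ring
    have h5 : ((G + 1) ^ 2 * G ^ 32 * j) / 2 ^ m ≤ 4 := by
      rw [div_le_iff₀ hn]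
      linarith
    rw [h1]
    calc (j : ℝ) * (((G + 1) ^ 2 * G ^ 32 * j) / 2 ^ m) ≤ j * 4 :=
          mul_le_mul_of_nonneg_left h5 (Nat.cast_nonneg _)
      _ = 4 * j := by ring
  linarith

theorem norm_pow_LL {j : ℕ} {s : ℝ} (hs0 : 0 ≤ s) (hs : ∀ v ∈ LL m j, ‖PP m v‖ ^ 2 ≤ s * ‖v‖ ^ 2)
    (t : ℕ) {v : EuclideanSpace ℝ (Perm (Pos m))} (hv : v ∈ LL m j) :
    ‖((PP m) ^ t) v‖ ^ 2 ≤ s ^ t * ‖v‖ ^ 2 := by
  induction t with
  | zero => simp
  | succ t ih =>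
    have h1 : ((PP m) ^ t) v ∈ LL m j := PP_pow_mem (fun g v hv => reg_LL g v hv) t hv
    have h2 : ((PP m) ^ (t + 1)) v = PP m (((PP m) ^ t) v) := by
      rw [pow_succ' (PP m) t, mul_apply_eq_comp]
    rw [h2]
    refine (hs _ h1).trans ?_
    calc s * ‖((PP m) ^ t) v‖ ^ 2 ≤ s * (s ^ t * ‖v‖ ^ 2) := mul_le_mul_of_nonneg_left ih hs0
      _ = s ^ (t + 1) * ‖v‖ ^ 2 := by ring

/-- A4. -/
theorem level_norm (m j g r : ℕ) (hj : 1 ≤ j) (hg : 1 ≤ g) (h : 2 ^ (34 * g) * j ≤ 2 ^ m)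
    {v : EuclideanSpace ℝ (Perm (Pos m))} (hv : v ∈ Thorp.PD.W (Pos m) j)
    (hv' : v ∈ (Thorp.PD.W (Pos m) (j - 1))ᗮ) :
    ‖((PP m) ^ (1024 * r)) v‖ ^ 2 ≤ ((Real.exp 3073 / 2 ^ g) ^ j) ^ r * ‖v‖ ^ 2 := by
  have h34 : 2 ^ 34 ≤ 2 ^ (34 * g) := Nat.pow_le_pow_right (by norm_num) (by omega)
  have h10 : 10 * j ≤ 2 ^ m := by
    refine le_trans (Nat.mul_le_mul_right j ?_) h
    refine le_trans (by norm_num) h34
  have hM : j * (2 ^ g + 1) ≤ 2 ^ m := by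
    refine le_trans ?_ h
    rw [mul_comm]
    refine Nat.mul_le_mul_right j ?_
    have h1 : 2 ^ g * 2 ≤ 2 ^ (34 * g) := by
      rw [← pow_succ]
      exact Nat.pow_le_pow_right (by norm_num) (by omega)
    have h2 : 1 ≤ 2 ^ g := Nat.one_le_two_pow
    omega
  obtain ⟨s, hs0, hs, htr⟩ := level_s m j hj h10
  have h1 := norm_pow_LL hs0 hs (1024 * r) (mem_LL.2 ⟨hv, hv'⟩)
  refine h1.trans (mul_le_mul_of_nonneg_right ?_ (sq_nonneg _))
  rw [pow_mul]
  refine pow_le_pow_left₀ (by positivity) ?_ r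
  have h2 := (htr (2 ^ g) hM).trans (trace_bound m g (j * (2 ^ g + 1)) hg)
  have h3 := h2.trans (Real.exp_le_exp.2 (exponent_le hg h))
  have h4 : Real.exp (3073 * j) = Real.exp 3073 ^ j := by
    rw [← Real.exp_nat_mul]; congr 1; ring
  rw [h4] at h3
  have h5 : ((2 ^ g : ℕ) : ℝ) = 2 ^ g := by push_cast; rfl
  rw [h5] at h3
  rw [div_pow, le_div_iff₀ (by positivity), mul_comm]
  exact h3

end norm

end Vale.Agent.ThorpO
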