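import Vale.Agent.Thorp.PartD
import Vale.Agent.ThorpO.DeltaAlt

/-!
# P162, part ALPHA (A2): the levels `L j = W j ⊓ (W (j - 1))ᗮ` of the regular representation
-/

open scoped InnerProductSpace

namespace Vale.Agent.ThorpO.A2

open Equiv Finset Vale.Agent.Thorp Vale.Agent.Thorp.PD

section sym

variable {E : Type*} [NormedAddCommGroup E] [InnerProductSpace ℝ E] [FiniteDimensional ℝ E]

theorem sym_lower {T : E →ₗ[ℝ] E} (hT : T.IsSymmetric) {c : ℝ}
    (h : ∀ (μ : ℝ) (v : E), v ≠ 0 → T v = μ • v → c ≤ μ) (v : E) :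
    c * ‖v‖ ^ 2 ≤ ⟪v, T v⟫_ℝ := by
  set b := hT.eigenvectorBasis rfl with hb
  have h1 : ∀ i, T (b i) = (hT.eigenvalues rfl i) • b i := fun i =>
    hT.apply_eigenvectorBasis rfl i
  have h2 : ⟪v, T v⟫_ℝ = ∑ i, hT.eigenvalues rfl i * ⟪b i, v⟫_ℝ ^ 2 := by
    rw [← b.sum_inner_mul_inner v (T v)]
    refine Finset.sum_congr rfl fun i _ => ?_
    rw [← hT (b i) v, h1 i, real_inner_smul_left, real_inner_comm v (b i)]
    ring
  have h3 : ‖v‖ ^ 2 = ∑ i, ⟪b i, v⟫_ℝ ^ 2 := (b.sum_sq_norm_inner_right v).symm.trans (by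
    refine Finset.sum_congr rfl fun i _ => ?_
    rw [Real.norm_eq_abs, sq_abs])
  rw [h2, h3, Finset.mul_sum]
  refine Finset.sum_le_sum fun i _ => mul_le_mul_of_nonneg_right ?_ (sq_nonneg _)
  refine h _ (b i) ?_ (h1 i)
  intro h0
  have := b.orthonormal.1 i
  rw [h0, norm_zero] at this
  exact zero_ne_one this

end sym

variable {X : Type} [Fintype X] [DecidableEq X]

theorem ap_inv {Y : Type*} (σ : Perm Y) (z : Y) : σ (σ⁻¹ z) = z := σ.apply_symm_apply z

theorem inv_ap {Y : Type*} (σ : Perm Y) (z : Y) : σ⁻¹ (σ z) = z := σ.symm_apply_apply z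

/-- The set of permutations with `σ (y i) = x i` for all `i`. -/
def fibr {b : ℕ} (x y : Fin b → X) : Finset (Perm X) := univ.filter fun σ => ∀ i, σ (y i) = x i

theorem inner_FF {b : ℕ} (w : EuclideanSpace ℝ (Perm X)) (x y : Fin b → X) :
    ⟪w, FF b (x, y)⟫_ℝ = ∑ σ ∈ fibr x y, w σ := by
  rw [PiLp.inner_apply, fibr, Finset.sum_filter]
  refine Finset.sum_congr rfl fun σ _ => ?_
  rw [FF_apply]
  split_ifs <;> simp

omit [Fintype X] [DecidableEq X] in
theorem exists_perm {b : ℕ} (x y : Fin b ↪ X) : ∃ g : Perm X, ∀ i, g (x i) = y i := by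
  have := Equiv.Perm.isMultiplyPretransitive X b
  obtain ⟨g, hg⟩ := MulAction.exists_smul_eq (Perm X) x y
  exact ⟨g, fun i => by rw [← hg]; rfl⟩

theorem card_fibr {b : ℕ} (x y : Fin b ↪ X) :
    (fibr (x : Fin b → X) y).card = (Fintype.card X - b).factorial := by
  have hb : b ≤ Fintype.card X := by
    have := Fintype.card_le_of_embedding x
    rwa [Fintype.card_fin] at this
  have h1 : ∀ x' : Fin b ↪ X, (fibr (x' : Fin b → X) y).card = (fibr (x : Fin b → X) y).card := by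
    intro x'
    obtain ⟨g, hg⟩ := exists_perm x' x
    refine Finset.card_bij (fun σ _ => g * σ) ?_ ?_ ?_
    · intro σ hσ
      rw [fibr, Finset.mem_filter] at hσ ⊢
      refine ⟨Finset.mem_univ _, fun i => ?_⟩
      rw [Perm.mul_apply, hσ.2 i, hg i]
    · intro σ _ τ _ h
      exact mul_left_cancel h
    · intro τ hτ
      refine ⟨g⁻¹ * τ, ?_, mul_inv_cancel_left _ _⟩
      rw [fibr, Finset.mem_filter] at hτ ⊢
      refine ⟨Finset.mem_univ _, fun i => ?_⟩
      rw [Perm.mul_apply, hτ.2 i, Perm.inv_eq_iff_eq, hg i]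
  have h2 : ∑ x' : Fin b ↪ X, (fibr (x' : Fin b → X) y).card = (Fintype.card X).factorial := by
    rw [← Fintype.card_perm, ← Finset.card_univ, ← Finset.card_biUnion]
    · congr 1
      refine Finset.eq_univ_iff_forall.2 fun σ => ?_
      rw [Finset.mem_biUnion]
      refine ⟨y.trans σ.toEmbedding, Finset.mem_univ _, ?_⟩
      rw [fibr, Finset.mem_filter]
      exact ⟨Finset.mem_univ _, fun i => rfl⟩
    · intro x₁ _ x₂ _ h12
      rw [Function.onFun, Finset.disjoint_left]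
      intro σ h1 h2
      apply h12
      rw [fibr, Finset.mem_filter] at h1 h2
      ext i
      rw [← h1.2 i, h2.2 i]
  rw [Finset.sum_congr rfl fun x' _ => h1 x', Finset.sum_const, Finset.card_univ, smul_eq_mul,
    Fintype.card_embedding_eq, Fintype.card_fin, ← Nat.factorial_mul_descFactorial hb,
    mul_comm] at h2
  exact Nat.eq_of_mul_eq_mul_right (Nat.descFactorial_pos.2 hb) h2

/-- `f` is invariant under the right translations fixing `y`. -/
def RInv {b : ℕ} (y : Fin b → X) (f : EuclideanSpace ℝ (Perm X)) : Prop :=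
  ∀ h : Perm X, (∀ i, h (y i) = y i) → rt h f = f

theorem RInv.eq {b : ℕ} {y : Fin b → X} {f : EuclideanSpace ℝ (Perm X)} (hf : RInv y f)
    {σ τ : Perm X} (h : ∀ i, σ (y i) = τ (y i)) : f σ = f τ := by
  have h1 : ∀ i, (τ⁻¹ * σ) (y i) = y i := by
    intro i
    rw [Perm.mul_apply, h i, inv_ap]
  have h2 := congrArg (fun g : EuclideanSpace ℝ (Perm X) => g σ) (hf _ h1)
  simp only [rt_apply] at h2
  have h3 : σ * (τ⁻¹ * σ)⁻¹ = τ := by group
  rw [h3] at h2
  exact h2.symm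

theorem RInv.mem {b : ℕ} {y : Fin b → X} {f : EuclideanSpace ℝ (Perm X)} (hf : RInv y f) :
    f ∈ W X b := by
  classical
  let c : (Fin b → X) → ℝ := fun x => if h : ∃ σ : Perm X, ∀ i, σ (y i) = x i then f h.choose else 0
  have h1 : f = ∑ x : Fin b → X, c x • FF b (x, y) := by
    ext σ
    have h2 : (∑ x : Fin b → X, c x • FF b (x, y)) σ = ∑ x : Fin b → X, c x * FF b (x, y) σ := by
      simp
    rw [h2, Finset.sum_eq_single (fun i => σ (y i))]
    · rw [FF_apply, if_pos (fun i => rfl), mul_one]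
      have h3 : ∃ τ : Perm X, ∀ i, τ (y i) = (fun i => σ (y i)) i := ⟨σ, fun i => rfl⟩
      simp only [c]
      rw [dif_pos h3]
      exact hf.eq fun i => (h3.choose_spec i).symm
    · intro x _ hx
      rw [FF_apply, if_neg, mul_zero]
      intro h
      exact hx (funext fun i => (h i).symm)
    · intro h; exact absurd (Finset.mem_univ _) h
  rw [h1]
  exact Submodule.sum_mem _ fun x _ => Submodule.smul_mem _ _ (FF_mem _ _)

theorem RInv_FF {b c : ℕ} (p : (Fin b → X) × (Fin b → X)) (y : Fin c → X)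
    (h : ∀ g : Perm X, (∀ i, g (y i) = y i) → ∀ i, g (p.2 i) = p.2 i) : RInv y (FF b p) := by
  intro g hg
  rw [rt_FF]
  congr 2
  funext i
  rw [Perm.inv_eq_iff_eq]
  exact (h g hg i).symm

omit [Fintype X] in
theorem FF_zero_of_not_inj {b : ℕ} (x : Fin b → X) (y : Fin b → X) (hy : Function.Injective y)
    (hx : ¬ Function.Injective x) : FF b (x, y) = 0 := by
  ext σ
  rw [FF_apply, if_neg]
  · rfl
  · intro h
    apply hx
    intro i i' hii
    have h' : ∀ i, σ (y i) = x i := h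
    rw [← h' i, ← h' i'] at hii
    exact hy (σ.injective hii)

theorem FF_mem_of_not_inj {b : ℕ} (x y : Fin (b + 1) → X) (hy : ¬ Function.Injective y) :
    FF (b + 1) (x, y) ∈ W X b := by
  have h1 : ∃ e e', y e = y e' ∧ e ≠ e' := by
    unfold Function.Injective at hy
    push Not at hy
    exact hy
  obtain ⟨e, e', h, hne⟩ := h1
  refine RInv.mem (y := fun i => y (e'.succAbove i)) (RInv_FF _ _ fun g hg i => ?_)
  have hkey : ∀ i, i ≠ e' → g (y i) = y i := by
    intro i hi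
    obtain ⟨k, rfl⟩ := Fin.exists_succAbove_eq hi
    exact hg k
  by_cases hi : i = e'
  · change g (y i) = y i
    rw [hi, ← h]
    exact hkey e hne
  · exact hkey i hi

/-- The operator `Q`. -/
noncomputable def QQ (X : Type) [Fintype X] [DecidableEq X] (b : ℕ) :
    EuclideanSpace ℝ (Perm X) →ₗ[ℝ] EuclideanSpace ℝ (Perm X) where
  toFun w := ∑ x : Fin b ↪ X, ∑ y : Fin b ↪ X, ⟪FF b (x, y), w⟫_ℝ • FF b (x, y)
  map_add' v w := by
    simp only [inner_add_right, add_smul, Finset.sum_add_distrib]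
  map_smul' c v := by
    simp only [real_inner_smul_right, mul_smul, Finset.smul_sum, RingHom.id_apply]

theorem QQ_apply (b : ℕ) (w : EuclideanSpace ℝ (Perm X)) :
    QQ X b w = ∑ x : Fin b ↪ X, ∑ y : Fin b ↪ X, ⟪FF b (x, y), w⟫_ℝ • FF b (x, y) := rfl

theorem inner_QQ (b : ℕ) (v w : EuclideanSpace ℝ (Perm X)) :
    ⟪v, QQ X b w⟫_ℝ = ∑ x : Fin b ↪ X, ∑ y : Fin b ↪ X, ⟪FF b (x, y), v⟫_ℝ * ⟪FF b (x, y), w⟫_ℝ := by
  rw [QQ_apply, inner_sum]
  refine Finset.sum_congr rfl fun x _ => ?_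
  rw [inner_sum]
  refine Finset.sum_congr rfl fun y _ => ?_
  rw [real_inner_smul_right, real_inner_comm v]
  ring

theorem QQ_symm (b : ℕ) : (QQ X b).IsSymmetric := by
  intro v w
  rw [real_inner_comm, inner_QQ, inner_QQ]
  refine Finset.sum_congr rfl fun x _ => Finset.sum_congr rfl fun y _ => by ring

theorem rt_inv_FF {b : ℕ} (h : Perm X) (x y : Fin b → X) (v : EuclideanSpace ℝ (Perm X)) :
    ⟪FF b (x, y), rt h v⟫_ℝ = ⟪FF b (x, fun i => h (y i)), v⟫_ℝ := by
  have h1 : rt h (FF b (x, fun i => h (y i))) = FF b (x, y) := by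
    rw [rt_FF]
    congr 2
    funext i
    exact inv_ap _ _
  rw [← h1, LinearIsometryEquiv.inner_map_map]

theorem rt_QQ (b : ℕ) (h : Perm X) (v : EuclideanSpace ℝ (Perm X)) :
    QQ X b (rt h v) = rt h (QQ X b v) := by
  rw [QQ_apply, QQ_apply, map_sum]
  refine Finset.sum_congr rfl fun x _ => ?_
  rw [map_sum]
  refine Fintype.sum_equiv (Equiv.embeddingCongr (Equiv.refl _) h) _ _ fun y => ?_
  rw [rt_inv_FF, map_smul, rt_FF]
  congr 2
  congr 1
  funext i
  change y i = h⁻¹ (h (y i))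
  rw [inv_ap]

theorem QQ_W (b c : ℕ) {v : EuclideanSpace ℝ (Perm X)} (hv : v ∈ W X c) : QQ X b v ∈ W X c := by
  have h : W X c ≤ (W X c).comap (QQ X b) := by
    refine Submodule.span_le.2 ?_
    rintro _ ⟨p, rfl⟩
    change QQ X b (FF c p) ∈ W X c
    refine RInv.mem (y := p.2) fun g hg => ?_
    rw [← rt_QQ]
    congr 1
    exact RInv_FF p p.2 (fun g hg => hg) g hg
  exact h hv

theorem QQ_W_orth (b c : ℕ) {v : EuclideanSpace ℝ (Perm X)} (hv : v ∈ (W X c)ᗮ) :
    QQ X b v ∈ (W X c)ᗮ := by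
  rw [Submodule.mem_orthogonal] at hv ⊢
  intro u hu
  rw [← QQ_symm b u v]
  exact hv _ (QQ_W b c hu)

theorem exists_good {b : ℕ} {v : EuclideanSpace ℝ (Perm X)} (hv : v ∈ W X (b + 1))
    (hv2 : v ∈ (W X b)ᗮ) (hv0 : v ≠ 0) : ∃ x y : Fin (b + 1) ↪ X, ⟪v, FF (b + 1) (x, y)⟫_ℝ ≠ 0 := by
  by_contra hcon
  push Not at hcon
  apply hv0
  have h1 : v ∈ (W X (b + 1))ᗮ := by
    have h2 : W X (b + 1) ≤ (ℝ ∙ v)ᗮ := by
      refine Submodule.span_le.2 ?_
      rintro _ ⟨⟨x, y⟩, rfl⟩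
      rw [SetLike.mem_coe, Submodule.mem_orthogonal_singleton_iff_inner_right]
      by_cases hy : Function.Injective y
      · by_cases hx : Function.Injective x
        · exact hcon ⟨x, hx⟩ ⟨y, hy⟩
        · rw [FF_zero_of_not_inj x y hy hx, inner_zero_right]
      · rw [real_inner_comm]
        exact (Submodule.mem_orthogonal _ _).1 hv2 _ (FF_mem_of_not_inj x y hy)
    rw [Submodule.mem_orthogonal]
    intro u hu
    have := h2 hu
    rw [Submodule.mem_orthogonal_singleton_iff_inner_right] at this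
    rw [real_inner_comm]
    exact this
  have h3 := (Submodule.mem_orthogonal _ _).1 h1 v hv
  exact inner_self_eq_zero.1 h3

theorem sq_sum_fibr {b : ℕ} {y : Fin b ↪ X} {g : EuclideanSpace ℝ (Perm X)} (hg : RInv y g) :
    ∑ x : Fin b ↪ X, ⟪g, FF b (x, y)⟫_ℝ ^ 2 = ((Fintype.card X - b).factorial : ℝ) * ‖g‖ ^ 2 := by
  have h1 : ‖g‖ ^ 2 = ∑ x : Fin b ↪ X, ∑ σ ∈ fibr (x : Fin b → X) y, (g σ) ^ 2 := by
    rw [EuclideanSpace.norm_sq_eq, ← Finset.sum_biUnion]
    · have h2 : (univ : Finset (Fin b ↪ X)).biUnion (fun x => fibr (x : Fin b → X) y) = univ := by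
        refine Finset.eq_univ_iff_forall.2 fun σ => ?_
        rw [Finset.mem_biUnion]
        refine ⟨y.trans σ.toEmbedding, Finset.mem_univ _, ?_⟩
        rw [fibr, Finset.mem_filter]
        exact ⟨Finset.mem_univ _, fun i => rfl⟩
      rw [h2]
      refine Finset.sum_congr rfl fun σ _ => ?_
      rw [Real.norm_eq_abs, sq_abs]
    · intro x₁ _ x₂ _ h12
      rw [Function.onFun, Finset.disjoint_left]
      intro σ h1 h2
      apply h12
      rw [fibr, Finset.mem_filter] at h1 h2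
      ext i
      rw [← h1.2 i, h2.2 i]
  rw [h1, Finset.mul_sum]
  refine Finset.sum_congr rfl fun x _ => ?_
  rw [inner_FF]
  obtain ⟨τ, hτ⟩ := exists_perm y x
  have h3 : ∀ σ ∈ fibr (x : Fin b → X) y, g σ = g τ := by
    intro σ hσ
    rw [fibr, Finset.mem_filter] at hσ
    exact hg.eq fun i => (hσ.2 i).trans (hτ i).symm
  rw [Finset.sum_congr rfl h3, Finset.sum_congr rfl (fun σ hσ => by rw [h3 σ hσ] :
    ∀ σ ∈ fibr (x : Fin b → X) y, (g σ) ^ 2 = (g τ) ^ 2), Finset.sum_const, Finset.sum_const,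
    card_fibr, nsmul_eq_mul, nsmul_eq_mul]
  ring

omit [Fintype X] in
theorem FF_perm {b : ℕ} (x y : Fin b → X) (π : Perm (Fin b)) :
    FF b (x, fun i => y (π i)) = FF b (fun i => x (π⁻¹ i), y) := by
  ext σ
  rw [FF_apply, FF_apply]
  refine if_congr ⟨fun h i => ?_, fun h i => ?_⟩ rfl rfl
  · have := h (π⁻¹ i)
    simp only [ap_inv] at this
    exact this
  · have := h (π i)
    simp only [inv_ap] at this
    exact this

theorem QQ_lower_inv {b : ℕ} {y : Fin b ↪ X} {g : EuclideanSpace ℝ (Perm X)} (hg : RInv y g) :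
    (b.factorial : ℝ) * ((Fintype.card X - b).factorial : ℝ) * ‖g‖ ^ 2 ≤ ⟪g, QQ X b g⟫_ℝ := by
  classical
  have h1 : ⟪g, QQ X b g⟫_ℝ = ∑ y' : Fin b ↪ X, ∑ x : Fin b ↪ X, ⟪g, FF b (x, y')⟫_ℝ ^ 2 := by
    rw [inner_QQ, Finset.sum_comm]
    refine Finset.sum_congr rfl fun y' _ => Finset.sum_congr rfl fun x _ => ?_
    rw [real_inner_comm g]
    ring
  have h2 : ∀ π : Perm (Fin b), ∑ x : Fin b ↪ X,
      ⟪g, FF b (x, (π.toEmbedding.trans y : Fin b ↪ X))⟫_ℝ ^ 2 =
      ∑ x : Fin b ↪ X, ⟪g, FF b (x, y)⟫_ℝ ^ 2 := by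
    intro π
    refine Fintype.sum_equiv (Equiv.embeddingCongr π (Equiv.refl _)) _ _ fun x => ?_
    congr 2
    exact FF_perm x y π
  have h3 : Function.Injective (fun π : Perm (Fin b) => (π.toEmbedding.trans y : Fin b ↪ X)) := by
    intro π π' h
    ext i
    have := congrArg (fun f : Fin b ↪ X => f i) h
    simp only [Function.Embedding.trans_apply] at this
    have h4 := y.injective this
    exact congrArg Fin.val h4
  rw [h1]
  calc (b.factorial : ℝ) * ((Fintype.card X - b).factorial : ℝ) * ‖g‖ ^ 2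
      = ∑ π : Perm (Fin b), ∑ x : Fin b ↪ X,
          ⟪g, FF b (x, (π.toEmbedding.trans y : Fin b ↪ X))⟫_ℝ ^ 2 := by
        rw [Finset.sum_congr rfl fun π _ => h2 π, Finset.sum_const, sq_sum_fibr hg,
          Finset.card_univ, Fintype.card_perm, Fintype.card_fin, nsmul_eq_mul]
        ring
    _ = ∑ y' ∈ univ.image (fun π : Perm (Fin b) => (π.toEmbedding.trans y : Fin b ↪ X)),
          ∑ x : Fin b ↪ X, ⟪g, FF b (x, y')⟫_ℝ ^ 2 := by
        rw [Finset.sum_image fun π _ π' _ h => h3 h]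
    _ ≤ _ := Finset.sum_le_sum_of_subset_of_nonneg (Finset.subset_univ _)
        fun y' _ _ => Finset.sum_nonneg fun x _ => sq_nonneg _

theorem L_lower_aux {b : ℕ} {w : EuclideanSpace ℝ (Perm X)} (hw : w ∈ W X (b + 1))
    (hw2 : w ∈ (W X b)ᗮ) :
    ((b + 1).factorial : ℝ) * ((Fintype.card X - (b + 1)).factorial : ℝ) * ‖w‖ ^ 2 ≤
      ⟪w, QQ X (b + 1) w⟫_ℝ := by
  classical
  set L : Submodule ℝ (EuclideanSpace ℝ (Perm X)) := W X (b + 1) ⊓ (W X b)ᗮ with hL
  have hQL : ∀ v ∈ L, QQ X (b + 1) v ∈ L := fun v hv => ⟨QQ_W _ _ hv.1, QQ_W_orth _ _ hv.2⟩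
  have hsym : ((QQ X (b + 1)).restrict hQL).IsSymmetric :=
    (QQ_symm (b + 1)).restrict_invariant hQL
  have h := sym_lower hsym (c := ((b + 1).factorial : ℝ) *
    ((Fintype.card X - (b + 1)).factorial : ℝ)) ?_ ⟨w, hw, hw2⟩
  · exact h
  intro μ v hv0 hv
  have hv' : QQ X (b + 1) (v : EuclideanSpace ℝ (Perm X)) = μ • (v : EuclideanSpace ℝ (Perm X)) := by
    have := congrArg (fun u : L => (u : EuclideanSpace ℝ (Perm X))) hv
    simpa using this
  have hv0' : (v : EuclideanSpace ℝ (Perm X)) ≠ 0 := fun h => hv0 (Subtype.ext h)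
  obtain ⟨x, y, hxy⟩ := exists_good v.2.1 v.2.2 hv0'
  set St : Finset (Perm X) := univ.filter fun h => ∀ i, h (y i) = y i with hSt
  set g : EuclideanSpace ℝ (Perm X) := ∑ h ∈ St, rt h (v : EuclideanSpace ℝ (Perm X)) with hg
  have hQg : QQ X (b + 1) g = μ • g := by
    rw [hg, map_sum, Finset.smul_sum]
    refine Finset.sum_congr rfl fun h _ => ?_
    rw [rt_QQ, hv', map_smul]
  have hinv : RInv y g := by
    intro h hh
    rw [hg, map_sum]
    refine Finset.sum_bij (fun h' _ => h' * h) ?_ ?_ ?_ ?_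
    · intro h' hh'
      rw [hSt, Finset.mem_filter] at hh' ⊢
      refine ⟨Finset.mem_univ _, fun i => ?_⟩
      rw [Perm.mul_apply, hh i, hh'.2 i]
    · intro h₁ _ h₂ _ h12
      exact mul_right_cancel h12
    · intro h' hh'
      refine ⟨h' * h⁻¹, ?_, inv_mul_cancel_right _ _⟩
      rw [hSt, Finset.mem_filter] at hh' ⊢
      refine ⟨Finset.mem_univ _, fun i => ?_⟩
      have : h⁻¹ (y i) = y i := by rw [Perm.inv_eq_iff_eq, hh i]
      rw [Perm.mul_apply, this, hh'.2 i]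
    · intro h' _
      ext σ
      rw [rt_apply, rt_apply, rt_apply, mul_assoc, ← mul_inv_rev]
  have hgne : g ≠ 0 := by
    intro h0
    have h1 : ⟪FF (b + 1) (x, y), g⟫_ℝ = (St.card : ℝ) * ⟪FF (b + 1) (x, y), (v : EuclideanSpace ℝ (Perm X))⟫_ℝ := by
      rw [hg, inner_sum, Finset.sum_congr rfl (g := fun _ =>
        ⟪FF (b + 1) (x, y), (v : EuclideanSpace ℝ (Perm X))⟫_ℝ), Finset.sum_const, nsmul_eq_mul]
      intro h hh
      rw [rt_inv_FF]
      congr 3
      funext i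
      exact (Finset.mem_filter.1 hh).2 i
    rw [h0, inner_zero_right, real_inner_comm] at h1
    have h2 : (St.card : ℝ) ≠ 0 := by
      have : 1 ∈ St := by rw [hSt, Finset.mem_filter]; exact ⟨Finset.mem_univ _, fun i => rfl⟩
      have : 0 < St.card := Finset.card_pos.2 ⟨1, this⟩
      positivity
    rcases mul_eq_zero.1 h1.symm with h3 | h3
    · exact h2 h3
    · exact hxy h3
  have h1 := QQ_lower_inv hinv
  rw [hQg, real_inner_smul_right, real_inner_self_eq_norm_sq] at h1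
  exact le_of_mul_le_mul_right h1 (by positivity)

/-- (A2) -/
theorem L_lower {b : ℕ} {w : EuclideanSpace ℝ (Perm X)} (hw : w ∈ W X (b + 1))
    (hw2 : w ∈ (W X b)ᗮ) :
    ((b + 1).factorial : ℝ) * ((Fintype.card X - (b + 1)).factorial : ℝ) * ‖w‖ ^ 2 ≤
      ∑ x : Fin (b + 1) ↪ X, ∑ y : Fin (b + 1) ↪ X, ⟪w, FF (b + 1) (x, y)⟫_ℝ ^ 2 := by
  refine (L_lower_aux hw hw2).trans (le_of_eq ?_)
  rw [inner_QQ]
  refine Finset.sum_congr rfl fun x _ => Finset.sum_congr rfl fun y _ => ?_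
  rw [real_inner_comm w]
  ring

end Vale.Agent.ThorpO.A2
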