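import Vale.Agent.ThorpO.Defs

/-!
# P162, `t_mix (2 ^ d) = O(d)`: basic lemmas on the flat model
-/

namespace Vale.Agent.ThorpO

open Equiv Finset

/-! ### Bits -/

section bits

variable {d : ℕ}

theorem bit_of_lt {z : Pos d} {r : ℕ} (h : r < d) : bit z r = z ⟨r, h⟩ := by
  simp [bit, h]

theorem bit_of_ge {z : Pos d} {r : ℕ} (h : d ≤ r) : bit z r = false := by
  simp [bit, Nat.not_lt.2 h]

theorem bit_ext {z w : Pos d} (h : ∀ i, i < d → bit z i = bit w i) : z = w := by
  funext i
  have := h i.val i.isLt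
  rwa [bit_of_lt i.isLt, bit_of_lt i.isLt] at this

theorem bit_fl {z : Pos d} {r : ℕ} (hr : r < d) : bit (fl r z) r = !bit z r := by
  simp [bit, hr, fl]

theorem bit_fl_ne {z : Pos d} {r i : ℕ} (h : i ≠ r) : bit (fl r z) i = bit z i := by
  by_cases hi : i < d
  · simp [bit, hi, fl, h]
  · simp [bit, hi]

theorem bit_clr {z : Pos d} {r : ℕ} : bit (clr r z) r = false := by
  by_cases hi : r < d
  · simp [bit, hi, clr]
  · simp [bit, hi]

theorem bit_clr_ne {z : Pos d} {r i : ℕ} (h : i ≠ r) : bit (clr r z) i = bit z i := by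
  by_cases hi : i < d
  · simp [bit, hi, clr, h]
  · simp [bit, hi]

theorem eq_or_eq_fl_of_clr {z w : Pos d} {r : ℕ} (h : clr r z = clr r w) : z = w ∨ z = fl r w := by
  by_cases hr : r < d
  · by_cases hb : bit z r = bit w r
    · left
      apply bit_ext
      intro i hi
      by_cases hir : i = r
      · rw [hir, hb]
      · rw [← bit_clr_ne (z := z) hir, h, bit_clr_ne hir]
    · right
      apply bit_ext
      intro i hi
      by_cases hir : i = r
      · rw [hir, bit_fl hr]
        cases h1 : bit z r <;> cases h2 : bit w r <;> simp_all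
      · rw [← bit_clr_ne (z := z) hir, h, bit_clr_ne hir, bit_fl_ne hir]
  · left
    apply bit_ext
    intro i hi
    have hir : i ≠ r := by omega
    rw [← bit_clr_ne (z := z) hir, h, bit_clr_ne hir]

theorem fl_ne {z : Pos d} {r : ℕ} (hr : r < d) : fl r z ≠ z := by
  intro h
  have := congrArg (fun w => bit w r) h
  simp only [bit_fl hr] at this
  cases h1 : bit z r <;> simp_all

theorem fl_injective (r : ℕ) : Function.Injective (fl r : Pos d → Pos d) := by
  intro z w h
  rw [← fl_fl r z, h, fl_fl]

/-- `z` with bit `r` replaced by `b`. -/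
def setb (r : ℕ) (b : Bool) (z : Pos d) : Pos d := fun i => if i.val = r then b else z i

theorem bit_setb {z : Pos d} {r : ℕ} (hr : r < d) (b : Bool) : bit (setb r b z) r = b := by
  simp [bit, hr, setb]

theorem bit_setb_ne {z : Pos d} {r i : ℕ} (h : i ≠ r) (b : Bool) :
    bit (setb r b z) i = bit z i := by
  by_cases hi : i < d
  · simp [bit, hi, setb, h]
  · simp [bit, hi]

theorem clr_setb {z : Pos d} {r : ℕ} (b : Bool) : clr r (setb r b z) = clr r z := by
  funext i
  by_cases h : i.val = r <;> simp [clr, setb, h]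

theorem setb_self {z : Pos d} {r : ℕ} : setb r (bit z r) z = z := by
  funext i
  by_cases h : i.val = r
  · simp [setb, bit, ← h]
  · simp [setb, h]

theorem fl_eq_setb {z : Pos d} {r : ℕ} : fl r z = setb r (!bit z r) z := by
  funext i
  by_cases h : i.val = r
  · simp [setb, fl, bit, ← h]
  · simp [setb, fl, h]

theorem setb_eq_of_clr {z w : Pos d} {r : ℕ} (h : clr r z = clr r w) (b : Bool) :
    setb r b z = setb r b w := by
  funext i
  have := congrFun h i
  by_cases h1 : i.val = r
  · simp [setb, h1]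
  · simpa [setb, clr, h1] using this

theorem fl_setb {z : Pos d} {r : ℕ} (b : Bool) : fl r (setb r b z) = setb r (!b) z := by
  funext i
  by_cases h : i.val = r <;> simp [fl, setb, h]

end bits

/-! ### Layers -/

section layers

variable {d : ℕ}

theorem lay_apply (r : ℕ) (ω : Coins d) (z : Pos d) :
    lay r ω z = if coin ω r (clr r z) then fl r z else z := rfl

theorem lay_symm (r : ℕ) (ω : Coins d) : (lay r ω)⁻¹ = lay r ω := rfl

theorem flP_apply (r : ℕ) (z : Pos d) : flP d r z = fl r z := rfl

theorem flP_symm (r : ℕ) : (flP d r)⁻¹ = flP d r := rfl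

theorem lay_eq_setb (r : ℕ) (ω : Coins d) (z : Pos d) :
    lay r ω z = setb r (xor (bit z r) (coin ω r (clr r z))) z := by
  rw [lay_apply]
  by_cases h : coin ω r (clr r z) = true
  · rw [if_pos h, h, Bool.xor_true, fl_eq_setb]
  · rw [if_neg h]
    simp only [Bool.not_eq_true] at h
    rw [h, Bool.xor_false, setb_self]

theorem bit_lay_ne {r i : ℕ} (h : i ≠ r) (ω : Coins d) (z : Pos d) :
    bit (lay r ω z) i = bit z i := by
  rw [lay_eq_setb, bit_setb_ne h]

theorem clr_lay (r : ℕ) (ω : Coins d) (z : Pos d) : clr r (lay r ω z) = clr r z := by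
  rw [lay_eq_setb, clr_setb]

theorem bit_net_ge {r i : ℕ} (h : r ≤ i) (ωi ωo : Coins d) (z : Pos d) :
    bit (net ωi ωo r z) i = bit z i := by
  induction r generalizing z with
  | zero => rfl
  | succ r ih =>
    rw [net, Perm.mul_apply, Perm.mul_apply, bit_lay_ne (by omega), ih (by omega),
      bit_lay_ne (by omega)]

end layers

/-! ### Averages -/

section av

variable {d : ℕ}

theorem card_coins_pos : (0 : ℝ) < Fintype.card (Coins d) := by
  exact_mod_cast Fintype.card_pos

theorem av_const (c : ℝ) : av (fun _ : Coins d => c) = c := by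
  unfold av
  rw [Finset.sum_const, Finset.card_univ, nsmul_eq_mul, mul_comm,
    mul_div_assoc, div_self card_coins_pos.ne', mul_one]

theorem av_mono {F G : Coins d → ℝ} (h : ∀ ω, F ω ≤ G ω) : av F ≤ av G := by
  unfold av
  exact div_le_div_of_nonneg_right (Finset.sum_le_sum fun ω _ => h ω) card_coins_pos.le

theorem av_nonneg {F : Coins d → ℝ} (h : ∀ ω, 0 ≤ F ω) : 0 ≤ av F := by
  have := av_mono (F := fun _ : Coins d => (0 : ℝ)) h
  rwa [av_const] at this

theorem av_add (F G : Coins d → ℝ) : av (fun ω => F ω + G ω) = av F + av G := by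
  unfold av
  rw [Finset.sum_add_distrib, add_div]

theorem av_mul_left (c : ℝ) (F : Coins d → ℝ) : av (fun ω => c * F ω) = c * av F := by
  unfold av
  rw [← Finset.mul_sum, mul_div_assoc]

theorem av_mul_right (F : Coins d → ℝ) (c : ℝ) : av (fun ω => F ω * c) = av F * c := by
  unfold av
  rw [← Finset.sum_mul]
  ring

theorem av_sum {ι : Type*} (s : Finset ι) (F : ι → Coins d → ℝ) :
    av (fun ω => ∑ i ∈ s, F i ω) = ∑ i ∈ s, av (F i) := by
  unfold av
  rw [Finset.sum_comm, Finset.sum_div]

theorem av_congr {F G : Coins d → ℝ} (h : ∀ ω, F ω = G ω) : av F = av G := by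
  unfold av
  rw [Finset.sum_congr rfl fun ω _ => h ω]

theorem av_comm (F : Coins d → Coins d → ℝ) :
    av (fun ω => av fun ω' => F ω ω') = av (fun ω' => av fun ω => F ω ω') := by
  unfold av
  simp only [← Finset.sum_div]
  rw [Finset.sum_comm]

/-- Take the coins in `R` from `ω'` and the others from `ω`. -/
def mix (R : Fin d × Pos d → Prop) [DecidablePred R] (ω' ω : Coins d) : Coins d :=
  fun j => if R j then ω' j else ω j

/-- Resampling. -/
theorem av_mix (R : Fin d × Pos d → Prop) [DecidablePred R] (F : Coins d → ℝ) :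
    av (fun ω' => av fun ω => F (mix R ω' ω)) = av F := by
  have h : ∑ ω' : Coins d, ∑ ω : Coins d, F (mix R ω' ω) =
      ∑ ω' : Coins d, ∑ _ω : Coins d, F ω' := by
    rw [← Fintype.sum_prod_type', ← Fintype.sum_prod_type']
    refine Finset.sum_bij' (fun p _ => (mix R p.1 p.2, mix R p.2 p.1))
      (fun p _ => (mix R p.1 p.2, mix R p.2 p.1)) ?_ ?_ ?_ ?_ ?_
    · intro p _; exact Finset.mem_univ _
    · intro p _; exact Finset.mem_univ _
    · intro p _
      obtain ⟨u, v⟩ := p
      refine Prod.ext ?_ ?_ <;> funext j <;> by_cases hj : R j <;> simp [mix, hj]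
    · intro p _
      obtain ⟨u, v⟩ := p
      refine Prod.ext ?_ ?_ <;> funext j <;> by_cases hj : R j <;> simp [mix, hj]
    · intro p _
      rfl
  unfold av
  simp only [← Finset.sum_div]
  rw [h]
  simp only [Finset.sum_const, Finset.card_univ, nsmul_eq_mul]
  rw [← Finset.mul_sum, mul_comm (Fintype.card (Coins d) : ℝ), mul_div_assoc,
    div_self card_coins_pos.ne', mul_one]

/-- Independence. -/
theorem av_mul_of_indep (R : Fin d × Pos d → Prop) [DecidablePred R] {F G : Coins d → ℝ}
    (hF : ∀ ω' ω, F (mix R ω' ω) = F ω') (hG : ∀ ω' ω, G (mix R ω' ω) = G ω) :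
    av (fun ω => F ω * G ω) = av F * av G := by
  rw [← av_mix R]
  simp only [hF, hG]
  rw [← av_mul_right]
  refine av_congr fun ω' => ?_
  rw [av_mul_left]

end av

end Vale.Agent.ThorpO
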