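import Mathlib

/-!
# P162: closed walks and the chain inequality
-/

namespace Vale.Agent.ThorpO

open Finset

section walks

variable {n : Type*} [Fintype n] [DecidableEq n]

/-- Sums over walks. -/
theorem sum_walks (P : Matrix n n ℝ) (m : ℕ) (G : n → n → ℝ) :
    ∑ w : Fin (m + 1) → n, (∏ i : Fin m, P (w i.castSucc) (w i.succ)) * G (w 0) (w (Fin.last m)) =
      ∑ x, ∑ y, (P ^ m) x y * G x y := by
  induction m generalizing G with
  | zero =>
    have h1 : ∑ w : Fin (0 + 1) → n, (∏ i : Fin 0, P (w i.castSucc) (w i.succ)) *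
        G (w 0) (w (Fin.last 0)) = ∑ x, G x x := by
      rw [← Equiv.sum_comp (Equiv.funUnique (Fin 1) n).symm]
      simp
    rw [h1]
    refine Finset.sum_congr rfl fun x _ => ?_
    rw [Finset.sum_eq_single x]
    · simp
    · intro y _ hy
      simp [Matrix.one_apply_ne (Ne.symm hy)]
    · intro h; exact absurd (Finset.mem_univ _) h
  | succ m ih =>
    rw [← Equiv.sum_comp (Fin.consEquiv fun _ : Fin (m + 1 + 1) => n), Fintype.sum_prod_type,
      Finset.sum_comm]
    have h1 : ∀ w : Fin (m + 1) → n, ∑ x : n,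
        (∏ i : Fin (m + 1), P ((Fin.consEquiv fun _ : Fin (m + 1 + 1) => n) (x, w) i.castSucc)
          ((Fin.consEquiv fun _ : Fin (m + 1 + 1) => n) (x, w) i.succ)) *
          G ((Fin.consEquiv fun _ : Fin (m + 1 + 1) => n) (x, w) 0)
            ((Fin.consEquiv fun _ : Fin (m + 1 + 1) => n) (x, w) (Fin.last (m + 1))) =
        (∏ i : Fin m, P (w i.castSucc) (w i.succ)) *
          (fun a b => ∑ x, P x a * G x b) (w 0) (w (Fin.last m)) := by
      intro w
      simp only
      rw [Finset.mul_sum]
      refine Finset.sum_congr rfl fun x _ => ?_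
      have e0 : (Fin.consEquiv fun _ : Fin (m + 1 + 1) => n) (x, w) =
          (Fin.cons x w : Fin (m + 1 + 1) → n) := rfl
      rw [e0, Fin.prod_univ_succ]
      have e1 : (Fin.cons x w : Fin (m + 1 + 1) → n) (Fin.last (m + 1)) = w (Fin.last m) := by
        rw [← Fin.succ_last, Fin.cons_succ]
      have e2 : ∀ i : Fin m, (Fin.cons x w : Fin (m + 1 + 1) → n) i.succ.castSucc =
          w i.castSucc := by
        intro i
        rw [← Fin.succ_castSucc, Fin.cons_succ]
      simp only [e1, e2, Fin.castSucc_zero, Fin.cons_zero, Fin.cons_succ]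
      ring
    refine (Finset.sum_congr rfl fun w _ => h1 w).trans ?_
    refine (ih fun a b => ∑ x, P x a * G x b).trans ?_
    have h2 : ∀ a b, (P ^ m) a b * ∑ x, P x a * G x b = ∑ x, P x a * (P ^ m) a b * G x b := by
      intro a b
      rw [Finset.mul_sum]
      exact Finset.sum_congr rfl fun x _ => by ring
    simp only [h2]
    have h3 : ∀ x b, (P ^ (m + 1)) x b = ∑ a, P x a * (P ^ m) a b := by
      intro x b
      rw [pow_succ', Matrix.mul_apply]
    simp only [h3, Finset.sum_mul]
    -- reorder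
    have h4 : ∑ a, ∑ b, ∑ x, P x a * (P ^ m) a b * G x b =
        ∑ x, ∑ b, ∑ a, P x a * (P ^ m) a b * G x b := by
      calc ∑ a, ∑ b, ∑ x, P x a * (P ^ m) a b * G x b
          = ∑ b, ∑ a, ∑ x, P x a * (P ^ m) a b * G x b := Finset.sum_comm
        _ = ∑ b, ∑ x, ∑ a, P x a * (P ^ m) a b * G x b :=
            Finset.sum_congr rfl fun b _ => Finset.sum_comm
        _ = ∑ x, ∑ b, ∑ a, P x a * (P ^ m) a b * G x b := Finset.sum_comm
    rw [h4]

/-- Product over a closed walk. -/
theorem prod_closed (P : Matrix n n ℝ) (m : ℕ) (w : Fin (m + 1) → n) :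
    ∏ i : Fin (m + 1), P (w i) (w (i + 1)) =
      (∏ i : Fin m, P (w i.castSucc) (w i.succ)) * P (w (Fin.last m)) (w 0) := by
  rw [Fin.prod_univ_castSucc]
  simp [Fin.coeSucc_eq_succ]

theorem trace_eq_closed (P : Matrix n n ℝ) (m : ℕ) :
    (P ^ (m + 1)).trace = ∑ w : Fin (m + 1) → n, ∏ i : Fin (m + 1), P (w i) (w (i + 1)) := by
  simp only [prod_closed]
  rw [sum_walks P m fun a b => P b a]
  rw [pow_succ, Matrix.trace]
  refine Finset.sum_congr rfl fun x _ => ?_
  rw [Matrix.diag_apply, Matrix.mul_apply]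

/-- AM-GM over the omitted edge. -/
theorem amgm_omit {m : ℕ} (hm : 1 ≤ m) (t : Fin (m + 1) → ℝ) (ht : ∀ i, 0 ≤ t i) :
    ∏ i, t i ≤ (∑ i0, ∏ i, if i = i0 then 1 else (t i) ^ (1 + 1 / m : ℝ)) / (m + 1) := by
  have hm' : (0 : ℝ) < m := by exact_mod_cast hm
  have h1 := Real.geom_mean_le_arith_mean_weighted (univ : Finset (Fin (m + 1)))
    (fun _ => (1 : ℝ) / (m + 1)) (fun i0 => ∏ i, if i = i0 then 1 else (t i) ^ (1 + 1 / m : ℝ))
    (fun _ _ => by positivity) (by
      rw [Finset.sum_const, Finset.card_univ, Fintype.card_fin, nsmul_eq_mul]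
      push_cast
      field_simp) (fun i0 _ => Finset.prod_nonneg fun i _ => by
        split_ifs
        · exact zero_le_one
        · exact Real.rpow_nonneg (ht i) _)
  have h2 : ∏ i0, (∏ i, if i = i0 then 1 else (t i) ^ (1 + 1 / m : ℝ)) ^ ((1 : ℝ) / (m + 1)) =
      ∏ i, t i := by
    have e1 : ∀ i0, (∏ i, if i = i0 then 1 else (t i) ^ (1 + 1 / m : ℝ)) ^ ((1 : ℝ) / (m + 1)) =
        ∏ i, if i = i0 then 1 else (t i) ^ ((1 + 1 / m) * (1 / (m + 1)) : ℝ) := by
      intro i0
      rw [← Real.finsetProd_rpow]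
      · refine Finset.prod_congr rfl fun i _ => ?_
        split_ifs
        · exact Real.one_rpow _
        · rw [← Real.rpow_mul (ht i)]
      · intro i _
        split_ifs
        · exact zero_le_one
        · exact Real.rpow_nonneg (ht i) _
    simp only [e1]
    rw [Finset.prod_comm]
    refine Finset.prod_congr rfl fun i _ => ?_
    have e2 : ∏ i0, (if i = i0 then (1 : ℝ) else (t i) ^ ((1 + 1 / m) * (1 / (m + 1)) : ℝ)) =
        ((t i) ^ ((1 + 1 / m) * (1 / (m + 1)) : ℝ)) ^ m := by
      rw [Finset.prod_ite, Finset.prod_const_one, one_mul, Finset.prod_const]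
      congr 1
      have : (univ.filter fun i0 : Fin (m + 1) => ¬ i = i0) = univ.erase i := by
        ext i0
        simp [eq_comm]
      rw [this, Finset.card_erase_of_mem (Finset.mem_univ _), Finset.card_univ, Fintype.card_fin]
      rfl
    rw [e2, ← Real.rpow_natCast, ← Real.rpow_mul (ht i)]
    have e3 : ((1 + 1 / m) * (1 / (m + 1)) : ℝ) * m = 1 := by
      field_simp
    rw [e3, Real.rpow_one]
  rw [h2] at h1
  refine h1.trans (le_of_eq ?_)
  rw [← Finset.mul_sum]
  ring

theorem sum_omit (P : Matrix n n ℝ) (m : ℕ) (i0 : Fin (m + 1)) :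
    ∑ w : Fin (m + 1) → n, ∏ i, (if i = i0 then 1 else P (w i) (w (i + 1))) =
      ∑ x, ∑ y, (P ^ m) x y := by
  -- shift to i0 = last
  have h1 : ∑ w : Fin (m + 1) → n, ∏ i, (if i = i0 then 1 else P (w i) (w (i + 1))) =
      ∑ w : Fin (m + 1) → n, ∏ i, (if i = Fin.last m then 1 else P (w i) (w (i + 1))) := by
    set c : Fin (m + 1) := i0 - Fin.last m with hc
    have e1 : ∀ w : Fin (m + 1) → n, (∏ i, (if i = i0 then 1 else P (w i) (w (i + 1)))) =
        ∏ i, (if i = Fin.last m then 1 else P (w (i + c)) (w (i + 1 + c))) := by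
      intro w
      refine (Equiv.prod_comp (Equiv.addRight c)
        (fun i => if i = i0 then 1 else P (w i) (w (i + 1)))).symm.trans ?_
      refine Finset.prod_congr rfl fun i _ => ?_
      have this : (Equiv.addRight c) i = i0 ↔ i = Fin.last m := by
        rw [Equiv.coe_addRight, hc]
        constructor
        · intro h
          have := congrArg (fun z => z - (i0 - Fin.last m)) h
          simpa using this
        · intro h
          rw [h]; abel
      have e2 : (Equiv.addRight c) i + 1 = i + 1 + c := by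
        show i + c + 1 = i + 1 + c
        exact add_right_comm _ _ _
      by_cases h : i = Fin.last m
      · rw [if_pos (this.2 h), if_pos h]
      · rw [if_neg fun h' => h (this.1 h'), if_neg h, e2]
        rfl
    simp only [e1]
    exact Equiv.sum_comp (Equiv.arrowCongr (Equiv.addRight c).symm (Equiv.refl n))
      (fun w : Fin (m + 1) → n => ∏ i, (if i = Fin.last m then 1 else P (w i) (w (i + 1))))
  rw [h1]
  have h2 : ∀ w : Fin (m + 1) → n, ∏ i, (if i = Fin.last m then 1 else P (w i) (w (i + 1))) =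
      (∏ i : Fin m, P (w i.castSucc) (w i.succ)) * 1 := by
    intro w
    rw [Fin.prod_univ_castSucc, if_pos rfl]
    congr 1
    refine Finset.prod_congr rfl fun i _ => ?_
    rw [if_neg (Fin.castSucc_lt_last i).ne, Fin.coeSucc_eq_succ]
  simp only [h2]
  rw [sum_walks P m fun _ _ => 1]
  simp

/-- Trace against an open chain of the entrywise power. -/
theorem trace_le_chain (p : Matrix n n ℝ) (hp : ∀ x y, 0 ≤ p x y) {m : ℕ} (hm : 1 ≤ m) :
    (p ^ (m + 1)).trace ≤
      ∑ x, ∑ y, ((Matrix.of fun x y => (p x y) ^ (1 + 1 / m : ℝ)) ^ m : Matrix n n ℝ) x y := by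
  rw [trace_eq_closed]
  have hm' : (0 : ℝ) < m + 1 := by positivity
  calc ∑ w : Fin (m + 1) → n, ∏ i : Fin (m + 1), p (w i) (w (i + 1))
      ≤ ∑ w : Fin (m + 1) → n, (∑ i0, ∏ i, if i = i0 then 1 else
          (p (w i) (w (i + 1))) ^ (1 + 1 / m : ℝ)) / (m + 1) :=
        Finset.sum_le_sum fun w _ => amgm_omit hm _ fun i => hp _ _
    _ = (∑ _i0 : Fin (m + 1),
          ∑ x, ∑ y, ((Matrix.of fun x y => (p x y) ^ (1 + 1 / m : ℝ)) ^ m : Matrix n n ℝ) x y) /
            (m + 1) := by
        rw [← Finset.sum_div, Finset.sum_comm]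
        congr 1
        refine Finset.sum_congr rfl fun i0 _ => ?_
        exact sum_omit (Matrix.of fun x y => (p x y) ^ (1 + 1 / m : ℝ)) m i0
    _ = _ := by
        rw [Finset.sum_const, Finset.card_univ, Fintype.card_fin, nsmul_eq_mul]
        push_cast
        field_simp

end walks

section chain

variable {n : Type*} [Fintype n] [DecidableEq n]

/-- The chain inequality for symmetric nonnegative matrices. -/
theorem chain (K : Matrix n n ℝ) (hK : ∀ x y, 0 ≤ K x y) (hs : ∀ x y, K x y = K y x)
    (hr : ∀ x, 0 < ∑ y, K x y) {q : ℕ} (hq : 1 ≤ q) :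
    ∑ x, ∑ y, (K ^ (q + 1)) x y ≤ ∑ x, (∑ y, K x y) ^ (q + 1) := by
  set r : n → ℝ := fun x => ∑ y, K x y with hrdef
  set w : ℕ → n → ℝ := fun i x => ∑ y, (K ^ i) x y with hw
  have hw0 : ∀ i x y, 0 ≤ (K ^ i) x y := by
    intro i
    induction i with
    | zero => intro x y; by_cases h : x = y <;> simp [h]
    | succ i ih =>
      intro x y
      rw [pow_succ', Matrix.mul_apply]
      exact Finset.sum_nonneg fun z _ => mul_nonneg (hK _ _) (ih _ _)
  have hwn : ∀ i x, 0 ≤ w i x := fun i x => Finset.sum_nonneg fun y _ => hw0 i x y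
  have hw1 : ∀ x, w 1 x = r x := by intro x; simp [hw, hrdef]
  have hws : ∀ i x, w (i + 1) x = ∑ y, K x y * w i y := by
    intro i x
    rw [hw]
    dsimp only
    simp only [pow_succ', Matrix.mul_apply]
    rw [Finset.sum_comm]
    exact Finset.sum_congr rfl fun z _ => by rw [Finset.mul_sum]
  have key : ∀ i : ℕ, 1 ≤ i → i ≤ q →
      ∑ x, r x * (w i x) ^ ((q : ℝ) / i) ≤ ∑ x, r x * (r x) ^ (q : ℝ) := by
    intro i hi
    induction i, hi using Nat.le_induction with
    | base =>
      intro _
      refine le_of_eq (Finset.sum_congr rfl fun x _ => ?_)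
      rw [hw1]; simp
    | succ i hi ih =>
      intro hiq
      have ih' := ih (by omega)
      have hi0 : (0 : ℝ) < i := by exact_mod_cast hi
      have hqi : (1 : ℝ) ≤ q / i := by
        rw [le_div_iff₀ hi0, one_mul]
        exact_mod_cast (by omega : i ≤ q)
      have hstep : ∀ x, r x * (w (i + 1) x) ^ ((q : ℝ) / (i + 1 : ℕ)) ≤
          (1 / (i + 1)) * (r x * (r x) ^ (q : ℝ)) +
            (i / (i + 1)) * ∑ y, K x y * (w i y) ^ ((q : ℝ) / i) := by
        intro x
        have hrx : 0 < r x := hr x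
        set m : ℝ := ∑ y, (K x y / r x) * w i y with hm
        have hm0 : 0 ≤ m := Finset.sum_nonneg fun y _ =>
          mul_nonneg (div_nonneg (hK _ _) hrx.le) (hwn _ _)
        have e1 : w (i + 1) x = r x * m := by
          rw [hws, hm, Finset.mul_sum]
          refine Finset.sum_congr rfl fun y _ => ?_
          field_simp
        have e2 : m ^ ((q : ℝ) / i) ≤ ∑ y, (K x y / r x) * (w i y) ^ ((q : ℝ) / i) := by
          refine Real.rpow_arith_mean_le_arith_mean_rpow univ (fun y => K x y / r x)
            (fun y => w i y) (fun y _ => div_nonneg (hK _ _) hrx.le) ?_ (fun y _ => hwn _ _) hqi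
          rw [← Finset.sum_div]
          exact div_self hrx.ne'
        have e3 : (r x * m) ^ ((q : ℝ) / (i + 1 : ℕ)) ≤
            (1 / (i + 1)) * (r x) ^ (q : ℝ) + (i / (i + 1)) * m ^ ((q : ℝ) / i) := by
          have h := Real.geom_mean_le_arith_mean2_weighted (w₁ := 1 / ((i : ℝ) + 1))
            (w₂ := (i : ℝ) / (i + 1)) (p₁ := (r x) ^ (q : ℝ)) (p₂ := m ^ ((q : ℝ) / i))
            (by positivity) (by positivity) (Real.rpow_nonneg hrx.le _) (Real.rpow_nonneg hm0 _)
            (by field_simp; ring)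
          refine le_trans (le_of_eq ?_) h
          rw [Real.mul_rpow hrx.le hm0, ← Real.rpow_mul hrx.le, ← Real.rpow_mul hm0]
          congr 2
          · push_cast; field_simp
          · push_cast; field_simp
        rw [e1]
        calc r x * (r x * m) ^ ((q : ℝ) / (i + 1 : ℕ))
            ≤ r x * ((1 / (i + 1)) * (r x) ^ (q : ℝ) + (i / (i + 1)) * m ^ ((q : ℝ) / i)) :=
              mul_le_mul_of_nonneg_left e3 hrx.le
          _ ≤ r x * ((1 / (i + 1)) * (r x) ^ (q : ℝ) + (i / (i + 1)) *
              ∑ y, (K x y / r x) * (w i y) ^ ((q : ℝ) / i)) := by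
              have : (0 : ℝ) ≤ i / (i + 1) := by positivity
              have := mul_le_mul_of_nonneg_left e2 this
              exact mul_le_mul_of_nonneg_left (by linarith) hrx.le
          _ = (1 / (i + 1)) * (r x * (r x) ^ (q : ℝ)) +
              (i / (i + 1)) * ∑ y, K x y * (w i y) ^ ((q : ℝ) / i) := by
              rw [mul_add]
              congr 1
              · ring
              · rw [← mul_assoc, mul_comm (r x), mul_assoc, Finset.mul_sum]
                congr 1
                refine Finset.sum_congr rfl fun y _ => ?_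
                field_simp
      calc ∑ x, r x * (w (i + 1) x) ^ ((q : ℝ) / (i + 1 : ℕ))
          ≤ ∑ x, ((1 / (i + 1)) * (r x * (r x) ^ (q : ℝ)) +
            (i / (i + 1)) * ∑ y, K x y * (w i y) ^ ((q : ℝ) / i)) :=
            Finset.sum_le_sum fun x _ => hstep x
        _ = (1 / (i + 1)) * ∑ x, (r x * (r x) ^ (q : ℝ)) +
            (i / (i + 1)) * ∑ y, r y * (w i y) ^ ((q : ℝ) / i) := by
            rw [Finset.sum_add_distrib, ← Finset.mul_sum, ← Finset.mul_sum]
            congr 2
            rw [Finset.sum_comm]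
            refine Finset.sum_congr rfl fun y _ => ?_
            rw [← Finset.sum_mul]
            congr 1
            exact Finset.sum_congr rfl fun x _ => hs x y
        _ ≤ (1 / (i + 1)) * ∑ x, (r x * (r x) ^ (q : ℝ)) +
            (i / (i + 1)) * ∑ x, (r x * (r x) ^ (q : ℝ)) := by
            have : (0 : ℝ) ≤ i / (i + 1) := by positivity
            have := mul_le_mul_of_nonneg_left ih' this
            linarith
        _ = ∑ x, r x * (r x) ^ (q : ℝ) := by
            rw [← add_mul]
            have : (1 / ((i : ℝ) + 1) + i / (i + 1)) = 1 := by field_simp; ring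
            rw [this, one_mul]
  have h1 := key q hq le_rfl
  have hq0 : (q : ℝ) ≠ 0 := by
    have : (0 : ℝ) < q := by exact_mod_cast hq
    exact this.ne'
  rw [div_self hq0] at h1
  simp only [Real.rpow_one, Real.rpow_natCast] at h1
  calc ∑ x, ∑ y, (K ^ (q + 1)) x y = ∑ x, w (q + 1) x := rfl
    _ = ∑ y, r y * w q y := by
        simp only [hws]
        rw [Finset.sum_comm]
        refine Finset.sum_congr rfl fun y _ => ?_
        rw [← Finset.sum_mul]
        congr 1
        exact Finset.sum_congr rfl fun x _ => hs x y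
    _ ≤ ∑ x, r x * r x ^ q := h1
    _ = ∑ x, (r x) ^ (q + 1) := Finset.sum_congr rfl fun x _ => by rw [pow_succ']

end chain

end Vale.Agent.ThorpO
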