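import Mathlib

/-!
# P162, `t_mix (2 ^ d) = O(d)`: the flat model

Positions are bit strings `z : Fin d → Bool`. Level `r < d` flips bit `r`. The Benes network
`net ωi ωo r` uses the levels `0, …, r - 1`: `net (r + 1) = out_r * net r * in_r`.
-/

namespace Vale.Agent.ThorpO

open Equiv Finset

/-- Positions: bit strings of length `d`. -/
abbrev Pos (d : ℕ) := Fin d → Bool

/-- Bit number `r` (`false` if `r ≥ d`). -/
def bit {d : ℕ} (z : Pos d) (r : ℕ) : Bool := if h : r < d then z ⟨r, h⟩ else false

/-- Flip bit number `r` (identity if `r ≥ d`). -/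
def fl {d : ℕ} (r : ℕ) (z : Pos d) : Pos d := fun i => if i.val = r then !z i else z i

/-- Set bit number `r` to `false`: this is the name of the switch of level `r` used by `z`. -/
def clr {d : ℕ} (r : ℕ) (z : Pos d) : Pos d := fun i => if i.val = r then false else z i

/-- Coins: one coin for every level and every position (only the positions with
`bit z r = false` are used at the level `r`). -/
abbrev Coins (d : ℕ) := Fin d × Pos d → Bool

/-- The coin of level `r` at the switch `z`. -/
def coin {d : ℕ} (ω : Coins d) (r : ℕ) (z : Pos d) : Bool :=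
  if h : r < d then ω (⟨r, h⟩, z) else false

theorem fl_fl {d : ℕ} (r : ℕ) (z : Pos d) : fl r (fl r z) = z := by
  funext i
  by_cases h : i.val = r <;> simp [fl, h]

theorem clr_fl {d : ℕ} (r : ℕ) (z : Pos d) : clr r (fl r z) = clr r z := by
  funext i
  by_cases h : i.val = r <;> simp [fl, clr, h]

/-- Layer of level `r` as a function. -/
def layF {d : ℕ} (r : ℕ) (ω : Coins d) (z : Pos d) : Pos d :=
  if coin ω r (clr r z) then fl r z else z

theorem layF_layF {d : ℕ} (r : ℕ) (ω : Coins d) (z : Pos d) : layF r ω (layF r ω z) = z := by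
  unfold layF
  by_cases h : coin ω r (clr r z) = true
  · rw [if_pos h, clr_fl, if_pos h, fl_fl]
  · rw [if_neg h, if_neg h]

/-- Layer of level `r`: flips bit `r` of `z` if the coin of the switch of `z` is `true`. -/
def lay {d : ℕ} (r : ℕ) (ω : Coins d) : Perm (Pos d) where
  toFun := layF r ω
  invFun := layF r ω
  left_inv := layF_layF r ω
  right_inv := layF_layF r ω

/-- Flip of bit `r` as a permutation. -/
def flP (d r : ℕ) : Perm (Pos d) where
  toFun := fl r
  invFun := fl r
  left_inv := fl_fl r
  right_inv := fl_fl r

/-- The Benes network on the bits `0, …, r - 1` (`ωi`: coins of the input layers, `ωo`: coins of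
the output layers). -/
def net {d : ℕ} (ωi ωo : Coins d) : ℕ → Perm (Pos d)
  | 0 => 1
  | r + 1 => lay r ωo * net ωi ωo r * lay r ωi

/-- `b` consecutive output layers, of the levels `l, l + 1, …, l + b - 1` (level `l` acts first). -/
def win {d : ℕ} (ω : Coins d) (l : ℕ) : ℕ → Perm (Pos d)
  | 0 => 1
  | b + 1 => lay (l + b) ω * win ω l b

/-- `s` consecutive input layers, of the levels `r + s - 1, …, r` (level `r` acts last). -/
def inP {d : ℕ} (ω : Coins d) (r : ℕ) : ℕ → Perm (Pos d)
  | 0 => 1
  | s + 1 => inP ω r s * lay (r + s) ω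

/-- The permutation whose cycles inside the doubly occupied switches are the closed classes. -/
def HH {d : ℕ} (ωi ωo : Coins d) (r : ℕ) : Perm (Pos d) :=
  flP d r * (net ωi ωo r)⁻¹ * flP d r * net ωi ωo r

section orbits

variable {α : Type*} [Fintype α] [DecidableEq α]

open Classical in
/-- Orbit of `z` under iteration of `f`. -/
noncomputable def orb (f : α → α) (z : α) : Finset α := univ.filter fun w => ∃ n : ℕ, f^[n] z = w

open Classical in
/-- Number of orbits of `f` which are contained in `D`. -/
noncomputable def orbs (f : α → α) (D : Finset α) : ℕ :=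
  ((D.filter fun z => orb f z ⊆ D).image (orb f)).card

end orbits

/-- Doubly occupied switches of level `r`, for the set `O` of occupied positions, represented by
their position with `bit z r = false`. -/
def DD {d : ℕ} (r : ℕ) (O : Finset (Pos d)) : Finset (Pos d) :=
  O.filter fun z => bit z r = false ∧ fl r z ∈ O

/-- Total number of closed classes, at the levels `0, …, r - 1`, for the set `O` of positions
occupied at the entrance of `net r`. -/
noncomputable def YY {d : ℕ} (ωi ωo : Coins d) : ℕ → Finset (Pos d) → ℕ
  | 0, _ => 0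
  | r + 1, O => orbs (HH ωi ωo r) (DD r O) + YY ωi ωo r (O.image (lay r ωi))

/-- Average over all coins. -/
noncomputable def av {d : ℕ} (F : Coins d → ℝ) : ℝ := (∑ ω, F ω) / Fintype.card (Coins d)

/-- Transition probabilities of `k` cards through the Benes network on the bits `0, …, r - 1`. -/
noncomputable def benes (d k r : ℕ) : Matrix (Fin k ↪ Pos d) (Fin k ↪ Pos d) ℝ := fun x y =>
  av fun ωi : Coins d => av fun ωo : Coins d => if ∀ c, net ωi ωo r (x c) = y c then 1 else 0

/-- Transition probabilities of `k` cards through one layer. -/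
noncomputable def layM (d k r : ℕ) : Matrix (Fin k ↪ Pos d) (Fin k ↪ Pos d) ℝ := fun x y =>
  av fun ω : Coins d => if ∀ c, lay r ω (x c) = y c then 1 else 0

/-- Transition probabilities of `k` cards through the layers `r - 1, …, 0` (level `0` acts last;
the row index is the start). -/
noncomputable def passM (d k : ℕ) : ℕ → Matrix (Fin k ↪ Pos d) (Fin k ↪ Pos d) ℝ
  | 0 => 1
  | r + 1 => layM d k r * passM d k r

/-- Extension by `0` to all tuples. -/
noncomputable def ext0 {X : Type*} [Fintype X] [DecidableEq X] {j : ℕ} (f : (Fin j ↪ X) → ℝ)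
    (z : Fin j → X) : ℝ :=
  if h : Function.Injective z then f ⟨z, h⟩ else 0

/-- `f` is pure: its sums over one coordinate vanish. -/
def Pure {X : Type*} [Fintype X] [DecidableEq X] {j : ℕ} (f : (Fin j ↪ X) → ℝ) : Prop :=
  ∀ (z : Fin j → X) (e : Fin j), ∑ w, ext0 f (Function.update z e w) = 0

end Vale.Agent.ThorpO
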