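import Vale.Agent.ThorpO.Rep

/-!
# P162: the indicator functions `FF j (x, y)` in the regular representation
-/

open scoped InnerProductSpace
open Equiv Finset

namespace Vale.Agent.ThorpO

open Thorp Thorp.PD

section FFs

variable {X : Type} [Fintype X] [DecidableEq X] {j : ℕ}

/-- The image of the injection `y` under the permutation `g`. -/
def mv (g : Perm X) (y : Fin j ↪ X) : Fin j ↪ X := y.trans g.toEmbedding

omit [Fintype X] [DecidableEq X] in
theorem mv_apply (g : Perm X) (y : Fin j ↪ X) (i : Fin j) : mv g y i = g (y i) := rfl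

omit [Fintype X] [DecidableEq X] in
theorem mv_mul (g h : Perm X) (y : Fin j ↪ X) : mv (g * h) y = mv g (mv h y) := rfl

omit [Fintype X] [DecidableEq X] in
theorem mv_one (y : Fin j ↪ X) : mv (1 : Perm X) y = y := by
  ext i; rfl

omit [Fintype X] [DecidableEq X] in
theorem mv_inv_mv (g : Perm X) (y : Fin j ↪ X) : mv g⁻¹ (mv g y) = y := by
  rw [← mv_mul, inv_mul_cancel, mv_one]

omit [Fintype X] [DecidableEq X] in
theorem mv_mv_inv (g : Perm X) (y : Fin j ↪ X) : mv g (mv g⁻¹ y) = y := by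
  rw [← mv_mul, mul_inv_cancel, mv_one]

/-- `mv g` as a bijection. -/
def mvE (g : Perm X) : (Fin j ↪ X) ≃ (Fin j ↪ X) where
  toFun := mv g
  invFun := mv g⁻¹
  left_inv := mv_inv_mv g
  right_inv := mv_mv_inv g

/-- The indicator function of `{σ | σ ∘ y = x}` for injective `x` and `y`. -/
noncomputable def G (x y : Fin j ↪ X) : EuclideanSpace ℝ (Perm X) := FF j (⇑x, ⇑y)

omit [Fintype X] in
theorem G_apply (x y : Fin j ↪ X) (σ : Perm X) : G x y σ = if mv σ y = x then 1 else 0 := by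
  unfold G
  rw [FF_apply]
  refine if_congr ⟨fun h => ?_, fun h => ?_⟩ rfl rfl
  · ext i; exact h i
  · intro i; rw [← h]; rfl

theorem G_mem (x y : Fin j ↪ X) : G x y ∈ W X j := FF_mem _ _

/-- Number of permutations which move `y` to `x`. -/
noncomputable def cc (x y : Fin j ↪ X) : ℕ := (univ.filter fun σ : Perm X => mv σ y = x).card

omit [Fintype X] [DecidableEq X] in
/-- Extension of an injection to a permutation. -/
theorem exists_perm (x y : Fin j ↪ X) : ∃ g : Perm X, mv g y = x := by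
  classical
  obtain ⟨g, hg⟩ := Equiv.Perm.exists_extending_pair y x y.injective x.injective
  exact ⟨g, by ext i; exact hg i⟩

theorem cc_congr (x x' y : Fin j ↪ X) : cc x y = cc x' y := by
  obtain ⟨g, hg⟩ := exists_perm x' x
  unfold cc
  refine Finset.card_bij' (fun σ _ => g * σ) (fun σ _ => g⁻¹ * σ) ?_ ?_ ?_ ?_
  · intro σ hσ
    rw [Finset.mem_filter] at hσ ⊢
    exact ⟨Finset.mem_univ _, by rw [mv_mul, hσ.2, hg]⟩
  · intro σ hσ
    rw [Finset.mem_filter] at hσ ⊢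
    exact ⟨Finset.mem_univ _, by rw [mv_mul, hσ.2, ← hg, mv_inv_mv]⟩
  · intro σ _; group
  · intro σ _; group

omit [DecidableEq X] in
theorem le_card (y : Fin j ↪ X) : j ≤ Fintype.card X := by
  have := Fintype.card_le_of_embedding y
  simpa using this

theorem cc_eq (x y : Fin j ↪ X) : cc x y = (Fintype.card X - j).factorial := by
  have h1 : ∑ x' : Fin j ↪ X, cc x' y = (Fintype.card X).factorial := by
    unfold cc
    rw [← Finset.card_eq_sum_card_fiberwise (f := fun σ : Perm X => mv σ y)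
      (fun σ _ => Finset.mem_univ _), Finset.card_univ, Fintype.card_perm]
  have h2 : ∑ x' : Fin j ↪ X, cc x' y = (Fintype.card X).descFactorial j * cc x y := by
    rw [Finset.sum_congr rfl fun x' _ => cc_congr x' x y, Finset.sum_const, Finset.card_univ,
      Fintype.card_embedding_eq, Fintype.card_fin, smul_eq_mul]
  have h3 := Nat.factorial_mul_descFactorial (le_card y)
  have h4 : 0 < (Fintype.card X).descFactorial j := Nat.descFactorial_pos.2 (le_card y)
  rw [h2] at h1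
  rw [← h1, mul_comm] at h3
  exact (Nat.eq_of_mul_eq_mul_left h4 h3).symm

/-- `(n - j)!` -/
noncomputable def fc (X : Type) [Fintype X] (j : ℕ) : ℝ := ((Fintype.card X - j).factorial : ℝ)

omit [DecidableEq X] in
theorem fc_pos : 0 < fc X j := by
  unfold fc
  exact_mod_cast Nat.factorial_pos _

theorem inner_G_G (x x' y : Fin j ↪ X) : ⟪G x y, G x' y⟫_ℝ = if x = x' then fc X j else 0 := by
  rw [PiLp.inner_apply]
  have h1 : ∀ σ : Perm X, ⟪G x y σ, G x' y σ⟫_ℝ =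
      if x = x' then (if mv σ y = x then 1 else 0) else 0 := by
    intro σ
    show G x' y σ * G x y σ = _
    rw [G_apply, G_apply]
    by_cases h : mv σ y = x
    · rw [h, if_pos rfl, mul_one]
    · rw [if_neg h, mul_zero]
      simp
  rw [Finset.sum_congr rfl fun σ _ => h1 σ]
  by_cases hx : x = x'
  · simp only [if_pos hx]
    rw [Finset.sum_boole, fc, ← cc_eq x y]
    rfl
  · simp only [if_neg hx]
    simp

theorem inner_G_sum (x y : Fin j ↪ X) (a : (Fin j ↪ X) → ℝ) :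
    ⟪G x y, ∑ x', a x' • G x' y⟫_ℝ = fc X j * a x := by
  rw [inner_sum, Finset.sum_eq_single x]
  · rw [real_inner_smul_right, inner_G_G, if_pos rfl, mul_comm]
  · intro x' _ hx'
    rw [real_inner_smul_right, inner_G_G, if_neg (Ne.symm hx'), mul_zero]
  · intro h; exact absurd (Finset.mem_univ _) h

theorem norm_sum_G (y : Fin j ↪ X) (a : (Fin j ↪ X) → ℝ) :
    ‖∑ x, a x • G x y‖ ^ 2 = fc X j * ∑ x, a x ^ 2 := by
  rw [← real_inner_self_eq_norm_sq, sum_inner, Finset.mul_sum]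
  refine Finset.sum_congr rfl fun x _ => ?_
  rw [real_inner_smul_left, inner_G_sum]
  ring

theorem reg_G (g : Perm X) (x y : Fin j ↪ X) : reg X g (G x y) = G (mv g x) y := by
  unfold G
  rw [reg_FF]
  rfl

theorem rt_G (h : Perm X) (x y : Fin j ↪ X) : rt h (G x y) = G x (mv h⁻¹ y) := by
  unfold G
  rw [rt_FF]
  rfl

/-- If two coordinates of `y` agree then `FF` vanishes or is on the level below. -/
theorem FF_lower {j : ℕ} (p : (Fin (j + 1) → X) × (Fin (j + 1) → X))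
    (hy : ¬ Function.Injective p.2) : FF (j + 1) p ∈ W X j := by
  rw [Function.Injective] at hy
  push Not at hy
  obtain ⟨a, b, hab, hne⟩ := hy
  obtain ⟨i, hi⟩ := Fin.exists_succAbove_eq (Ne.symm hne)
  by_cases hp : p.1 a = p.1 b
  · have h1 : FF (j + 1) p = FF j (fun k => p.1 (a.succAbove k), fun k => p.2 (a.succAbove k)) := by
      ext σ
      rw [FF_apply, FF_apply]
      refine if_congr ⟨fun h k => h _, fun h k => ?_⟩ rfl rfl
      by_cases hk : k = a
      · have h2 := h i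
        simp only [hi] at h2
        rw [hk, hab, h2, hp]
      · obtain ⟨k', hk'⟩ := Fin.exists_succAbove_eq hk
        have h2 := h k'
        simp only [hk'] at h2
        exact h2
    rw [h1]
    exact FF_mem _ _
  · have h1 : FF (j + 1) p = 0 := by
      ext σ
      rw [FF_apply, if_neg]
      · rfl
      · intro h
        exact hp (by rw [← h a, ← h b, hab])
    rw [h1]
    exact Submodule.zero_mem _

omit [Fintype X] in
theorem FF_zero_of_not_inj (p : (Fin j → X) × (Fin j → X)) (hx : ¬ Function.Injective p.1)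
    (hy : Function.Injective p.2) : FF j p = 0 := by
  ext σ
  rw [FF_apply, if_neg]
  · rfl
  · intro h
    apply hx
    have h1 : p.1 = σ ∘ p.2 := by funext i; exact (h i).symm
    rw [h1]
    exact σ.injective.comp hy

theorem exists_G_ne {v : EuclideanSpace ℝ (Perm X)} (hj : 1 ≤ j) (hv : v ∈ W X j)
    (hv' : v ∈ (W X (j - 1))ᗮ) (hv0 : v ≠ 0) : ∃ x y : Fin j ↪ X, ⟪G x y, v⟫_ℝ ≠ 0 := by
  by_contra hc
  push Not at hc
  apply hv0
  have h1 : W X j ≤ (ℝ ∙ v)ᗮ := by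
    refine Submodule.span_le.2 ?_
    rintro _ ⟨p, rfl⟩
    rw [SetLike.mem_coe, Submodule.mem_orthogonal_singleton_iff_inner_left]
    by_cases hy : Function.Injective p.2
    · by_cases hx : Function.Injective p.1
      · exact hc ⟨p.1, hx⟩ ⟨p.2, hy⟩
      · rw [FF_zero_of_not_inj p hx hy, inner_zero_left]
    · obtain ⟨i, rfl⟩ : ∃ i, j = i + 1 := ⟨j - 1, by omega⟩
      exact (Submodule.mem_orthogonal _ _).1 hv' _ (FF_lower p hy)
  have h2 := h1 hv
  rw [Submodule.mem_orthogonal_singleton_iff_inner_left, inner_self_eq_zero] at h2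
  exact h2

end FFs

/-! ### Invariant subspaces and projections -/

section Inv

variable {V : Type*} [NormedAddCommGroup V] [InnerProductSpace ℝ V] [FiniteDimensional ℝ V]

/-- A projection commutes with an operator which preserves the subspace and its orthogonal
complement. -/
theorem proj_comm (N : Submodule ℝ V) (T : V →L[ℝ] V) (h1 : ∀ v ∈ N, T v ∈ N)
    (h2 : ∀ v ∈ Nᗮ, T v ∈ Nᗮ) (v : V) : N.starProjection (T v) = T (N.starProjection v) := by
  refine Submodule.eq_starProjection_of_mem_orthogonal (h1 _ (Submodule.starProjection_apply_mem _ _)) ?_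
  rw [← map_sub]
  exact h2 _ (Submodule.sub_starProjection_mem_orthogonal _)

theorem norm_proj_le (N : Submodule ℝ V) (v : V) : ‖N.starProjection v‖ ≤ ‖v‖ :=
  N.norm_starProjection_apply_le v

/-- Lower bound of a symmetric operator on an invariant subspace by its eigenvalues. -/
theorem eig_lower (T : V →L[ℝ] V) (hT : ∀ v w, ⟪T v, w⟫_ℝ = ⟪v, T w⟫_ℝ) (N : Submodule ℝ V)
    (hN : ∀ v ∈ N, T v ∈ N) (hT0 : ∀ v, 0 ≤ ⟪v, T v⟫_ℝ) (c : ℝ)
    (h : ∀ v ∈ N, v ≠ 0 → ∀ K : ℝ, T v = K • v → c ≤ K) {v : V} (hv : v ∈ N) :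
    c * ‖v‖ ^ 2 ≤ ⟪v, T v⟫_ℝ := by
  by_cases hv0 : v = 0
  · rw [hv0, norm_zero, inner_zero_left]; simp
  have hnt : Nontrivial N := ⟨⟨⟨v, hv⟩, 0, fun h => hv0 (congrArg Subtype.val h)⟩⟩
  set S : N →ₗ[ℝ] N := T.toLinearMap.restrict hN with hS
  have hsym0 : T.toLinearMap.IsSymmetric := fun x y => hT x y
  have hsym : S.IsSymmetric := hsym0.restrict_invariant hN
  have hK := hsym.hasEigenvalue_iInf_of_finiteDimensional
  set K : ℝ := ⨅ x : {x : N // x ≠ 0}, RCLike.re ⟪S x, (x : N)⟫_ℝ / ‖(x : N)‖ ^ 2 with hKdef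
  have hKle : K * ‖v‖ ^ 2 ≤ ⟪v, T v⟫_ℝ := by
    have hbdd : BddBelow (Set.range fun x : {x : N // x ≠ 0} =>
        RCLike.re ⟪S x, (x : N)⟫_ℝ / ‖(x : N)‖ ^ 2) := by
      refine ⟨0, ?_⟩
      rintro _ ⟨x, rfl⟩
      refine div_nonneg ?_ (sq_nonneg _)
      show 0 ≤ ⟪T ((x : N) : V), ((x : N) : V)⟫_ℝ
      rw [hT]
      exact hT0 _
    have hvn : (⟨v, hv⟩ : N) ≠ 0 := fun h => hv0 (congrArg Subtype.val h)
    have h1 : K ≤ RCLike.re ⟪S ⟨v, hv⟩, (⟨v, hv⟩ : N)⟫_ℝ / ‖(⟨v, hv⟩ : N)‖ ^ 2 :=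
      ciInf_le hbdd ⟨⟨v, hv⟩, hvn⟩
    have h2 : RCLike.re ⟪S ⟨v, hv⟩, (⟨v, hv⟩ : N)⟫_ℝ = ⟪v, T v⟫_ℝ := hT v v
    have h3 : ‖(⟨v, hv⟩ : N)‖ = ‖v‖ := rfl
    have h4 : 0 < ‖v‖ := norm_pos_iff.2 hv0
    rw [h2, h3, le_div_iff₀ (by positivity)] at h1
    exact h1
  refine le_trans (mul_le_mul_of_nonneg_right ?_ (sq_nonneg _)) hKle
  obtain ⟨v0, hv0e⟩ := hK.exists_hasEigenvector
  have hv0ne : (v0 : V) ≠ 0 := fun h => hv0e.2 (Subtype.ext h)
  have hv0K : T (v0 : V) = K • (v0 : V) := by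
    have h1 := hv0e.apply_eq_smul
    exact congrArg (Subtype.val : N → V) h1
  exact h _ v0.2 hv0ne K hv0K

/-- Largest eigenvalue of a symmetric operator on an invariant subspace. -/
theorem eig_upper (T : V →L[ℝ] V) (hT : ∀ v w, ⟪T v, w⟫_ℝ = ⟪v, T w⟫_ℝ) (N : Submodule ℝ V)
    (hN : ∀ v ∈ N, T v ∈ N) (hne : ∃ v ∈ N, v ≠ 0) :
    ∃ (s : ℝ) (v : V), v ∈ N ∧ v ≠ 0 ∧ T v = s • v ∧ ∀ w ∈ N, ⟪w, T w⟫_ℝ ≤ s * ‖w‖ ^ 2 := by
  obtain ⟨u, hu, hu0⟩ := hne
  have hnt : Nontrivial N := ⟨⟨⟨u, hu⟩, 0, fun h => hu0 (congrArg Subtype.val h)⟩⟩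
  set S : N →ₗ[ℝ] N := T.toLinearMap.restrict hN with hS
  have hsym0 : T.toLinearMap.IsSymmetric := fun x y => hT x y
  have hsym : S.IsSymmetric := hsym0.restrict_invariant hN
  have hK := hsym.hasEigenvalue_iSup_of_finiteDimensional
  set K : ℝ := ⨆ x : {x : N // x ≠ 0}, RCLike.re ⟪S x, (x : N)⟫_ℝ / ‖(x : N)‖ ^ 2 with hKdef
  obtain ⟨v0, hv0e⟩ := hK.exists_hasEigenvector
  refine ⟨K, v0, v0.2, fun h => hv0e.2 (Subtype.ext h), ?_, ?_⟩
  · have h1 := hv0e.apply_eq_smul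
    exact congrArg (Subtype.val : N → V) h1
  · intro w hw
    by_cases hw0 : w = 0
    · rw [hw0, norm_zero, inner_zero_left]; simp
    have hbdd : BddAbove (Set.range fun x : {x : N // x ≠ 0} =>
        RCLike.re ⟪S x, (x : N)⟫_ℝ / ‖(x : N)‖ ^ 2) := by
      refine ⟨‖T‖, ?_⟩
      rintro _ ⟨x, rfl⟩
      have hx : (0 : ℝ) < ‖((x : N) : V)‖ := norm_pos_iff.2 fun h => x.2 (Subtype.ext h)
      show ⟪T ((x : N) : V), ((x : N) : V)⟫_ℝ / ‖((x : N) : V)‖ ^ 2 ≤ ‖T‖
      rw [div_le_iff₀ (by positivity)]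
      refine (real_inner_le_norm _ _).trans ?_
      have := T.le_opNorm ((x : N) : V)
      nlinarith
    have hwn : (⟨w, hw⟩ : N) ≠ 0 := fun h => hw0 (congrArg Subtype.val h)
    have h1 : RCLike.re ⟪S ⟨w, hw⟩, (⟨w, hw⟩ : N)⟫_ℝ / ‖(⟨w, hw⟩ : N)‖ ^ 2 ≤ K :=
      le_ciSup hbdd ⟨⟨w, hw⟩, hwn⟩
    have h2 : RCLike.re ⟪S ⟨w, hw⟩, (⟨w, hw⟩ : N)⟫_ℝ = ⟪w, T w⟫_ℝ := hT w w
    have h3 : ‖(⟨w, hw⟩ : N)‖ = ‖w‖ := rfl
    have h4 : 0 < ‖w‖ := norm_pos_iff.2 hw0
    rw [h2, h3, div_le_iff₀ (by positivity)] at h1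
    exact h1

end Inv

end Vale.Agent.ThorpO
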