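import Vale.Agent.ThorpO.Rep

/-!
# P162: conversion between Thorp shuffles, passes over the cube and the flat model
-/

open scoped InnerProductSpace
open Equiv Finset

namespace Vale.Agent.ThorpO

namespace Fl

/-- Reversal of the bits. -/
def rv (m : ℕ) : Pos m ≃ Pos m where
  toFun f := fun i => f (Fin.rev i)
  invFun f := fun i => f (Fin.rev i)
  left_inv f := by funext i; simp
  right_inv f := by funext i; simp

/-- The cube as bit strings, with the first coordinate as the last bit. -/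
def e0 (m : ℕ) : Thorp.Cube m ≃ Pos m := (Thorp.cubeEquiv m).trans (rv m)

theorem e0_conj {m j : ℕ} (hj : j < m) (z : Pos m) :
    e0 m (Thorp.flC m j ((e0 m).symm z)) = fl (m - 1 - j) z := by
  unfold e0 Thorp.flC
  simp only [Equiv.symm_trans_apply, Equiv.trans_apply, Equiv.apply_symm_apply]
  funext i
  simp only [rv, Equiv.coe_fn_mk, Equiv.coe_fn_symm_mk, Thorp.fl, fl, Fin.rev_rev, Fin.val_rev]
  have h : (m - (i.val + 1) = j) ↔ (i.val = m - 1 - j) := by
    have := i.isLt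
    omega
  by_cases h1 : i.val = m - 1 - j
  · rw [if_pos h1, if_pos (h.2 h1)]
  · rw [if_neg h1, if_neg fun h' => h1 (h.1 h')]

variable {V : Type*} [NormedAddCommGroup V] [InnerProductSpace ℝ V]

theorem prodM_rev {m : ℕ} (ρ : Perm (Pos m) →* (V →L[ℝ] V)) (k : ℕ) :
    Thorp.prodM ρ (fun j => (fl (k - 1 - j) : Pos m → Pos m)) k = passR ρ k := by
  induction k with
  | zero => rfl
  | succ k ih =>
    rw [Thorp.prodM_succ', passR, ← ih]
    have h : ∀ j, k + 1 - 1 - (j + 1) = k - 1 - j := by intro j; omega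
    simp only [h]
    rfl

theorem pass_eq (m : ℕ) (ρ : Perm (Pos m) →* (V →L[ℝ] V)) :
    Thorp.pass m (ρ.comp (e0 m).permCongrHom.toMonoidHom) = passR ρ m := by
  rw [Thorp.pass_eq_prodM, ← prodM_rev]
  have h : ∀ k ≤ m, Thorp.prodM (ρ.comp (e0 m).permCongrHom.toMonoidHom) (Thorp.flC m) k =
      Thorp.prodM ρ (fun j => (fl (m - 1 - j) : Pos m → Pos m)) k := by
    intro k
    induction k with
    | zero => intro _; rfl
    | succ k ih =>
      intro hk
      rw [Thorp.prodM, Thorp.prodM, ih (by omega), Thorp.mat_conj]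
      congr 2
      funext z
      exact e0_conj (by omega) z
  exact h m le_rfl

section transport

variable {X Y : Type} [Fintype X] [DecidableEq X] [Fintype Y] [DecidableEq Y]

/-- Transport of functions on the symmetric group. -/
noncomputable def UU (e : X ≃ Y) :
    EuclideanSpace ℝ (Perm X) ≃ₗᵢ[ℝ] EuclideanSpace ℝ (Perm Y) :=
  LinearIsometryEquiv.piLpCongrLeft 2 ℝ ℝ e.permCongr

theorem UU_apply (e : X ≃ Y) (f : EuclideanSpace ℝ (Perm X)) (σ : Perm Y) :
    UU e f σ = f (e.permCongr.symm σ) := by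
  simp [UU, LinearIsometryEquiv.piLpCongrLeft_apply, Equiv.piCongrLeft'_apply]

theorem UU_reg (e : X ≃ Y) (g : Perm X) (f : EuclideanSpace ℝ (Perm X)) :
    UU e (Thorp.reg X g f) = Thorp.reg Y (e.permCongr g) (UU e f) := by
  ext σ
  rw [UU_apply, Thorp.reg_apply, Thorp.reg_apply, UU_apply]
  have h : g⁻¹ * e.permCongr.symm σ = e.permCongr.symm ((e.permCongr g)⁻¹ * σ) := by
    ext x
    have h1 : (e.permCongr g)⁻¹ = e.permCongr g⁻¹ := by
      ext y
      rfl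
    rw [h1]
    simp [Equiv.permCongr_apply, Perm.mul_apply]
  rw [h]

theorem UU_dlt (e : X ≃ Y) : UU e (Thorp.dlt X) = Thorp.dlt Y := by
  refine PiLp.ext fun σ => ?_
  rw [UU_apply]
  show (if e.permCongr.symm σ = 1 then (1 : ℝ) else 0) - ((Fintype.card X).factorial : ℝ)⁻¹ =
    (if σ = 1 then 1 else 0) - ((Fintype.card Y).factorial : ℝ)⁻¹
  rw [Fintype.card_congr e]
  have h : e.permCongr.symm σ = 1 ↔ σ = 1 := by
    rw [Equiv.symm_apply_eq]
    have : e.permCongr 1 = 1 := by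
      ext x; simp [Equiv.permCongr_apply]
    rw [this]
  by_cases h1 : σ = 1
  · rw [if_pos h1, if_pos (h.2 h1)]
  · rw [if_neg h1, if_neg fun h' => h1 (h.1 h')]

theorem UU_mat (e : X ≃ Y) (τ : X → X) (f : EuclideanSpace ℝ (Perm X)) :
    UU e (Thorp.mat (Thorp.reg X) τ f) =
      Thorp.mat ((Thorp.reg Y).comp e.permCongrHom.toMonoidHom) τ (UU e f) := by
  have h1 : ∀ (Z : Type) [Fintype Z] [DecidableEq Z] (ρ : Perm X →*
      (EuclideanSpace ℝ (Perm Z) →L[ℝ] EuclideanSpace ℝ (Perm Z)))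
      (v : EuclideanSpace ℝ (Perm Z)), Thorp.mat ρ τ v =
      ((Thorp.GT τ).card : ℝ)⁻¹ • ∑ g ∈ Thorp.GT τ, ρ g v := by
    intro Z _ _ ρ v
    unfold Thorp.mat
    simp
  rw [h1, h1, map_smul, map_sum]
  congr 1
  refine Finset.sum_congr rfl fun g _ => ?_
  rw [UU_reg]
  rfl

end transport

theorem UU_passR {m : ℕ} {Y : Type} [Fintype Y] [DecidableEq Y] (e : Pos m ≃ Y) (r : ℕ)
    (f : EuclideanSpace ℝ (Perm (Pos m))) :
    UU e (passR (Thorp.reg (Pos m)) r f) =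
      passR ((Thorp.reg Y).comp e.permCongrHom.toMonoidHom) r (UU e f) := by
  induction r generalizing f with
  | zero => rfl
  | succ r ih =>
    rw [passR, passR]
    show UU e (passR (Thorp.reg (Pos m)) r (Thorp.mat (Thorp.reg (Pos m)) (fl r) f)) =
      passR ((Thorp.reg Y).comp e.permCongrHom.toMonoidHom) r
        (Thorp.mat ((Thorp.reg Y).comp e.permCongrHom.toMonoidHom) (fl r) (UU e f))
    rw [ih, UU_mat]

end Fl

open Fl

/-- A1: `T` passes are `(d + 1) T` shuffles. -/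
theorem flat_norm (d T t : ℕ) (h : (d + 1) * T ≤ t) :
    ‖((Thorp.avgOf (Thorp.reg (Fin (2 * 2 ^ d))) (Thorp.shuf (2 ^ d))) ^ t)
      (Thorp.dlt (Fin (2 * 2 ^ d)))‖ ≤ ‖((PP (d + 1)) ^ T) (Thorp.dlt (Pos (d + 1)))‖ := by
  obtain ⟨e, he⟩ := Thorp.thorp_pass d
  have he' := he _ (Thorp.reg (Fin (2 * 2 ^ d)))
  set A := Thorp.avgOf (Thorp.reg (Fin (2 * 2 ^ d))) (Thorp.shuf (2 ^ d)) with hA
  set e1 : Pos (d + 1) ≃ Fin (2 * 2 ^ d) := (e0 (d + 1)).symm.trans e with he1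
  set Q := passR ((Thorp.reg (Fin (2 * 2 ^ d))).comp e1.permCongrHom.toMonoidHom) (d + 1) with hQ
  have h1 : A ^ (d + 1) = Q := by
    rw [he', hQ, ← pass_eq]
    congr 1
    ext g : 1
    simp only [MonoidHom.comp_apply]
    congr 1
    show e.permCongr g = e1.permCongr ((e0 (d + 1)).permCongr g)
    ext x
    simp [he1, Equiv.permCongr_apply]
  have h2 : ∀ v, ‖A v‖ ≤ ‖v‖ := fun v => Thorp.norm_avgOf_le (Thorp.reg_orth _) _ v
  have h3 : ‖(A ^ t) (Thorp.dlt (Fin (2 * 2 ^ d)))‖ ≤ ‖(Q ^ T) (Thorp.dlt (Fin (2 * 2 ^ d)))‖ := by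
    rw [← h1, ← pow_mul]
    exact Thorp.norm_pow_anti h2 h _
  refine h3.trans (le_of_eq ?_)
  have h4 : ∀ (T : ℕ) (f : EuclideanSpace ℝ (Perm (Pos (d + 1)))),
      UU e1 (((PP (d + 1)) ^ T) f) = (Q ^ T) (UU e1 f) := by
    intro T
    induction T with
    | zero => intro f; rfl
    | succ T ih =>
      intro f
      rw [pow_succ, pow_succ]
      show UU e1 (((PP (d + 1)) ^ T) (PP (d + 1) f)) = (Q ^ T) (Q (UU e1 f))
      rw [ih]
      congr 1
      exact UU_passR e1 (d + 1) f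
  rw [← UU_dlt e1, ← h4, LinearIsometryEquiv.norm_map]

/-- A1': contraction on the high levels. -/
theorem decay (m r b : ℕ) (hb : b + 1 ≤ 2 ^ m) {v : EuclideanSpace ℝ (Perm (Pos m))}
    (hv : v ∈ (Thorp.PD.W (Pos m) b)ᗮ) :
    ‖((PP m) ^ r) v‖ ^ 2 ≤ Real.exp (-(r * (b + 1) / 144)) * ‖v‖ ^ 2 := by
  have horth : Thorp.IsOrth ((Thorp.reg (Pos m)).comp (e0 m).permCongrHom.toMonoidHom) :=
    (Thorp.reg_orth _).comp _
  have h1 := Thorp.pass_pow_bound m horth r v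
  rw [pass_eq, Thorp.lap_comp_equiv] at h1
  have hcard : Fintype.card (Pos m) = 2 ^ m := by simp
  have hgap : ∀ w ∈ (Thorp.PD.W (Pos m) b)ᗮ,
      ((2 : ℝ) ^ m * (b + 1) / 2) * ‖w‖ ^ 2 ≤ ⟪w, Thorp.lap (Thorp.reg (Pos m)) w⟫_ℝ := by
    intro w hw
    have := Thorp.PD.gap_W (X := Pos m) (b := b) (by rw [hcard]; exact hb) hw
    rw [hcard] at this
    push_cast at this
    exact this
  have h2 := Thorp.PD.exp_decay (L := Thorp.lap (Thorp.reg (Pos m)))
    (N := (Thorp.PD.W (Pos m) b)ᗮ)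
    (fun w hw => Thorp.PD.lap_mem (fun g u hu => Thorp.PD.reg_W_orth g _ hu) hw) hgap
    (t := r * (1 / 144) / 2 ^ m) (by positivity) hv
  have h3 : ‖((PP m) ^ r) v‖ ^ 2 ≤
      ‖NormedSpace.exp (-(r * (1 / 144) / 2 ^ m : ℝ) • Thorp.lap (Thorp.reg (Pos m))) v‖ ^ 2 :=
    pow_le_pow_left₀ (norm_nonneg _) h1 2
  refine h3.trans (h2.trans (le_of_eq ?_))
  congr 2
  have : (2 : ℝ) ^ m ≠ 0 := by positivity
  field_simp

end Vale.Agent.ThorpO
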