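import Vale.Agent.ThorpO.LD2

/-!
# P162, part LD: exponential moment of the number of orbits
-/

namespace Vale.Agent.ThorpO

open Equiv Finset Function

section flip

variable {d : ℕ}

/-- Toggle the coins in `F`. -/
def flipc (ω : Coins d) (F : Finset (ℕ × Pos d)) : Coins d :=
  fun j => xor (ω j) (decide ((j.1.val, j.2) ∈ F))

theorem coin_flipc {ω : Coins d} {F : Finset (ℕ × Pos d)} {s : ℕ × Pos d} (hs : s.1 < d) :
    coin (flipc ω F) s.1 s.2 = xor (coin ω s.1 s.2) (decide (s ∈ F)) := by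
  simp [coin, hs, flipc]

theorem coins_ext {ω ω' : Coins d} (h : ∀ s : ℕ × Pos d, s.1 < d → coin ω s.1 s.2 = coin ω' s.1 s.2) :
    ω = ω' := by
  funext j
  have := h (j.1.val, j.2) j.1.isLt
  simpa [coin] using this

end flip

section count

variable {d : ℕ}

/-- Counting coins with given data. -/
theorem count_T (l β : ℕ) (hl : l + 8 * β ≤ d) (a : Perm (Pos d))
    (T : Coins d → Finset (Pos d × ℕ)) (P : Coins d → Finset (ℕ × Pos d))
    (hP : ∀ ω, ∀ s ∈ P ω, s.1 < d)
    (h1 : ∀ ω, ∀ τ ∈ T ω, ∀ i, i + 1 < τ.2 →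
      ∀ s ∈ path ω l (8 * β) ((hperm a l (8 * β) ω)^[i] τ.1), s ∉ P ω)
    (h2 : ∀ ω, ∀ τ ∈ T ω, hperm a l (8 * β) ω ((hperm a l (8 * β) ω)^[τ.2 - 1] τ.1) = τ.1)
    (h3 : ∀ ω, ∀ s ∈ P ω, ∃ τ ∈ T ω, s ∈ path ω l (8 * β) ((hperm a l (8 * β) ω)^[τ.2 - 1] τ.1))
    (T0 : Finset (Pos d × ℕ)) :
    ∑ ω ∈ univ.filter (fun ω => T ω = T0), 2 ^ (P ω).card ≤ Fintype.card (Coins d) := by
  classical
  set b := 8 * β with hb
  have e1 : ∑ ω ∈ univ.filter (fun ω => T ω = T0), 2 ^ (P ω).card =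
      ((univ.filter (fun ω => T ω = T0)).sigma fun ω => (P ω).powerset).card := by
    rw [Finset.card_sigma]
    exact Finset.sum_congr rfl fun ω _ => (Finset.card_powerset _).symm
  rw [e1, ← Finset.card_univ]
  refine Finset.card_le_card_of_injOn (fun p => flipc p.1 p.2) (fun _ _ => Finset.mem_univ _) ?_
  rintro ⟨ω, F⟩ hp ⟨ω', F'⟩ hp' he
  rw [Finset.mem_coe, Finset.mem_sigma, Finset.mem_filter, Finset.mem_powerset] at hp hp'
  obtain ⟨⟨_, hT⟩, hF⟩ := hp
  obtain ⟨⟨_, hT'⟩, hF'⟩ := hp'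
  simp only at hT hF hT' hF' he
  set η := flipc ω F with hη
  have hη' : η = flipc ω' F' := he
  -- trajectories agree
  have traj : ∀ (ω : Coins d) (F : Finset (ℕ × Pos d)), F ⊆ P ω → η = flipc ω F →
      ∀ τ ∈ T ω, ∀ i, i + 1 ≤ τ.2 →
        (hperm a l b ω)^[i] τ.1 = (hperm a l b η)^[i] τ.1 := by
    intro ω F hF hη τ hτ i
    induction i with
    | zero => intro _; rfl
    | succ i ih =>
      intro hi
      have ih' := ih (by omega)
      rw [Function.iterate_succ_apply', Function.iterate_succ_apply', ← ih']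
      have hpath := h1 ω τ hτ i (by omega)
      have hc : ∀ s ∈ path ω l b ((hperm a l b ω)^[i] τ.1), coin ω s.1 s.2 = coin η s.1 s.2 := by
        intro s hs
        have hsd : s.1 < d := by
          obtain ⟨t, ht, rfl⟩ := mem_path.1 hs
          simp only [sw]; omega
        rw [hη, coin_flipc hsd]
        have : s ∉ F := fun h => hpath s hs (hF h)
        simp [this]
      have := win_eq_of_path hc b le_rfl
      unfold hperm at this ⊢
      rw [this]
  have hend : ∀ τ ∈ T0, path ω l b ((hperm a l b ω)^[τ.2 - 1] τ.1) =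
      path ω' l b ((hperm a l b ω')^[τ.2 - 1] τ.1) ∧
      ∀ s ∈ path ω l b ((hperm a l b ω)^[τ.2 - 1] τ.1), coin ω s.1 s.2 = coin ω' s.1 s.2 := by
    intro τ hτ
    have hu : (hperm a l b ω)^[τ.2 - 1] τ.1 = (hperm a l b ω')^[τ.2 - 1] τ.1 := by
      rcases Nat.eq_zero_or_pos τ.2 with h0 | h0
      · rw [h0]; rfl
      · rw [traj ω F hF rfl τ (hT ▸ hτ) _ (by omega), traj ω' F' hF' hη' τ (hT' ▸ hτ) _ (by omega)]
    have k1 := h2 ω τ (hT ▸ hτ)
    have k2 := h2 ω' τ (hT' ▸ hτ)
    rw [← hu] at k2 ⊢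
    apply path_eq_of_end hl
    have k3 := k1.trans k2.symm
    exact a.injective k3
  have hωω : ω = ω' := by
    apply coins_ext
    intro s hs
    by_cases hsF : s ∈ F
    · obtain ⟨τ, hτ, hsp⟩ := h3 ω s (hF hsF)
      exact (hend τ (hT ▸ hτ)).2 s hsp
    · by_cases hsF' : s ∈ F'
      · obtain ⟨τ, hτ, hsp⟩ := h3 ω' s (hF' hsF')
        have hτ0 : τ ∈ T0 := hT' ▸ hτ
        rw [← (hend τ hτ0).1] at hsp
        exact (hend τ hτ0).2 s hsp
      · have k1 : coin η s.1 s.2 = coin ω s.1 s.2 := by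
          rw [hη, coin_flipc hs]; simp [hsF]
        have k2 : coin η s.1 s.2 = coin ω' s.1 s.2 := by
          rw [hη', coin_flipc hs]; simp [hsF']
        rw [← k1, ← k2]
  subst hωω
  have hFF : F = F' := by
    ext s
    by_cases hs : s.1 < d
    · have k1 : coin η s.1 s.2 = xor (coin ω s.1 s.2) (decide (s ∈ F)) := by
        rw [hη, coin_flipc hs]
      have k2 : coin η s.1 s.2 = xor (coin ω s.1 s.2) (decide (s ∈ F')) := by
        rw [hη', coin_flipc hs]
      rw [k1] at k2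
      by_cases q1 : s ∈ F <;> by_cases q2 : s ∈ F' <;> simp_all
    · constructor
      · intro h; exact absurd (hP ω s (hF h)) hs
      · intro h; exact absurd (hP ω s (hF' h)) hs
  rw [hFF]

theorem sum_powerset_pow {ι : Type*} [DecidableEq ι] (A : Finset ι) (x : ℝ) :
    ∑ T ∈ A.powerset, x ^ T.card = (1 + x) ^ A.card := by
  have h := Finset.prod_one_add (s := A) (f := fun _ : ι => x)
  rw [Finset.prod_const] at h
  rw [h]
  exact Finset.sum_congr rfl fun T _ => by rw [Finset.prod_const]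

/-- **Part LD.** -/
theorem LD (d l β : ℕ) (hl : l + 8 * β ≤ d) (a : Perm (Pos d)) (D : Finset (Pos d)) :
    (av fun ω : Coins d =>
      (2 : ℝ) ^ ((β / 16 : ℝ) * (orbs (fun z => a (win ω l (8 * β) z)) D : ℝ))) ≤
      Real.exp (2 * D.card / 2 ^ β) := by
  classical
  have hs := fun ω => exists_struct l β hl a D ω
  choose T P hT1 hT2 hT3 hP h1 h2 h3 using hs
  set A := D ×ˢ Finset.Icc 1 (4 ^ β) with hA
  have hAcard : A.card = D.card * 4 ^ β := by
    rw [hA, Finset.card_product, Nat.card_Icc]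
    simp
  set N : ℝ := (Fintype.card (Coins d) : ℝ) with hN
  have hN0 : 0 < N := card_coins_pos
  -- fibres
  have hfib : ∀ T0 : Finset (Pos d × ℕ),
      ((univ.filter fun ω => T ω = T0).card : ℝ) * 2 ^ (4 * β * T0.card) ≤ N := by
    intro T0
    have h := count_T l β hl a T P hP h1 h2 h3 T0
    have h' : (univ.filter fun ω => T ω = T0).card * 2 ^ (4 * β * T0.card) ≤
        Fintype.card (Coins d) := by
      refine le_trans ?_ h
      rw [← smul_eq_mul, ← Finset.sum_const]
      refine Finset.sum_le_sum fun ω hω => ?_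
      apply Nat.pow_le_pow_right (by norm_num)
      rw [← (Finset.mem_filter.1 hω).2]
      exact hT3 ω
    rw [hN]
    exact_mod_cast h'
  have hsum : ∑ ω : Coins d, (2 : ℝ) ^ (β * (T ω).card) ≤ N * Real.exp (D.card / 2 ^ β) := by
    have e1 : ∑ ω : Coins d, (2 : ℝ) ^ (β * (T ω).card) =
        ∑ T0 ∈ A.powerset, ∑ ω ∈ univ.filter (fun ω => T ω = T0), (2 : ℝ) ^ (β * (T ω).card) :=
      (Finset.sum_fiberwise_of_maps_to (fun ω _ => Finset.mem_powerset.2 (hT1 ω)) _).symm
    rw [e1]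
    have e2 : ∀ T0 ∈ A.powerset, ∑ ω ∈ univ.filter (fun ω => T ω = T0),
        (2 : ℝ) ^ (β * (T ω).card) ≤ N * ((1 / 8) ^ β) ^ T0.card := by
      intro T0 _
      have e3 : ∑ ω ∈ univ.filter (fun ω => T ω = T0), (2 : ℝ) ^ (β * (T ω).card) =
          ((univ.filter fun ω => T ω = T0).card : ℝ) * 2 ^ (β * T0.card) := by
        rw [← nsmul_eq_mul, ← Finset.sum_const]
        exact Finset.sum_congr rfl fun ω hω => by rw [(Finset.mem_filter.1 hω).2]
      rw [e3]
      have e4 := hfib T0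
      have e5 : (2 : ℝ) ^ (4 * β * T0.card) * ((1 / 8) ^ β) ^ T0.card = 2 ^ (β * T0.card) := by
        rw [← pow_mul, show 4 * β * T0.card = 4 * (β * T0.card) by ring, pow_mul, ← mul_pow]
        norm_num
      calc ((univ.filter fun ω => T ω = T0).card : ℝ) * 2 ^ (β * T0.card)
          = (((univ.filter fun ω => T ω = T0).card : ℝ) * 2 ^ (4 * β * T0.card)) *
            ((1 / 8) ^ β) ^ T0.card := by rw [mul_assoc, e5]
        _ ≤ N * ((1 / 8) ^ β) ^ T0.card := mul_le_mul_of_nonneg_right e4 (by positivity)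
    refine (Finset.sum_le_sum e2).trans ?_
    rw [← Finset.mul_sum, sum_powerset_pow]
    refine mul_le_mul_of_nonneg_left ?_ hN0.le
    rw [hAcard]
    have e6 : (D.card : ℝ) / 2 ^ β = ((D.card * 4 ^ β : ℕ) : ℝ) * (1 / 8) ^ β := by
      push_cast
      rw [mul_assoc, ← mul_pow, div_eq_mul_inv, ← inv_pow]
      norm_num
    rw [e6, Real.exp_nat_mul]
    refine pow_le_pow_left₀ (by positivity) ?_ _
    have := Real.add_one_le_exp ((1 / 8 : ℝ) ^ β)
    linarith
  have hpt : ∀ ω : Coins d,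
      (2 : ℝ) ^ ((β / 16 : ℝ) * (orbs (fun z => a (win ω l (8 * β) z)) D : ℝ)) ≤
      Real.exp (D.card / 2 ^ β) * (2 : ℝ) ^ (β * (T ω).card) := by
    intro ω
    have h := hT2 ω
    have h' : (4 : ℝ) ^ β * orbs (hperm a l (8 * β) ω) D ≤ D.card + 4 ^ β * (16 * (T ω).card) := by
      exact_mod_cast h
    have h4 : (0 : ℝ) < 4 ^ β := by positivity
    have h5 : (orbs (hperm a l (8 * β) ω) D : ℝ) ≤ D.card / 4 ^ β + 16 * (T ω).card := by
      rw [← sub_nonneg] at h' ⊢
      have : D.card / 4 ^ β + 16 * ((T ω).card : ℝ) - orbs (hperm a l (8 * β) ω) D =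
          (D.card + 4 ^ β * (16 * (T ω).card) - 4 ^ β * orbs (hperm a l (8 * β) ω) D) / 4 ^ β := by
        field_simp
      rw [this]
      exact div_nonneg h' h4.le
    have h6 : (β / 16 : ℝ) * (orbs (fun z => a (win ω l (8 * β) z)) D : ℝ) ≤
        (β / 16 : ℝ) * (D.card / 4 ^ β) + (β * (T ω).card : ℕ) := by
      have hβ : (0 : ℝ) ≤ β / 16 := by positivity
      have := mul_le_mul_of_nonneg_left h5 hβ
      push_cast
      refine le_trans (show _ ≤ _ from this) ?_
      nlinarith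
    calc (2 : ℝ) ^ ((β / 16 : ℝ) * (orbs (fun z => a (win ω l (8 * β) z)) D : ℝ))
        ≤ (2 : ℝ) ^ ((β / 16 : ℝ) * (D.card / 4 ^ β) + (β * (T ω).card : ℕ)) :=
          Real.rpow_le_rpow_of_exponent_le (by norm_num) h6
      _ = (2 : ℝ) ^ ((β / 16 : ℝ) * (D.card / 4 ^ β)) * 2 ^ (β * (T ω).card) := by
          rw [Real.rpow_add (by norm_num), Real.rpow_natCast]
      _ ≤ Real.exp (D.card / 2 ^ β) * (2 : ℝ) ^ (β * (T ω).card) := by
          refine mul_le_mul_of_nonneg_right ?_ (by positivity)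
          have e2 : (2 : ℝ) ≤ Real.exp 1 := by
            have := Real.add_one_le_exp (1 : ℝ)
            linarith
          calc (2 : ℝ) ^ ((β / 16 : ℝ) * (D.card / 4 ^ β))
              ≤ (Real.exp 1) ^ ((β / 16 : ℝ) * (D.card / 4 ^ β)) :=
                Real.rpow_le_rpow (by norm_num) e2 (by positivity)
            _ = Real.exp ((β / 16 : ℝ) * (D.card / 4 ^ β)) := by
                rw [← Real.exp_mul, one_mul]
            _ ≤ Real.exp (D.card / 2 ^ β) := by
                apply Real.exp_le_exp.2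
                have e3 : (β : ℝ) ≤ 2 ^ β := by
                  exact_mod_cast (Nat.lt_two_pow_self (n := β)).le
                have e4 : (4 : ℝ) ^ β = 2 ^ β * 2 ^ β := by rw [← mul_pow]; norm_num
                have e5 : (0 : ℝ) < 2 ^ β := by positivity
                rw [e4, ← div_div]
                have e6 : (0 : ℝ) ≤ D.card / 2 ^ β := by positivity
                rw [div_mul_div_comm, div_le_iff₀ (by positivity)]
                have : (β : ℝ) * (D.card / 2 ^ β) ≤ 2 ^ β * (D.card / 2 ^ β) :=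
                  mul_le_mul_of_nonneg_right e3 e6
                nlinarith
  calc (av fun ω : Coins d =>
      (2 : ℝ) ^ ((β / 16 : ℝ) * (orbs (fun z => a (win ω l (8 * β) z)) D : ℝ)))
      ≤ av fun ω : Coins d => Real.exp (D.card / 2 ^ β) * (2 : ℝ) ^ (β * (T ω).card) :=
        av_mono hpt
    _ = Real.exp (D.card / 2 ^ β) * av fun ω : Coins d => (2 : ℝ) ^ (β * (T ω).card) :=
        av_mul_left _ _
    _ ≤ Real.exp (D.card / 2 ^ β) * Real.exp (D.card / 2 ^ β) := by
        refine mul_le_mul_of_nonneg_left ?_ (Real.exp_pos _).le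
        unfold av
        rw [div_le_iff₀ hN0, mul_comm]
        exact hsum
    _ = Real.exp (2 * D.card / 2 ^ β) := by
        rw [← Real.exp_add]
        congr 1
        ring

end count

end Vale.Agent.ThorpO
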