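import Vale.Agent.ThorpO.Defs

/-!
# P162: orbits inside a set
-/

namespace Vale.Agent.ThorpO

open Finset

section orbits

variable {α : Type*} [Fintype α] [DecidableEq α]

omit [DecidableEq α] in
theorem mem_orb {f : α → α} {z w : α} : w ∈ orb f z ↔ ∃ n : ℕ, f^[n] z = w := by
  classical
  simp [orb]

omit [DecidableEq α] in
theorem self_mem_orb (f : α → α) (z : α) : z ∈ orb f z := mem_orb.2 ⟨0, rfl⟩

omit [DecidableEq α] in
theorem orb_subset_of_closed {f : α → α} {E : Finset α} (hE : ∀ z ∈ E, f z ∈ E) {z : α}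
    (hz : z ∈ E) : orb f z ⊆ E := by
  intro w hw
  obtain ⟨n, rfl⟩ := mem_orb.1 hw
  clear hw
  induction n with
  | zero => exact hz
  | succ n ih =>
    rw [Function.iterate_succ_apply']
    exact hE _ ih

/-- The set of orbits inside `D`. -/
noncomputable def orbSet (f : α → α) (D : Finset α) : Finset (Finset α) :=
  (D.filter fun z => orb f z ⊆ D).image (orb f)

theorem orbs_eq (f : α → α) (D : Finset α) : orbs f D = (orbSet f D).card := by
  unfold orbs orbSet
  congr 1

theorem mem_orbSet {f : α → α} {D C : Finset α} :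
    C ∈ orbSet f D ↔ ∃ z ∈ D, orb f z ⊆ D ∧ orb f z = C := by
  simp only [orbSet, Finset.mem_image, Finset.mem_filter, and_assoc]

/-- The number of invariant subsets of `D` is at most `2 ^ orbs`. -/
theorem card_inv_le (f : α → α) (D : Finset α) :
    (D.powerset.filter fun E => ∀ z ∈ E, f z ∈ E).card ≤ 2 ^ orbs f D := by
  rw [orbs_eq, ← Finset.card_powerset]
  refine Finset.card_le_card_of_injOn (fun E => E.image (orb f)) ?_ ?_
  · intro E hE
    rw [Finset.mem_coe, Finset.mem_filter, Finset.mem_powerset] at hE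
    rw [Finset.mem_coe, Finset.mem_powerset]
    intro C hC
    obtain ⟨z, hz, rfl⟩ := Finset.mem_image.1 hC
    exact mem_orbSet.2 ⟨z, hE.1 hz, (orb_subset_of_closed hE.2 hz).trans hE.1, rfl⟩
  · have key : ∀ E : Finset α, (∀ z ∈ E, f z ∈ E) → ∀ w, w ∈ E ↔ ∃ C ∈ E.image (orb f), w ∈ C := by
      intro E hE w
      constructor
      · intro hw
        exact ⟨orb f w, Finset.mem_image_of_mem _ hw, self_mem_orb f w⟩
      · rintro ⟨C, hC, hw⟩
        obtain ⟨z, hz, rfl⟩ := Finset.mem_image.1 hC
        exact orb_subset_of_closed hE hz hw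
    intro E hE E' hE' h
    rw [Finset.mem_coe, Finset.mem_filter] at hE hE'
    ext w
    rw [key E hE.2, key E' hE'.2]
    simp only at h
    rw [h]

omit [DecidableEq α] in
theorem iterate_congr {f g : α → α} {D : Finset α} (h : ∀ z ∈ D, f z = g z) {z : α}
    (hz : orb f z ⊆ D) (n : ℕ) : f^[n] z = g^[n] z := by
  induction n with
  | zero => rfl
  | succ n ih =>
    rw [Function.iterate_succ_apply', Function.iterate_succ_apply', ← ih]
    exact h _ (hz (mem_orb.2 ⟨n, rfl⟩))

omit [DecidableEq α] in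
theorem orb_congr {f g : α → α} {D : Finset α} (h : ∀ z ∈ D, f z = g z) {z : α}
    (hz : orb f z ⊆ D) : orb f z = orb g z := by
  ext w
  simp only [mem_orb, iterate_congr h hz]

theorem orbSet_congr {f g : α → α} {D : Finset α} (h : ∀ z ∈ D, f z = g z) :
    orbSet f D = orbSet g D := by
  have key : ∀ {f g : α → α}, (∀ z ∈ D, f z = g z) → orbSet f D ⊆ orbSet g D := by
    intro f g h C hC
    obtain ⟨z, hz, h1, rfl⟩ := mem_orbSet.1 hC
    have h2 := orb_congr h h1
    exact mem_orbSet.2 ⟨z, hz, h2 ▸ h1, h2.symm⟩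
  exact Finset.Subset.antisymm (key h) (key fun z hz => (h z hz).symm)

theorem orbs_congr {f g : α → α} {D : Finset α} (h : ∀ z ∈ D, f z = g z) :
    orbs f D = orbs g D := by
  rw [orbs_eq, orbs_eq, orbSet_congr h]

theorem orbs_le_card (f : α → α) (D : Finset α) : orbs f D ≤ D.card := by
  unfold orbs
  exact Finset.card_image_le.trans (Finset.card_filter_le _ _)

theorem orb_conj (V : Equiv.Perm α) (f : α → α) (z : α) :
    orb (fun w => V (f (V.symm w))) (V z) = (orb f z).image V := by
  have key : ∀ n : ℕ, (fun w => V (f (V.symm w)))^[n] (V z) = V (f^[n] z) := by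
    intro n
    induction n with
    | zero => rfl
    | succ n ih =>
      rw [Function.iterate_succ_apply', Function.iterate_succ_apply', ih]
      simp
  ext w
  simp only [mem_orb, Finset.mem_image, key]
  constructor
  · rintro ⟨n, rfl⟩
    exact ⟨_, ⟨n, rfl⟩, rfl⟩
  · rintro ⟨_, ⟨n, rfl⟩, rfl⟩
    exact ⟨n, rfl⟩

theorem orbs_conj (V : Equiv.Perm α) (f : α → α) (D : Finset α) :
    orbs (fun w => V (f (V.symm w))) (D.image V) = orbs f D := by
  rw [orbs_eq, orbs_eq]
  have : orbSet (fun w => V (f (V.symm w))) (D.image V) =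
      (orbSet f D).image (Finset.image V) := by
    ext C
    simp only [mem_orbSet, Finset.mem_image]
    constructor
    · rintro ⟨_, ⟨z, hz, rfl⟩, h1, rfl⟩
      rw [orb_conj] at h1 ⊢
      refine ⟨orb f z, ⟨z, hz, ?_, rfl⟩, rfl⟩
      exact (Finset.image_subset_image_iff V.injective).1 h1
    · rintro ⟨_, ⟨z, hz, h1, rfl⟩, rfl⟩
      refine ⟨V z, ⟨z, hz, rfl⟩, ?_, ?_⟩
      · rw [orb_conj]
        exact Finset.image_subset_image h1
      · rw [orb_conj]
  rw [this, Finset.card_image_of_injective _ (Finset.image_injective V.injective)]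

end orbits

end Vale.Agent.ThorpO
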