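import Vale.Agent.ThorpO.Basic
import Vale.Agent.ThorpO.Orbs

/-!
# P162, part LD: paths in the butterfly, sharing, selection
-/

namespace Vale.Agent.ThorpO

open Equiv Finset

/-! ### Paths -/

section paths

variable {d : ℕ} {ω ω' : Coins d} {l : ℕ}

theorem win_succ (ω : Coins d) (l b : ℕ) (z : Pos d) :
    win ω l (b + 1) z = lay (l + b) ω (win ω l b z) := rfl

theorem bit_win_out {t i : ℕ} (hi : i < l ∨ l + t ≤ i) (z : Pos d) :
    bit (win ω l t z) i = bit z i := by
  induction t with
  | zero => rfl
  | succ t ih =>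
    rw [win_succ, bit_lay_ne (by omega)]
    exact ih (by omega)

theorem bit_win_done {t t' i : ℕ} (ht : t ≤ t') (hi : i < l + t) (z : Pos d) :
    bit (win ω l t' z) i = bit (win ω l t z) i := by
  induction t', ht using Nat.le_induction with
  | base => rfl
  | succ t' ht ih => rw [win_succ, bit_lay_ne (by omega), ih]

theorem bit_win_eq {t b : ℕ} (ht : t ≤ b) (z : Pos d) (i : ℕ) :
    bit (win ω l t z) i = if l ≤ i ∧ i < l + t then bit (win ω l b z) i else bit z i := by
  split_ifs with h
  · rw [bit_win_done ht h.2]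
  · exact bit_win_out (by omega) z

/-- The switch used at step `t`. -/
def sw (ω : Coins d) (l : ℕ) (z : Pos d) (t : ℕ) : ℕ × Pos d :=
  (l + t, clr (l + t) (win ω l t z))

/-- All switches used by `z`. -/
def path (ω : Coins d) (l b : ℕ) (z : Pos d) : Finset (ℕ × Pos d) :=
  (range b).image (sw ω l z)

theorem mem_path {b : ℕ} {z : Pos d} {s : ℕ × Pos d} :
    s ∈ path ω l b z ↔ ∃ t < b, sw ω l z t = s := by
  simp [path]

theorem sw_injective (ω : Coins d) (l : ℕ) (z : Pos d) : Function.Injective (sw ω l z) := by
  intro t t' h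
  have := congrArg Prod.fst h
  simp only [sw] at this
  omega

/-- The path depends only on the coins along it. -/
theorem win_eq_of_path {b : ℕ} {z : Pos d}
    (h : ∀ s ∈ path ω l b z, coin ω s.1 s.2 = coin ω' s.1 s.2) :
    ∀ t ≤ b, win ω l t z = win ω' l t z := by
  intro t
  induction t with
  | zero => intro _; rfl
  | succ t ih =>
    intro ht
    have h1 := ih (by omega)
    have h2 := h (sw ω l z t) (mem_path.2 ⟨t, by omega, rfl⟩)
    simp only [sw] at h2
    rw [win_succ, win_succ, lay_apply, lay_apply, h2, h1]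

theorem coin_path {b t : ℕ} (ht : t < b) (z : Pos d) (hd : l + b ≤ d) :
    coin ω (l + t) (clr (l + t) (win ω l t z)) =
      xor (bit z (l + t)) (bit (win ω l b z) (l + t)) := by
  have h1 : bit (win ω l b z) (l + t) = bit (win ω l (t + 1) z) (l + t) :=
    bit_win_done (by omega) (by omega) z
  rw [h1, win_succ, lay_eq_setb, bit_setb (by omega), bit_win_out (by omega)]
  cases bit z (l + t) <;> simp

/-- The path and the coins on it are determined by the endpoints. -/
theorem path_eq_of_end {b : ℕ} {z : Pos d} (hd : l + b ≤ d)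
    (h : win ω l b z = win ω' l b z) :
    path ω l b z = path ω' l b z ∧ ∀ s ∈ path ω l b z, coin ω s.1 s.2 = coin ω' s.1 s.2 := by
  have h1 : ∀ t ≤ b, win ω l t z = win ω' l t z := by
    intro t ht
    apply bit_ext
    intro i _
    rw [bit_win_eq ht, bit_win_eq ht, h]
  constructor
  · unfold path
    apply Finset.image_congr
    intro t ht
    have := Finset.mem_range.1 (Finset.mem_coe.1 ht)
    simp only [sw]
    rw [h1 t (by omega)]
  · intro s hs
    obtain ⟨t, ht, rfl⟩ := mem_path.1 hs
    simp only [sw]
    rw [coin_path ht z hd, h1 t (by omega), coin_path ht z hd, h]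

/-- `u` and `u'` share the switch of step `t`. -/
def Shr (ω : Coins d) (l : ℕ) (u u' : Pos d) (t : ℕ) : Prop :=
  u' ≠ u ∧ clr (l + t) (win ω l t u) = clr (l + t) (win ω l t u')

theorem Shr.win_eq {u u' : Pos d} {t : ℕ} (h : Shr ω l u u' t) :
    win ω l t u' = fl (l + t) (win ω l t u) := by
  rcases eq_or_eq_fl_of_clr h.2 with h1 | h1
  · exact absurd ((win ω l t).injective h1).symm h.1
  · rw [h1, fl_fl]

theorem Shr.unique {u u' u'' : Pos d} {t : ℕ} (h : Shr ω l u u' t) (h' : Shr ω l u u'' t) :
    u' = u'' := by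
  apply (win ω l t).injective
  rw [h.win_eq, h'.win_eq]

theorem Shr.symm {u u' : Pos d} {t : ℕ} (h : Shr ω l u u' t) : Shr ω l u' u t :=
  ⟨h.1.symm, h.2.symm⟩

theorem Shr.bit_eq {u u' : Pos d} {t i : ℕ} (h : Shr ω l u u' t) (hi : l + t < i) :
    bit u i = bit u' i := by
  have h1 := congrArg (fun z => bit z i) h.2
  simp only [bit_clr_ne (show i ≠ l + t by omega)] at h1
  rwa [bit_win_out (by omega), bit_win_out (by omega)] at h1

theorem Shr.bit_ne {u u' : Pos d} {t : ℕ} (h : Shr ω l u u' t) (hd : l + t < d) :
    bit u' (l + t) = !bit u (l + t) := by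
  have h1 := h.win_eq
  have h2 := congrArg (fun z => bit z (l + t)) h1
  simp only [bit_fl hd] at h2
  rwa [bit_win_out (by omega), bit_win_out (by omega)] at h2

/-- Switches on two paths coincide iff shared. -/
theorem sw_mem_path {u u' : Pos d} {t b : ℕ} (hne : u' ≠ u) (h : sw ω l u t ∈ path ω l b u') :
    Shr ω l u u' t := by
  obtain ⟨t', _, h'⟩ := mem_path.1 h
  have h1 := congrArg Prod.fst h'
  simp only [sw] at h1
  have h2 : t' = t := by omega
  subst h2
  have h3 := congrArg Prod.snd h'
  simp only [sw] at h3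
  exact ⟨hne, h3.symm⟩

end paths

/-! ### The entropy inequality for shared switches -/

section share

/-- `x log₂ x`. -/
noncomputable def gg (x : ℝ) : ℝ := x * Real.logb 2 x

theorem gg_nonneg (n : ℕ) : 0 ≤ gg n := by
  unfold gg
  rcases Nat.eq_zero_or_pos n with h | h
  · rw [h]; simp
  · apply mul_nonneg (Nat.cast_nonneg _)
    apply Real.logb_nonneg (by norm_num)
    exact_mod_cast h

theorem gg_aux {x y : ℝ} (hx : 0 < x) (hxy : x ≤ y) : 2 * x + gg x + gg y ≤ gg (x + y) := by
  have hy : 0 < y := by linarith
  have h1 : x + x * Real.logb 2 x ≤ x * Real.logb 2 (x + y) := by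
    have : Real.logb 2 (2 * x) ≤ Real.logb 2 (x + y) :=
      Real.logb_le_logb_of_le (by norm_num) (by positivity) (by linarith)
    rw [Real.logb_mul (by norm_num) hx.ne', Real.logb_self_eq_one (by norm_num)] at this
    nlinarith
  have h2 : x + y * Real.logb 2 y ≤ y * Real.logb 2 (x + y) := by
    have h3 : (2 : ℝ) ^ (x / y) ≤ 1 + x / y := by
      have h := rpow_one_add_le_one_add_mul_self (s := 1) (by norm_num)
        (p := x / y) (by positivity) ((div_le_one hy).2 hxy)
      norm_num at h
      linarith
    have h4 : x / y ≤ Real.logb 2 (1 + x / y) := by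
      rw [Real.le_logb_iff_rpow_le (by norm_num) (by positivity)]
      exact h3
    have h5 : x + y = y * (1 + x / y) := by field_simp; ring
    rw [h5, Real.logb_mul hy.ne' (by positivity), mul_add]
    have h6 : y * (x / y) = x := by field_simp
    nlinarith [mul_le_mul_of_nonneg_left h4 hy.le]
  unfold gg
  nlinarith

theorem gg_ineq (x y : ℕ) : 2 * (min x y : ℕ) + gg x + gg y ≤ gg (x + y : ℕ) := by
  rcases Nat.eq_zero_or_pos x with hx | hx
  · subst hx; simp [gg]
  rcases Nat.eq_zero_or_pos y with hy | hy
  · subst hy; simp [gg]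
  have hx' : (0 : ℝ) < x := by exact_mod_cast hx
  have hy' : (0 : ℝ) < y := by exact_mod_cast hy
  rcases le_total x y with h | h
  · rw [min_eq_left h]
    push_cast
    exact gg_aux hx' (by exact_mod_cast h)
  · rw [min_eq_right h]
    push_cast
    have := gg_aux hy' (show (y : ℝ) ≤ x by exact_mod_cast h)
    rw [add_comm (x : ℝ)]
    linarith

variable {d : ℕ} {ω : Coins d} {l : ℕ}

open Classical in
/-- Number of steps `t < b` at which `u` shares its switch with another element of `A`. -/
noncomputable def shc (ω : Coins d) (l b : ℕ) (A : Finset (Pos d)) (u : Pos d) : ℕ :=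
  ((range b).filter fun t => ∃ u' ∈ A, Shr ω l u u' t).card

theorem shc_sum_le (b : ℕ) (hd : l + b ≤ d) : ∀ A : Finset (Pos d),
    ((∑ u ∈ A, shc ω l b A u : ℕ) : ℝ) ≤ gg A.card := by
  classical
  induction b with
  | zero =>
    intro A
    have : (∑ u ∈ A, shc ω l 0 A u : ℕ) = 0 := by
      apply Finset.sum_eq_zero
      intro u _
      simp [shc]
    rw [this]
    simpa using gg_nonneg _
  | succ b ih =>
    intro A
    have ih' := ih (by omega)
    set A0 := A.filter fun u => bit u (l + b) = false with hA0
    set A1 := A.filter fun u => ¬ bit u (l + b) = false with hA1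
    have hcard : A0.card + A1.card = A.card := Finset.card_filter_add_card_filter_not _
    -- split of shc
    have h1 : ∀ u, shc ω l (b + 1) A u = shc ω l b A u +
        if (∃ u' ∈ A, Shr ω l u u' b) then 1 else 0 := by
      intro u
      unfold shc
      rw [Finset.range_add_one, Finset.filter_insert]
      split_ifs with h
      · rw [Finset.card_insert_of_notMem (by simp)]
      · rfl
    have h2 : ∀ u ∈ A0, shc ω l b A u = shc ω l b A0 u := by
      intro u hu
      unfold shc
      congr 1
      apply Finset.filter_congr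
      intro t ht
      have ht' := Finset.mem_range.1 ht
      constructor
      · rintro ⟨u', hu', hs⟩
        refine ⟨u', ?_, hs⟩
        rw [hA0, Finset.mem_filter]
        refine ⟨hu', ?_⟩
        rw [← hs.bit_eq (by omega)]
        exact (Finset.mem_filter.1 hu).2
      · rintro ⟨u', hu', hs⟩
        exact ⟨u', (Finset.mem_filter.1 hu').1, hs⟩
    have h3 : ∀ u ∈ A1, shc ω l b A u = shc ω l b A1 u := by
      intro u hu
      unfold shc
      congr 1
      apply Finset.filter_congr
      intro t ht
      have ht' := Finset.mem_range.1 ht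
      constructor
      · rintro ⟨u', hu', hs⟩
        refine ⟨u', ?_, hs⟩
        rw [hA1, Finset.mem_filter]
        refine ⟨hu', ?_⟩
        rw [← hs.bit_eq (by omega)]
        exact (Finset.mem_filter.1 hu).2
      · rintro ⟨u', hu', hs⟩
        exact ⟨u', (Finset.mem_filter.1 hu').1, hs⟩
    have h4 : ∑ u ∈ A, shc ω l b A u = ∑ u ∈ A0, shc ω l b A0 u + ∑ u ∈ A1, shc ω l b A1 u := by
      rw [← Finset.sum_filter_add_sum_filter_not A (fun u => bit u (l + b) = false)]
      congr 1
      · exact Finset.sum_congr rfl h2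
      · exact Finset.sum_congr rfl h3
    -- last step
    set B := A.filter fun u => ∃ u' ∈ A, Shr ω l u u' b with hB
    have h5 : B.card ≤ 2 * min A0.card A1.card := by
      have hB0 : (A0.filter fun u => ∃ u' ∈ A, Shr ω l u u' b).card ≤ min A0.card A1.card := by
        refine le_min (Finset.card_filter_le _ _) ?_
        have hch : ∀ u : Pos d, ∃ v : Pos d, (∃ u' ∈ A, Shr ω l u u' b) → v ∈ A ∧ Shr ω l u v b := by
          intro u
          by_cases h : ∃ u' ∈ A, Shr ω l u u' b
          · obtain ⟨v, hv, hs⟩ := h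
            exact ⟨v, fun _ => ⟨hv, hs⟩⟩
          · exact ⟨u, fun h' => absurd h' h⟩
        choose v hv using hch
        refine Finset.card_le_card_of_injOn v ?_ ?_
        · intro u hu
          rw [Finset.mem_coe, Finset.mem_filter] at hu
          have h := hv u hu.2
          rw [Finset.mem_coe, hA1, Finset.mem_filter]
          refine ⟨h.1, ?_⟩
          rw [h.2.bit_ne (by omega), (Finset.mem_filter.1 hu.1).2]
          decide
        · intro u hu u2 hu2 he
          rw [Finset.mem_coe, Finset.mem_filter] at hu hu2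
          have h := (hv u hu.2).2.symm
          have h' := (hv u2 hu2.2).2.symm
          rw [he] at h
          exact h.unique h'
      have hB1 : (A1.filter fun u => ∃ u' ∈ A, Shr ω l u u' b).card ≤ min A0.card A1.card := by
        refine le_min ?_ (Finset.card_filter_le _ _)
        have hch : ∀ u : Pos d, ∃ v : Pos d, (∃ u' ∈ A, Shr ω l u u' b) → v ∈ A ∧ Shr ω l u v b := by
          intro u
          by_cases h : ∃ u' ∈ A, Shr ω l u u' b
          · obtain ⟨v, hv, hs⟩ := h
            exact ⟨v, fun _ => ⟨hv, hs⟩⟩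
          · exact ⟨u, fun h' => absurd h' h⟩
        choose v hv using hch
        refine Finset.card_le_card_of_injOn v ?_ ?_
        · intro u hu
          rw [Finset.mem_coe, Finset.mem_filter] at hu
          have h := hv u hu.2
          rw [Finset.mem_coe, hA0, Finset.mem_filter]
          refine ⟨h.1, ?_⟩
          have hb := (Finset.mem_filter.1 hu.1).2
          rw [h.2.bit_ne (by omega)]
          simpa using hb
        · intro u hu u2 hu2 he
          rw [Finset.mem_coe, Finset.mem_filter] at hu hu2
          have h := (hv u hu.2).2.symm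
          have h' := (hv u2 hu2.2).2.symm
          rw [he] at h
          exact h.unique h'
      have hsplit : B.card = (A0.filter fun u => ∃ u' ∈ A, Shr ω l u u' b).card +
          (A1.filter fun u => ∃ u' ∈ A, Shr ω l u u' b).card := by
        rw [hB, hA0, hA1, Finset.filter_filter, Finset.filter_filter,
          ← Finset.card_filter_add_card_filter_not (s := B) (fun u => bit u (l + b) = false), hB,
          Finset.filter_filter, Finset.filter_filter]
        congr 2
        · ext u; simp only [Finset.mem_filter]; tauto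
        · ext u; simp only [Finset.mem_filter]; tauto
      omega
    have h6 : ∑ u ∈ A, shc ω l (b + 1) A u = (∑ u ∈ A0, shc ω l b A0 u +
        ∑ u ∈ A1, shc ω l b A1 u) + B.card := by
      simp only [h1]
      rw [Finset.sum_add_distrib, h4, Finset.sum_boole]
      rfl
    rw [h6]
    push_cast
    have e0 := ih' A0
    have e1 := ih' A1
    have e2 := gg_ineq A0.card A1.card
    rw [hcard] at e2
    have e3 : (B.card : ℝ) ≤ 2 * (min A0.card A1.card : ℕ) := by exact_mod_cast h5
    push_cast at e0 e1 e3 e2 ⊢
    linarith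

/-- In a set with at most `4 ^ β` elements some element shares at most `2 β` switches. -/
theorem exists_few_shared {b β : ℕ} (hd : l + b ≤ d) {C : Finset (Pos d)} (hC : C.Nonempty)
    (hcard : C.card ≤ 4 ^ β) : ∃ u ∈ C, shc ω l b C u ≤ 2 * β := by
  have h1 := shc_sum_le (ω := ω) b hd C
  have hpos : (0 : ℝ) < C.card := by exact_mod_cast hC.card_pos
  have h2 : gg C.card ≤ C.card * (2 * β) := by
    unfold gg
    refine mul_le_mul_of_nonneg_left ?_ hpos.le
    rw [Real.logb_le_iff_le_rpow (by norm_num) hpos]
    have : (2 : ℝ) ^ (2 * β : ℝ) = 4 ^ β := by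
      rw [show (2 * β : ℝ) = ((2 * β : ℕ) : ℝ) by push_cast; ring, Real.rpow_natCast, pow_mul]
      norm_num
    rw [this]
    exact_mod_cast hcard
  have h3 : ∑ u ∈ C, shc ω l b C u ≤ ∑ _u ∈ C, 2 * β := by
    rw [Finset.sum_const, smul_eq_mul]
    exact_mod_cast h1.trans h2
  exact Finset.exists_le_of_sum_le hC h3

end share

/-! ### Selection -/

section selection

variable {ι : Type*} [DecidableEq ι]

theorem exists_colouring (M : ι → ι → ℕ) (O : Finset ι) : ∃ f : ι → Fin 8,
    8 * ∑ C ∈ O, ∑ C' ∈ (O.erase C).filter (fun C' => f C' = f C), M C C' ≤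
      ∑ C ∈ O, ∑ C' ∈ O.erase C, M C C' := by
  induction O using Finset.induction_on with
  | empty => exact ⟨fun _ => 0, by simp⟩
  | insert a O ha ih =>
    obtain ⟨f, hf⟩ := ih
    -- colour of `a`
    have hc : ∃ c : Fin 8, 8 * ∑ C ∈ O.filter (fun C => f C = c), (M C a + M a C) ≤
        ∑ C ∈ O, (M C a + M a C) := by
      by_contra hcon
      push Not at hcon
      have h1 : ∑ _c : Fin 8, ∑ C ∈ O, (M C a + M a C) <
          ∑ c : Fin 8, 8 * ∑ C ∈ O.filter (fun C => f C = c), (M C a + M a C) :=
        Finset.sum_lt_sum_of_nonempty ⟨0, Finset.mem_univ _⟩ fun c _ => hcon c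
      rw [← Finset.mul_sum, Finset.sum_fiberwise, Finset.sum_const, Finset.card_univ,
        Fintype.card_fin, smul_eq_mul] at h1
      exact lt_irrefl _ h1
    obtain ⟨c, hc⟩ := hc
    refine ⟨fun C => if C = a then c else f C, ?_⟩
    set f' : ι → Fin 8 := fun C => if C = a then c else f C with hf'
    have hfa : f' a = c := by rw [hf']; simp
    have hfC : ∀ C ∈ O, f' C = f C := by
      intro C hC
      rw [hf']; dsimp only
      rw [if_neg]
      intro h
      exact ha (h ▸ hC)
    -- total
    have key : ∀ P : ι → ι → Prop, ∀ [∀ C C', Decidable (P C C')],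
        ∑ C ∈ insert a O, ∑ C' ∈ ((insert a O).erase C).filter (fun C' => P C' C), M C C' =
        ∑ C ∈ O, ∑ C' ∈ (O.erase C).filter (fun C' => P C' C), M C C' +
          (∑ C ∈ O.filter (fun C => P C a), M a C + ∑ C ∈ O.filter (fun C => P a C), M C a) := by
      intro P _
      rw [Finset.sum_insert ha, Finset.erase_insert ha]
      have h2 : ∀ C ∈ O, ∑ C' ∈ ((insert a O).erase C).filter (fun C' => P C' C), M C C' =
          ∑ C' ∈ (O.erase C).filter (fun C' => P C' C), M C C' + if P a C then M C a else 0 := by
        intro C hC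
        have hne : C ≠ a := fun h => ha (h ▸ hC)
        have h3 : (insert a O).erase C = insert a (O.erase C) := by
          rw [Finset.erase_insert_of_ne hne.symm]
        have h4 : a ∉ O.erase C := fun h => ha (Finset.mem_of_mem_erase h)
        rw [h3, Finset.filter_insert]
        split_ifs with h5
        · rw [Finset.sum_insert (fun h => h4 (Finset.mem_filter.1 h).1), add_comm]
        · rw [add_zero]
      rw [Finset.sum_congr rfl h2, Finset.sum_add_distrib, ← Finset.sum_filter]
      ring
    have k1 := key (fun C' C => f' C' = f' C)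
    have k2 := key (fun _ _ => True)
    simp only [Finset.filter_true] at k2
    have e1 : ∑ C ∈ O, ∑ C' ∈ (O.erase C).filter (fun C' => f' C' = f' C), M C C' =
        ∑ C ∈ O, ∑ C' ∈ (O.erase C).filter (fun C' => f C' = f C), M C C' := by
      refine Finset.sum_congr rfl fun C hC => ?_
      refine Finset.sum_congr (Finset.filter_congr fun C' hC' => ?_) fun _ _ => rfl
      rw [hfC C hC, hfC C' (Finset.mem_of_mem_erase hC')]
    have e2 : O.filter (fun C => f' C = f' a) = O.filter (fun C => f C = c) := by
      apply Finset.filter_congr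
      intro C hC
      rw [hfC C hC, hfa]
    have e3 : O.filter (fun C => f' a = f' C) = O.filter (fun C => f C = c) := by
      apply Finset.filter_congr
      intro C hC
      rw [hfC C hC, hfa, eq_comm]
    rw [e1, e2, e3] at k1
    rw [k1, k2]
    rw [Finset.sum_add_distrib, Finset.sum_add_distrib] at hc
    omega

/-- Selection of a subfamily with small mutual weights. -/
theorem selection (M : ι → ι → ℕ) (O : Finset ι) (m : ℕ)
    (hM : ∀ C ∈ O, ∑ C' ∈ O.erase C, M C C' ≤ 4 * m) :
    ∃ S ⊆ O, O.card ≤ 16 * S.card ∧ ∀ C ∈ S, ∑ C' ∈ S.erase C, M C C' ≤ m := by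
  obtain ⟨f, hf⟩ := exists_colouring M O
  set w : ι → ℕ := fun C => ∑ C' ∈ (O.erase C).filter (fun C' => f C' = f C), M C C' with hw
  have h1 : 8 * ∑ C ∈ O, w C ≤ O.card * (4 * m) := by
    refine hf.trans ((Finset.sum_le_sum hM).trans ?_)
    rw [Finset.sum_const, smul_eq_mul]
  set G := O.filter fun C => w C ≤ m with hG
  set Bd := O.filter fun C => ¬ w C ≤ m with hBd
  have h2 : Bd.card * (m + 1) ≤ ∑ C ∈ O, w C := by
    rw [← smul_eq_mul, ← Finset.sum_const]
    refine (Finset.sum_le_sum (g := w) fun C hC => ?_).trans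
      (Finset.sum_le_sum_of_subset (Finset.filter_subset _ _))
    have := (Finset.mem_filter.1 hC).2
    omega
  have h3 : G.card + Bd.card = O.card := Finset.card_filter_add_card_filter_not _
  have h4 : O.card ≤ 2 * G.card := by
    have h5 : 2 * (Bd.card * (m + 1)) ≤ O.card * m := by nlinarith
    have h6 : 2 * Bd.card ≤ O.card := by
      by_contra hcon
      push Not at hcon
      nlinarith
    omega
  have h7 : ∃ c : Fin 8, G.card ≤ 8 * (G.filter fun C => f C = c).card := by
    by_contra hcon
    push Not at hcon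
    have h8 : ∑ c : Fin 8, 8 * (G.filter fun C => f C = c).card < ∑ _c : Fin 8, G.card :=
      Finset.sum_lt_sum_of_nonempty ⟨0, Finset.mem_univ _⟩ fun c _ => hcon c
    rw [← Finset.mul_sum, Finset.sum_const, Finset.card_univ, Fintype.card_fin, smul_eq_mul] at h8
    have h9 : ∑ c : Fin 8, (G.filter fun C => f C = c).card = G.card :=
      (Finset.card_eq_sum_card_fiberwise (f := f) (t := univ) fun _ _ =>
        Finset.mem_coe.2 (Finset.mem_univ _)).symm
    rw [h9] at h8
    exact lt_irrefl _ h8
  obtain ⟨c, hc⟩ := h7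
  refine ⟨G.filter fun C => f C = c, (Finset.filter_subset _ _).trans (Finset.filter_subset _ _),
    by omega, ?_⟩
  intro C hC
  obtain ⟨hCG, hfc⟩ := Finset.mem_filter.1 hC
  have hwC := (Finset.mem_filter.1 hCG).2
  refine le_trans (Finset.sum_le_sum_of_subset ?_) hwC
  intro C' hC'
  obtain ⟨hne, hC''⟩ := Finset.mem_erase.1 hC'
  obtain ⟨hG', hfc'⟩ := Finset.mem_filter.1 hC''
  rw [Finset.mem_filter, Finset.mem_erase]
  exact ⟨⟨hne, (Finset.mem_filter.1 hG').1⟩, by rw [hfc, hfc']⟩

end selection

end Vale.Agent.ThorpO
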