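import Vale.Agent.ThorpO.LD1

/-!
# P162, part LD: orbits of a permutation, structure of the short orbits
-/

namespace Vale.Agent.ThorpO

open Equiv Finset Function

section orbits

variable {α : Type*} [Fintype α] [DecidableEq α] {f : α → α}

theorem orb_subset_orb {z w : α} (h : w ∈ orb f z) : orb f w ⊆ orb f z := by
  obtain ⟨n, rfl⟩ := mem_orb.1 h
  intro v hv
  obtain ⟨m, rfl⟩ := mem_orb.1 hv
  exact mem_orb.2 ⟨m + n, by rw [Function.iterate_add_apply]⟩

theorem mem_orb_symm (hf : Injective f) {z w : α} (h : w ∈ orb f z) : z ∈ orb f w := by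
  obtain ⟨n, rfl⟩ := mem_orb.1 h
  have hz := hf.mem_periodicPts z
  have hp : 0 < minimalPeriod f z := minimalPeriod_pos_of_mem_periodicPts hz
  refine mem_orb.2 ⟨minimalPeriod f z * (n + 1) - n, ?_⟩
  rw [← Function.iterate_add_apply]
  have h1 : minimalPeriod f z * (n + 1) - n + n = minimalPeriod f z * (n + 1) := by
    apply Nat.sub_add_cancel
    nlinarith
  rw [h1]
  exact (isPeriodicPt_minimalPeriod f z).mul_const _

theorem orb_eq_of_mem (hf : Injective f) {z w : α} (h : w ∈ orb f z) : orb f w = orb f z :=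
  Finset.Subset.antisymm (orb_subset_orb h) (orb_subset_orb (mem_orb_symm hf h))

theorem orb_card (hf : Injective f) (z : α) : (orb f z).card = minimalPeriod f z := by
  have hz := hf.mem_periodicPts z
  have hp : 0 < minimalPeriod f z := minimalPeriod_pos_of_mem_periodicPts hz
  have h1 : orb f z = (range (minimalPeriod f z)).image fun n => f^[n] z := by
    ext w
    rw [mem_orb, Finset.mem_image]
    constructor
    · rintro ⟨n, rfl⟩
      exact ⟨n % minimalPeriod f z, Finset.mem_range.2 (Nat.mod_lt _ hp),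
        iterate_mod_minimalPeriod_eq⟩
    · rintro ⟨n, _, rfl⟩
      exact ⟨n, rfl⟩
  rw [h1, Finset.card_image_of_injOn, Finset.card_range]
  intro a ha b hb hab
  exact (iterate_eq_iterate_iff_of_lt_minimalPeriod (Finset.mem_range.1 (Finset.mem_coe.1 ha))
    (Finset.mem_range.1 (Finset.mem_coe.1 hb))).1 hab

variable {D : Finset α} {C C' : Finset α}

theorem orbSet_subset (hC : C ∈ orbSet f D) : C ⊆ D := by
  obtain ⟨z, _, h, rfl⟩ := mem_orbSet.1 hC
  exact h

theorem orbSet_nonempty (hC : C ∈ orbSet f D) : C.Nonempty := by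
  obtain ⟨z, _, h, rfl⟩ := mem_orbSet.1 hC
  exact ⟨z, self_mem_orb f z⟩

theorem orbSet_eq_orb (hf : Injective f) (hC : C ∈ orbSet f D) {u : α} (hu : u ∈ C) :
    orb f u = C := by
  obtain ⟨z, _, h, rfl⟩ := mem_orbSet.1 hC
  exact orb_eq_of_mem hf hu

theorem orbSet_disjoint (hf : Injective f) (hC : C ∈ orbSet f D) (hC' : C' ∈ orbSet f D)
    {u : α} (hu : u ∈ C) (hu' : u ∈ C') : C = C' := by
  rw [← orbSet_eq_orb hf hC hu, ← orbSet_eq_orb hf hC' hu']

theorem orbSet_iterate_mem (hf : Injective f) (hC : C ∈ orbSet f D) {u : α} (hu : u ∈ C) (n : ℕ) :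
    f^[n] u ∈ C := by
  rw [← orbSet_eq_orb hf hC hu]
  exact mem_orb.2 ⟨n, rfl⟩

theorem orbSet_card (hf : Injective f) (hC : C ∈ orbSet f D) {u : α} (hu : u ∈ C) :
    C.card = minimalPeriod f u := by
  rw [← orb_card hf, orbSet_eq_orb hf hC hu]

/-- Orbits with many elements are few. -/
theorem card_long_le (hf : Injective f) (L : ℕ) :
    L * ((orbSet f D).filter fun C => ¬ C.card ≤ L).card ≤ D.card := by
  set S := (orbSet f D).filter fun C => ¬ C.card ≤ L with hS
  have h1 : (S.biUnion id).card = ∑ C ∈ S, C.card := by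
    rw [Finset.card_biUnion]
    · rfl
    · intro C hC C' hC' hne
      refine Finset.disjoint_left.2 fun u hu hu' => ?_
      exact hne (orbSet_disjoint hf (Finset.mem_filter.1 hC).1 (Finset.mem_filter.1 hC').1 hu hu')
  have h2 : S.biUnion id ⊆ D := by
    intro u hu
    obtain ⟨C, hC, hu⟩ := Finset.mem_biUnion.1 hu
    exact orbSet_subset (Finset.mem_filter.1 hC).1 hu
  calc L * S.card = ∑ _C ∈ S, L := by rw [Finset.sum_const, smul_eq_mul, mul_comm]
    _ ≤ ∑ C ∈ S, C.card := Finset.sum_le_sum fun C hC => by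
        have := (Finset.mem_filter.1 hC).2
        omega
    _ = (S.biUnion id).card := h1.symm
    _ ≤ D.card := Finset.card_le_card h2

end orbits

/-! ### Structure of the short orbits for fixed coins -/

section struct

variable {d : ℕ}

/-- The permutation, as a function. -/
def hperm (a : Perm (Pos d)) (l b : ℕ) (ω : Coins d) (z : Pos d) : Pos d := a (win ω l b z)

theorem hperm_injective (a : Perm (Pos d)) (l b : ℕ) (ω : Coins d) : Injective (hperm a l b ω) :=
  a.injective.comp (win ω l b).injective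

theorem path_card (ω : Coins d) (l b : ℕ) (z : Pos d) : (path ω l b z).card = b := by
  unfold path
  rw [Finset.card_image_of_injective _ (sw_injective ω l z), Finset.card_range]

theorem exists_struct (l β : ℕ) (hl : l + 8 * β ≤ d) (a : Perm (Pos d)) (D : Finset (Pos d))
    (ω : Coins d) : ∃ (T : Finset (Pos d × ℕ)) (P : Finset (ℕ × Pos d)),
    T ⊆ D ×ˢ Finset.Icc 1 (4 ^ β) ∧
    4 ^ β * orbs (hperm a l (8 * β) ω) D ≤ D.card + 4 ^ β * (16 * T.card) ∧
    4 * β * T.card ≤ P.card ∧
    (∀ s ∈ P, s.1 < d) ∧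
    (∀ τ ∈ T, ∀ i, i + 1 < τ.2 → ∀ s ∈ path ω l (8 * β) ((hperm a l (8 * β) ω)^[i] τ.1), s ∉ P) ∧
    (∀ τ ∈ T, hperm a l (8 * β) ω ((hperm a l (8 * β) ω)^[τ.2 - 1] τ.1) = τ.1) ∧
    (∀ s ∈ P, ∃ τ ∈ T, s ∈ path ω l (8 * β) ((hperm a l (8 * β) ω)^[τ.2 - 1] τ.1)) := by
  classical
  set b := 8 * β with hb
  set h := hperm a l b ω with hh
  have hinj : Injective h := hperm_injective a l b ω
  set O := (orbSet h D).filter fun C => C.card ≤ 4 ^ β with hO
  have hO1 : ∀ C ∈ O, C ∈ orbSet h D := fun C hC => (Finset.mem_filter.1 hC).1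
  -- the closing elements
  have hu : ∀ C : Finset (Pos d), ∃ u : Pos d, C ∈ O → u ∈ C ∧ shc ω l b C u ≤ 2 * β := by
    intro C
    by_cases hC : C ∈ O
    · obtain ⟨u, hu, hsh⟩ := exists_few_shared (ω := ω) hl (orbSet_nonempty (hO1 C hC))
        (Finset.mem_filter.1 hC).2
      exact ⟨u, fun _ => ⟨hu, hsh⟩⟩
    · exact ⟨fun _ => false, fun h' => absurd h' hC⟩
  choose u hu using hu
  -- mutual weights
  set M : Finset (Pos d) → Finset (Pos d) → ℕ := fun C C' =>
    ((range b).filter fun t => ∃ u' ∈ C', Shr ω l (u C) u' t).card with hM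
  have hrow : ∀ C ∈ O, ∑ C' ∈ O.erase C, M C C' ≤ 4 * (2 * β) := by
    intro C hC
    have h1 : ∀ C', M C C' = ∑ t ∈ range b, if ∃ u' ∈ C', Shr ω l (u C) u' t then 1 else 0 := by
      intro C'
      rw [hM]; dsimp only
      rw [Finset.card_filter]
    simp only [h1]
    rw [Finset.sum_comm]
    have h2 : ∀ t ∈ range b, ∑ C' ∈ O.erase C,
        (if ∃ u' ∈ C', Shr ω l (u C) u' t then 1 else 0) ≤ 1 := by
      intro t _
      rw [← Finset.card_filter, Finset.card_le_one]
      intro C1 hC1 C2 hC2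
      obtain ⟨hC1', u1, hu1, hs1⟩ := Finset.mem_filter.1 hC1
      obtain ⟨hC2', u2, hu2, hs2⟩ := Finset.mem_filter.1 hC2
      have := hs1.unique hs2
      rw [this] at hu1
      exact orbSet_disjoint hinj (hO1 _ (Finset.mem_of_mem_erase hC1'))
        (hO1 _ (Finset.mem_of_mem_erase hC2')) hu1 hu2
    refine (Finset.sum_le_sum h2).trans ?_
    rw [Finset.sum_const, smul_eq_mul, Finset.card_range]
    omega
  obtain ⟨S, hSO, hScard, hSrow⟩ := selection M O (2 * β) hrow
  have hS1 : ∀ C ∈ S, C ∈ orbSet h D := fun C hC => hO1 C (hSO hC)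
  have hSu : ∀ C ∈ S, u C ∈ C ∧ shc ω l b C (u C) ≤ 2 * β := fun C hC => hu C (hSO hC)
  -- the data
  set T := S.image fun C => (h (u C), C.card) with hT
  set Pr : Finset (Pos d) → Finset (ℕ × Pos d) := fun C => (path ω l b (u C)).filter fun s =>
    ∀ C' ∈ S, ∀ u' ∈ C', u' ≠ u C → s ∉ path ω l b u' with hPr
  set P := S.biUnion Pr with hP
  have hTcard : T.card = S.card := by
    rw [hT, Finset.card_image_of_injOn]
    intro C hC C' hC' he
    have h1 := (Prod.ext_iff.1 he).1
    simp only at h1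
    have h2 := orbSet_iterate_mem hinj (hS1 C hC) (hSu C hC).1 1
    have h3 := orbSet_iterate_mem hinj (hS1 C' hC') (hSu C' hC').1 1
    simp only [Function.iterate_one] at h2 h3
    rw [← h1] at h3
    exact orbSet_disjoint hinj (hS1 C hC) (hS1 C' hC') h2 h3
  -- private switches are many
  have hPrcard : ∀ C ∈ S, 4 * β ≤ (Pr C).card := by
    intro C hC
    set Bd := (path ω l b (u C)).filter fun s =>
      ¬ ∀ C' ∈ S, ∀ u' ∈ C', u' ≠ u C → s ∉ path ω l b u' with hBd
    have h1 : (Pr C).card + Bd.card = b := by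
      rw [← path_card ω l b (u C)]
      exact Finset.card_filter_add_card_filter_not _
    have h2 : Bd ⊆ (((range b).filter fun t => ∃ u' ∈ C, Shr ω l (u C) u' t) ∪
        (S.erase C).biUnion fun C' => (range b).filter fun t => ∃ u' ∈ C', Shr ω l (u C) u' t).image
          (sw ω l (u C)) := by
      intro s hs
      obtain ⟨hs1, hs2⟩ := Finset.mem_filter.1 hs
      obtain ⟨t, ht, rfl⟩ := mem_path.1 hs1
      push Not at hs2
      obtain ⟨C', hC', u', hu', hne, hs3⟩ := hs2
      have hsh := sw_mem_path hne hs3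
      refine Finset.mem_image_of_mem _ ?_
      rw [Finset.mem_union]
      by_cases hCC : C' = C
      · left
        rw [Finset.mem_filter]
        exact ⟨Finset.mem_range.2 ht, u', hCC ▸ hu', hsh⟩
      · right
        rw [Finset.mem_biUnion]
        exact ⟨C', Finset.mem_erase.2 ⟨hCC, hC'⟩, Finset.mem_filter.2
          ⟨Finset.mem_range.2 ht, u', hu', hsh⟩⟩
    have h3 : Bd.card ≤ 2 * β + 2 * β := by
      refine (Finset.card_le_card h2).trans (Finset.card_image_le.trans
        ((Finset.card_union_le _ _).trans (add_le_add (hSu C hC).2 ?_)))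
      exact Finset.card_biUnion_le.trans (hSrow C hC)
    omega
  have hPcard : 4 * β * S.card ≤ P.card := by
    rw [hP, Finset.card_biUnion]
    · calc 4 * β * S.card = ∑ _C ∈ S, 4 * β := by rw [Finset.sum_const, smul_eq_mul, mul_comm]
        _ ≤ ∑ C ∈ S, (Pr C).card := Finset.sum_le_sum hPrcard
    · intro C hC C' hC' hne
      refine Finset.disjoint_left.2 fun s hs hs' => ?_
      obtain ⟨_, h2⟩ := Finset.mem_filter.1 hs
      obtain ⟨h1', _⟩ := Finset.mem_filter.1 hs'
      refine h2 C' hC' (u C') (hSu C' hC').1 ?_ h1'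
      intro he
      apply hne
      exact orbSet_disjoint hinj (hS1 C hC) (hS1 C' hC') (hSu C hC).1 (he ▸ (hSu C' hC').1)
  have hlast : ∀ C ∈ S, h^[C.card - 1] (h (u C)) = u C := by
    intro C hC
    have h1 := orbSet_card hinj (hS1 C hC) (hSu C hC).1
    have h2 : 0 < C.card := Finset.card_pos.2 ⟨_, (hSu C hC).1⟩
    rw [← Function.iterate_succ_apply, Nat.succ_eq_add_one, Nat.sub_add_cancel h2, h1]
    exact iterate_minimalPeriod
  refine ⟨T, P, ?_, ?_, ?_, ?_, ?_, ?_, ?_⟩
  · intro τ hτ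
    obtain ⟨C, hC, rfl⟩ := Finset.mem_image.1 hτ
    rw [Finset.mem_product, Finset.mem_Icc]
    refine ⟨?_, ?_, ?_⟩
    · exact orbSet_subset (hS1 C hC) (orbSet_iterate_mem hinj (hS1 C hC) (hSu C hC).1 1)
    · exact Finset.card_pos.2 ⟨_, (hSu C hC).1⟩
    · exact (Finset.mem_filter.1 (hSO hC)).2
  · have h1 := card_long_le (D := D) hinj (4 ^ β)
    have h2 : (orbSet h D).card = O.card +
        ((orbSet h D).filter fun C => ¬ C.card ≤ 4 ^ β).card :=
      (Finset.card_filter_add_card_filter_not _).symm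
    rw [orbs_eq, h2, mul_add, hTcard]
    have h3 := Nat.mul_le_mul_left (4 ^ β) hScard
    omega
  · rw [hTcard]
    exact hPcard
  · intro s hs
    obtain ⟨C, hC, hs⟩ := Finset.mem_biUnion.1 hs
    obtain ⟨t, ht, rfl⟩ := mem_path.1 (Finset.mem_filter.1 hs).1
    simp only [sw]
    omega
  · intro τ hτ i hi s hs hsP
    obtain ⟨C, hC, rfl⟩ := Finset.mem_image.1 hτ
    simp only at hi hs
    rw [← Function.iterate_succ_apply] at hs
    obtain ⟨C'', hC'', hs''⟩ := Finset.mem_biUnion.1 hsP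
    obtain ⟨_, hpriv⟩ := Finset.mem_filter.1 hs''
    refine hpriv C hC (h^[i + 1] (u C)) (orbSet_iterate_mem hinj (hS1 C hC) (hSu C hC).1 _) ?_ hs
    intro he
    have hmem := orbSet_iterate_mem hinj (hS1 C hC) (hSu C hC).1 (i + 1)
    rw [he] at hmem
    have hCC : C = C'' := orbSet_disjoint hinj (hS1 C hC) (hS1 C'' hC'') hmem (hSu C'' hC'').1
    rw [← hCC] at he
    have h1 := orbSet_card hinj (hS1 C hC) (hSu C hC).1
    rw [h1] at hi
    have h2 : IsPeriodicPt h (i + 1) (u C) := he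
    have h3 := h2.minimalPeriod_le (by omega)
    omega
  · intro τ hτ
    obtain ⟨C, hC, rfl⟩ := Finset.mem_image.1 hτ
    simp only
    rw [hlast C hC]
  · intro s hs
    obtain ⟨C, hC, hs⟩ := Finset.mem_biUnion.1 hs
    refine ⟨(h (u C), C.card), Finset.mem_image_of_mem _ hC, ?_⟩
    simp only
    rw [hlast C hC]
    exact (Finset.mem_filter.1 hs).1

end struct

end Vale.Agent.ThorpO
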