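import Vale.Agent.ThorpO.Defs

/-!
# P162: the node lemma

Number of splits compatible with two matchings against the number of closed sets.
-/

namespace Vale.Agent.ThorpO

open Finset

section node

variable {K β : Type*} [Fintype K] [DecidableEq K] [DecidableEq β]

/-- Sets closed under both partner relations. -/
def clo (a b : K → β) : Finset (Finset K) :=
  univ.filter fun C => (∀ c ∈ C, ∃ c' ∈ C, c' ≠ c ∧ a c' = a c) ∧
    (∀ c ∈ C, ∃ c' ∈ C, c' ≠ c ∧ b c' = b c)

/-- Compatible splits. -/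
def compat (a b : K → β) : Finset (K → Bool) :=
  univ.filter fun s => (∀ c c', c ≠ c' → a c = a c' → s c ≠ s c') ∧
    (∀ c c', c ≠ c' → b c = b c' → s c ≠ s c')

theorem mem_compat {a b : K → β} {s : K → Bool} : s ∈ compat a b ↔
    (∀ c c', c ≠ c' → a c = a c' → s c ≠ s c') ∧ (∀ c c', c ≠ c' → b c = b c' → s c ≠ s c') := by
  simp [compat]

/-- fibre -/
def fib (a : K → β) (v : β) : Finset K := univ.filter fun c => a c = v

/-- Values with two preimages. -/
def dbl (a : K → β) : Finset β := (univ.image a).filter fun v => (fib a v).card = 2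

def sg (b : Bool) : ℤ := if b then -1 else 1

theorem sg_mul_self (b : Bool) : sg b * sg b = 1 := by cases b <;> rfl

theorem sg_ne {b c : Bool} (h : b ≠ c) : sg b * sg c = -1 := by
  cases b <;> cases c <;> simp_all [sg]

/-- Character of a value. -/
def chv (a : K → β) (s : K → Bool) (v : β) : ℤ := ∏ c ∈ fib a v, sg (s c)

theorem abs_sg (b : Bool) : |sg b| = 1 := by cases b <;> rfl

omit [DecidableEq K] in
theorem chv_le (a : K → β) (s : K → Bool) (v : β) : chv a s v ≤ 1 := by
  have h : |chv a s v| = 1 := by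
    rw [chv, Finset.abs_prod]
    exact Finset.prod_eq_one fun c _ => abs_sg _
  exact (abs_le.1 h.le).2

def Fib2 (a : K → β) : Prop :=
  ∀ c1 c2 c3, a c1 = a c2 → a c1 = a c3 → c1 = c2 ∨ c1 = c3 ∨ c2 = c3

omit [DecidableEq K] in
theorem mem_fib {a : K → β} {v : β} {c : K} : c ∈ fib a v ↔ a c = v := by simp [fib]

theorem card_fib {a : K → β} (ha : Fib2 a) {v : β} (hv : v ∈ univ.image a) :
    (fib a v).card = 1 ∨ (fib a v).card = 2 := by
  obtain ⟨c, _, rfl⟩ := Finset.mem_image.1 hv
  have h1 : 0 < (fib a (a c)).card := Finset.card_pos.2 ⟨c, mem_fib.2 rfl⟩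
  have h2 : (fib a (a c)).card ≤ 2 := by
    by_contra h
    rw [not_le, Finset.two_lt_card_iff] at h
    obtain ⟨x, y, z, hx, hy, hz, hxy, hxz, hyz⟩ := h
    rw [mem_fib] at hx hy hz
    rcases ha x y z (by rw [hx, hy]) (by rw [hx, hz]) with h | h | h
    · exact hxy h
    · exact hxz h
    · exact hyz h
  omega

theorem card_eq_dbl {a : K → β} (ha : Fib2 a) :
    Fintype.card K = (univ.image a).card + (dbl a).card := by
  have h1 : Fintype.card K = ∑ v ∈ univ.image a, (fib a v).card := by
    rw [← Finset.card_univ]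
    exact Finset.card_eq_sum_card_image a univ
  rw [h1, dbl, Finset.card_filter, ← Finset.sum_const_nat (m := 1) (f := fun _ => 1)
    (s := univ.image a) (fun _ _ => rfl) |>.trans (mul_one _), ← Finset.sum_add_distrib]
  refine Finset.sum_congr rfl fun v hv => ?_
  rcases card_fib ha hv with h | h
  · rw [h]; simp
  · rw [h]; simp

omit [DecidableEq K] in
theorem chv_eq_neg_one {a : K → β} {s : K → Bool} (hs : ∀ c c', c ≠ c' → a c = a c' → s c ≠ s c')
    {v : β} (hv : v ∈ dbl a) : chv a s v = -1 := by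
  classical
  have h2 : (fib a v).card = 2 := (Finset.mem_filter.1 hv).2
  obtain ⟨x, y, hxy, hf⟩ := Finset.card_eq_two.1 h2
  have hx : a x = v := mem_fib.1 (by rw [hf]; simp)
  have hy : a y = v := mem_fib.1 (by rw [hf]; simp)
  rw [chv, hf, Finset.prod_pair hxy]
  exact sg_ne (hs x y hxy (by rw [hx, hy]))

theorem prod_chv (a : K → β) (s : K → Bool) (A : Finset β) :
    ∏ v ∈ A, chv a s v = ∏ c, if a c ∈ A then sg (s c) else 1 := by
  rw [← Finset.prod_filter, ← Finset.prod_fiberwise_of_maps_to (s := univ.filter fun c => a c ∈ A)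
    (t := A) (g := a) (fun c hc => (Finset.mem_filter.1 hc).2)]
  refine Finset.prod_congr rfl fun v hv => ?_
  rw [chv]
  refine Finset.prod_congr ?_ fun _ _ => rfl
  ext c
  simp only [mem_fib, Finset.mem_filter, Finset.mem_univ, true_and]
  constructor
  · intro h; exact ⟨by rw [h]; exact hv, h⟩
  · intro h; exact h.2

theorem sum_chars (a b : K → β) (A B : Finset β) :
    ∑ s : K → Bool, (∏ v ∈ A, chv a s v) * (∏ v ∈ B, chv b s v) =
      if (∀ c, a c ∈ A ↔ b c ∈ B) then 2 ^ Fintype.card K else 0 := by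
  have h1 : ∀ s : K → Bool, (∏ v ∈ A, chv a s v) * (∏ v ∈ B, chv b s v) =
      ∏ c, ((if a c ∈ A then sg (s c) else 1) * (if b c ∈ B then sg (s c) else 1)) := by
    intro s
    rw [prod_chv, prod_chv, ← Finset.prod_mul_distrib]
  simp only [h1]
  have h2 := Finset.prod_univ_sum (fun _ : K => (univ : Finset Bool))
    (fun c x => (if a c ∈ A then sg x else 1) * (if b c ∈ B then sg x else 1))
  rw [Fintype.piFinset_univ] at h2
  rw [← h2]
  split_ifs with h
  · have : ∀ c, ∑ x : Bool, ((if a c ∈ A then sg x else 1) * (if b c ∈ B then sg x else 1)) = 2 := by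
      intro c
      by_cases hc : a c ∈ A
      · have hc' := (h c).1 hc
        simp [hc, hc', sg]
      · have hc' : b c ∉ B := fun h' => hc ((h c).2 h')
        simp [hc, hc']
    rw [Finset.prod_congr rfl fun c _ => this c]
    simp
  · push Not at h
    obtain ⟨c, hc⟩ := h
    refine Finset.prod_eq_zero (Finset.mem_univ c) ?_
    rcases hc with ⟨h1, h2⟩ | ⟨h1, h2⟩
    · simp [h1, h2, sg]
    · simp [h1, h2, sg]

theorem mem_clo {a b : K → β} {C : Finset K} : C ∈ clo a b ↔
    (∀ c ∈ C, ∃ c' ∈ C, c' ≠ c ∧ a c' = a c) ∧ (∀ c ∈ C, ∃ c' ∈ C, c' ≠ c ∧ b c' = b c) := by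
  simp [clo]

theorem partner_of_dbl {a : K → β} {c : K} (h : a c ∈ dbl a) : ∃ c', c' ≠ c ∧ a c' = a c := by
  have h2 : (fib a (a c)).card = 2 := (Finset.mem_filter.1 h).2
  obtain ⟨x, y, hxy, hf⟩ := Finset.card_eq_two.1 h2
  have hx : a x = a c := mem_fib.1 (by rw [hf]; simp)
  have hy : a y = a c := mem_fib.1 (by rw [hf]; simp)
  by_cases h : x = c
  · exact ⟨y, fun h' => hxy (by rw [h, h']), hy⟩
  · exact ⟨x, h, hx⟩

theorem card_pairs_le (a b : K → β) :
    (((dbl a).powerset ×ˢ (dbl b).powerset).filter fun p =>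
      ∀ c, a c ∈ p.1 ↔ b c ∈ p.2).card ≤ (clo a b).card := by
  refine Finset.card_le_card_of_injOn (fun p => univ.filter fun c => a c ∈ p.1) ?_ ?_
  · intro p hp
    simp only [Finset.coe_filter, Finset.mem_product, Finset.mem_powerset, Set.mem_ofPred_eq] at hp
    obtain ⟨⟨h1, h2⟩, h3⟩ := hp
    simp only [Finset.mem_coe, mem_clo, Finset.mem_filter, Finset.mem_univ, true_and]
    constructor
    · intro c hc
      obtain ⟨c', hc', he⟩ := partner_of_dbl (h1 hc)
      exact ⟨c', by rw [he]; exact hc, hc', he⟩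
    · intro c hc
      obtain ⟨c', hc', he⟩ := partner_of_dbl (h2 ((h3 c).1 hc))
      exact ⟨c', by rw [h3, he]; exact (h3 c).1 hc, hc', he⟩
  · intro p hp q hq hpq
    simp only [Finset.coe_filter, Finset.mem_product, Finset.mem_powerset, Set.mem_ofPred_eq] at hp hq
    obtain ⟨⟨h1, h2⟩, h3⟩ := hp
    obtain ⟨⟨k1, k2⟩, k3⟩ := hq
    have key : ∀ c, a c ∈ p.1 ↔ a c ∈ q.1 := by
      intro c
      have := Finset.ext_iff.1 hpq c
      simpa using this
    have ima : ∀ {a : K → β} {v : β}, v ∈ dbl a → ∃ c, a c = v := by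
      intro a v hv
      obtain ⟨c, _, hc⟩ := Finset.mem_image.1 (Finset.mem_filter.1 hv).1
      exact ⟨c, hc⟩
    refine Prod.ext ?_ ?_
    · ext v
      constructor
      · intro hv
        obtain ⟨c, rfl⟩ := ima (h1 hv)
        exact (key c).1 hv
      · intro hv
        obtain ⟨c, rfl⟩ := ima (k1 hv)
        exact (key c).2 hv
    · ext v
      constructor
      · intro hv
        obtain ⟨c, rfl⟩ := ima (h2 hv)
        exact (k3 c).1 ((key c).1 ((h3 c).2 hv))
      · intro hv
        obtain ⟨c, rfl⟩ := ima (k2 hv)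
        exact (h3 c).1 ((key c).2 ((k3 c).2 hv))

theorem compat_le {a b : K → β} : ((compat a b).card : ℤ) * 2 ^ ((dbl a).card + (dbl b).card) ≤
    2 ^ Fintype.card K * (clo a b).card := by
  have h1 : ((compat a b).card : ℤ) * 2 ^ ((dbl a).card + (dbl b).card) ≤
      ∑ s : K → Bool, (∏ v ∈ dbl a, (1 - chv a s v)) * (∏ v ∈ dbl b, (1 - chv b s v)) := by
    have h2 : ((compat a b).card : ℤ) * 2 ^ ((dbl a).card + (dbl b).card) =
        ∑ s ∈ compat a b, (∏ v ∈ dbl a, (1 - chv a s v)) * (∏ v ∈ dbl b, (1 - chv b s v)) := by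
      rw [← nsmul_eq_mul, ← Finset.sum_const]
      refine Finset.sum_congr rfl fun s hs => ?_
      have hs' := (Finset.mem_filter.1 hs).2
      rw [Finset.prod_congr rfl fun v hv => by rw [chv_eq_neg_one hs'.1 hv],
        Finset.prod_congr (s₁ := dbl b) rfl fun v hv => by rw [chv_eq_neg_one hs'.2 hv]]
      rw [Finset.prod_const, Finset.prod_const, pow_add]
      norm_num
    rw [h2]
    refine Finset.sum_le_sum_of_subset_of_nonneg (Finset.subset_univ _) fun s _ _ => ?_
    refine mul_nonneg (Finset.prod_nonneg fun v _ => ?_) (Finset.prod_nonneg fun v _ => ?_)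
    · have := chv_le a s v; linarith
    · have := chv_le b s v; linarith
  refine h1.trans ?_
  have h3 : ∀ s : K → Bool, (∏ v ∈ dbl a, (1 - chv a s v)) * (∏ v ∈ dbl b, (1 - chv b s v)) =
      ∑ p ∈ (dbl a).powerset ×ˢ (dbl b).powerset, (-1) ^ (p.1.card + p.2.card) *
        ((∏ v ∈ p.1, chv a s v) * (∏ v ∈ p.2, chv b s v)) := by
    intro s
    have e : ∀ (a : K → β), ∏ v ∈ dbl a, (1 - chv a s v) =
        ∑ A ∈ (dbl a).powerset, (-1) ^ A.card * ∏ v ∈ A, chv a s v := by
      intro a
      have : ∀ v, 1 - chv a s v = 1 + (-1) * chv a s v := by intro v; ring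
      simp only [this]
      rw [Finset.prod_one_add]
      refine Finset.sum_congr rfl fun A _ => ?_
      rw [Finset.prod_mul_distrib, Finset.prod_const]
    rw [e a, e b, Finset.sum_mul_sum, Finset.sum_product]
    refine Finset.sum_congr rfl fun A _ => Finset.sum_congr rfl fun B _ => ?_
    rw [pow_add]; ring
  simp only [h3]
  rw [Finset.sum_comm]
  simp only [← Finset.mul_sum]
  simp only [sum_chars]
  calc ∑ p ∈ (dbl a).powerset ×ˢ (dbl b).powerset, (-1 : ℤ) ^ (p.1.card + p.2.card) *
        (if (∀ c, a c ∈ p.1 ↔ b c ∈ p.2) then 2 ^ Fintype.card K else 0)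
      ≤ ∑ p ∈ (dbl a).powerset ×ˢ (dbl b).powerset,
        (if (∀ c, a c ∈ p.1 ↔ b c ∈ p.2) then (2 : ℤ) ^ Fintype.card K else 0) := by
        refine Finset.sum_le_sum fun p _ => ?_
        split_ifs
        · have : (-1 : ℤ) ^ (p.1.card + p.2.card) ≤ 1 := by
            rcases neg_one_pow_eq_or ℤ (p.1.card + p.2.card) with h | h <;> rw [h]; norm_num
          nlinarith [pow_pos (show (0 : ℤ) < 2 by norm_num) (Fintype.card K)]
        · simp
    _ = 2 ^ Fintype.card K * (((dbl a).powerset ×ˢ (dbl b).powerset).filter fun p =>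
        ∀ c, a c ∈ p.1 ↔ b c ∈ p.2).card := by
        rw [← Finset.sum_filter, Finset.sum_const, nsmul_eq_mul, mul_comm]
    _ ≤ 2 ^ Fintype.card K * (clo a b).card := by
        have := card_pairs_le a b
        gcongr

/-- **Node lemma.** -/
theorem node_lemma {a b : K → β} (ha : Fib2 a) (hb : Fib2 b) :
    (compat a b).card * 2 ^ Fintype.card K ≤
      2 ^ ((univ.image a).card + (univ.image b).card) * (clo a b).card := by
  have h := compat_le (a := a) (b := b)
  have h1 := card_eq_dbl ha
  have h2 := card_eq_dbl hb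
  have h' : (compat a b).card * 2 ^ ((dbl a).card + (dbl b).card) ≤
      2 ^ Fintype.card K * (clo a b).card := by exact_mod_cast h
  have e1 : 2 ^ Fintype.card K * 2 ^ Fintype.card K =
      2 ^ ((univ.image a).card + (univ.image b).card) * 2 ^ ((dbl a).card + (dbl b).card) := by
    rw [← pow_add, ← pow_add]
    congr 1
    omega
  have h0 : 0 < 2 ^ ((dbl a).card + (dbl b).card) := by positivity
  refine Nat.le_of_mul_le_mul_right ?_ h0
  calc (compat a b).card * 2 ^ Fintype.card K * 2 ^ ((dbl a).card + (dbl b).card)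
      = ((compat a b).card * 2 ^ ((dbl a).card + (dbl b).card)) * 2 ^ Fintype.card K := by ring
    _ ≤ (2 ^ Fintype.card K * (clo a b).card) * 2 ^ Fintype.card K :=
        Nat.mul_le_mul_right _ h'
    _ = (2 ^ Fintype.card K * 2 ^ Fintype.card K) * (clo a b).card := by ring
    _ = _ := by rw [e1]; ring

end node

end Vale.Agent.ThorpO
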