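import Vale.Agent.ThorpO.Defs
import Vale.Agent.Thorp.PartC
import Vale.Agent.Thorp.PartD
import Vale.Agent.Thorp.Assemble

/-!
# P162: the pass operator on the flat model in a representation
-/

open scoped InnerProductSpace
open Equiv Finset

namespace Vale.Agent.ThorpO

/-- Pass over the bits `r - 1, …, 0` in a representation (bit `r - 1` acts first). -/
noncomputable def passR {V : Type*} [NormedAddCommGroup V] [InnerProductSpace ℝ V] {m : ℕ}
    (ρ : Perm (Pos m) →* (V →L[ℝ] V)) : ℕ → (V →L[ℝ] V)
  | 0 => 1
  | r + 1 => passR ρ r * Thorp.mat ρ (fl r)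

/-- The operator of one pass in the regular representation. -/
noncomputable def PP (m : ℕ) :
    EuclideanSpace ℝ (Perm (Pos m)) →L[ℝ] EuclideanSpace ℝ (Perm (Pos m)) :=
  passR (Thorp.reg (Pos m)) m

end Vale.Agent.ThorpO
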