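import Vale.Agent.ThorpO.Basic
import Vale.Agent.ThorpO.Node
import Vale.Agent.ThorpO.Orbs

/-!
# P162, part STAR
-/

namespace Vale.Agent.ThorpO

open Equiv Finset

/-! ### Probability of prescribed coins -/

section prescribed

variable {d : ℕ}

/-- Probability that the coins of level `r` at the switches of `W` take prescribed values. -/
theorem av_prescribed {r : ℕ} (hr : r < d) (W : Finset (Pos d)) (v : Pos d → Bool) :
    av (fun ω : Coins d => if ∀ w ∈ W, coin ω r w = v w then (1 : ℝ) else 0) =
      ((2 : ℝ) ^ W.card)⁻¹ := by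
  classical
  unfold av
  rw [Finset.sum_boole]
  set t : Fin d × Pos d → Finset Bool := fun j =>
    if j.1 = ⟨r, hr⟩ ∧ j.2 ∈ W then {v j.2} else univ with ht
  have h1 : (univ.filter fun ω : Coins d => ∀ w ∈ W, coin ω r w = v w) = Fintype.piFinset t := by
    ext ω
    simp only [Finset.mem_filter, Finset.mem_univ, true_and, Fintype.mem_piFinset]
    constructor
    · intro h j
      rw [ht]
      dsimp only
      split_ifs with hj
      · rw [Finset.mem_singleton, ← h j.2 hj.2, coin, dif_pos hr]
        congr 1
        exact Prod.ext hj.1 rfl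
      · exact Finset.mem_univ _
    · intro h w hw
      have := h (⟨r, hr⟩, w)
      rw [ht] at this
      dsimp only at this
      rw [if_pos ⟨rfl, hw⟩, Finset.mem_singleton] at this
      rw [coin, dif_pos hr, this]
  rw [h1, Fintype.card_piFinset]
  have h2 : ∏ j, (t j).card = 2 ^ ((univ : Finset (Fin d × Pos d)).filter
      fun j => ¬ (j.1 = ⟨r, hr⟩ ∧ j.2 ∈ W)).card := by
    rw [← Finset.prod_const, Finset.prod_filter]
    refine Finset.prod_congr rfl fun j _ => ?_
    rw [ht]
    dsimp only
    by_cases hj : j.1 = ⟨r, hr⟩ ∧ j.2 ∈ W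
    · rw [if_pos hj, if_neg (not_not.2 hj)]; rfl
    · rw [if_neg hj, if_pos hj]; rfl
  have h3 : ((univ : Finset (Fin d × Pos d)).filter fun j => (j.1 = ⟨r, hr⟩ ∧ j.2 ∈ W)).card =
      W.card := by
    have : ((univ : Finset (Fin d × Pos d)).filter fun j => (j.1 = ⟨r, hr⟩ ∧ j.2 ∈ W)) =
        W.map ⟨fun w => (⟨r, hr⟩, w), fun a b h => (Prod.ext_iff.1 h).2⟩ := by
      ext ⟨i, w⟩
      simp only [Finset.mem_filter, Finset.mem_univ, true_and, Finset.mem_map]
      constructor
      · rintro ⟨rfl, hw⟩
        exact ⟨w, hw, rfl⟩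
      · rintro ⟨w', hw', h⟩
        cases h
        exact ⟨rfl, hw'⟩
    rw [this, Finset.card_map]
  have h4 := Finset.card_filter_add_card_filter_not (s := (univ : Finset (Fin d × Pos d)))
    (fun j => (j.1 = ⟨r, hr⟩ ∧ j.2 ∈ W))
  rw [h3, Finset.card_univ] at h4
  have h5 : (Fintype.card (Coins d) : ℝ) = 2 ^ W.card * ((∏ j, (t j).card : ℕ) : ℝ) := by
    rw [h2, Fintype.card_fun, Fintype.card_bool, ← h4, pow_add]
    push_cast
    ring
  have h6 : ((∏ j, (t j).card : ℕ) : ℝ) ≠ 0 := by
    rw [h2]
    push_cast
    positivity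
  rw [h5]
  field_simp

end prescribed

/-! ### Dependence on the coins -/

section dependence

variable {d : ℕ}

/-- Coins of level `r`. -/
def lev (d r : ℕ) : Fin d × Pos d → Prop := fun j => j.1.val = r

instance (r : ℕ) : DecidablePred (lev d r) := fun j => inferInstanceAs (Decidable (j.1.val = r))

theorem coin_mix_eq (r : ℕ) (ω' ω : Coins d) (z : Pos d) :
    coin (mix (lev d r) ω' ω) r z = coin ω' r z := by
  by_cases h : r < d
  · simp [coin, h, mix, lev]
  · simp [coin, h]

theorem coin_mix_ne {r i : ℕ} (hi : i ≠ r) (ω' ω : Coins d) (z : Pos d) :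
    coin (mix (lev d r) ω' ω) i z = coin ω i z := by
  by_cases h : i < d
  · simp [coin, h, mix, lev, hi]
  · simp [coin, h]

theorem lay_congr {r : ℕ} {ω ω' : Coins d} (h : ∀ z, coin ω r z = coin ω' r z) :
    lay r ω = lay r ω' := by
  ext1 z
  rw [lay_apply, lay_apply, h]

theorem net_congr {ωi ωo ωi' ωo' : Coins d} {r : ℕ}
    (hi : ∀ l < r, ∀ z, coin ωi l z = coin ωi' l z)
    (ho : ∀ l < r, ∀ z, coin ωo l z = coin ωo' l z) : net ωi ωo r = net ωi' ωo' r := by
  induction r with
  | zero => rfl
  | succ r ih =>
    rw [net, net, ih (fun l hl => hi l (by omega)) (fun l hl => ho l (by omega)),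
      lay_congr (ho r (by omega)), lay_congr (hi r (by omega))]

theorem HH_congr {ωi ωo ωi' ωo' : Coins d} {r : ℕ}
    (hi : ∀ l < r, ∀ z, coin ωi l z = coin ωi' l z)
    (ho : ∀ l < r, ∀ z, coin ωo l z = coin ωo' l z) : HH ωi ωo r = HH ωi' ωo' r := by
  unfold HH
  rw [net_congr hi ho]

theorem YY_congr {ωi ωo ωi' ωo' : Coins d} {r : ℕ}
    (hi : ∀ l < r, ∀ z, coin ωi l z = coin ωi' l z)
    (ho : ∀ l < r, ∀ z, coin ωo l z = coin ωo' l z) (O : Finset (Pos d)) :
    YY ωi ωo r O = YY ωi' ωo' r O := by
  induction r generalizing O with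
  | zero => rfl
  | succ r ih =>
    rw [YY, YY, ih (fun l hl => hi l (by omega)) (fun l hl => ho l (by omega)),
      HH_congr (fun l hl => hi l (by omega)) (fun l hl => ho l (by omega)),
      lay_congr (hi r (by omega))]

end dependence

/-! ### Closed sets of cards give invariant sets of positions -/

section closed

variable {d k : ℕ}

theorem clo_card_le {ωi ωo : Coins d} {r : ℕ} (hr : r < d) {x y x' y' : Fin k → Pos d}
    (hx : Function.Injective x') (hy : Function.Injective y')
    (hxx : ∀ c, clr r (x' c) = clr r (x c)) (hyy : ∀ c, clr r (y' c) = clr r (y c))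
    (hxinj : Function.Injective x)
    (hnet : ∀ c, net ωi ωo r (x' c) = y' c) :
    (clo (fun c => clr r (x c)) (fun c => clr r (y c))).card ≤
      2 ^ orbs (HH ωi ωo r) (DD r (univ.image x)) := by
  classical
  -- partners
  have px : ∀ c c', c' ≠ c → clr r (x c') = clr r (x c) → x' c' = fl r (x' c) := by
    intro c c' hne h
    rw [← hxx, ← hxx] at h
    rcases eq_or_eq_fl_of_clr h with h1 | h1
    · exact absurd (hx h1) hne
    · exact h1
  have py : ∀ c c', c' ≠ c → clr r (y c') = clr r (y c) → y' c' = fl r (y' c) := by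
    intro c c' hne h
    rw [← hyy, ← hyy] at h
    rcases eq_or_eq_fl_of_clr h with h1 | h1
    · exact absurd (hy h1) hne
    · exact h1
  refine le_trans ?_ (card_inv_le (HH ωi ωo r) (DD r (univ.image x)))
  refine Finset.card_le_card_of_injOn
    (fun C => (C.image x').filter fun z => bit z r = false) ?_ ?_
  · intro C hC
    rw [Finset.mem_coe, mem_clo] at hC
    obtain ⟨hCa, hCb⟩ := hC
    rw [Finset.mem_coe, Finset.mem_filter, Finset.mem_powerset]
    constructor
    · intro z hz
      rw [Finset.mem_filter, Finset.mem_image] at hz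
      obtain ⟨⟨c, hc, rfl⟩, hb⟩ := hz
      obtain ⟨c', hc', hne, he⟩ := hCa c hc
      -- both positions of the switch are occupied
      have h1 : x' c = x c ∨ x' c = fl r (x c) := eq_or_eq_fl_of_clr (hxx c)
      have h2 : x c' = fl r (x c) := by
        rcases eq_or_eq_fl_of_clr he with h | h
        · exact absurd (hxinj h) hne
        · exact h
      have m1 : x c ∈ univ.image x := Finset.mem_image_of_mem _ (Finset.mem_univ _)
      have m2 : fl r (x c) ∈ univ.image x := by
        rw [← h2]; exact Finset.mem_image_of_mem _ (Finset.mem_univ _)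
      rw [DD, Finset.mem_filter]
      rcases h1 with h1 | h1
      · rw [h1] at hb ⊢
        exact ⟨m1, hb, m2⟩
      · rw [h1] at hb ⊢
        refine ⟨m2, hb, ?_⟩
        rw [fl_fl]; exact m1
    · intro z hz
      rw [Finset.mem_filter, Finset.mem_image] at hz ⊢
      obtain ⟨⟨c, hc, rfl⟩, hb⟩ := hz
      obtain ⟨c2, hc2, hne2, he2⟩ := hCb c hc
      obtain ⟨c3, hc3, hne3, he3⟩ := hCa c2 hc2
      have e1 : HH ωi ωo r (x' c) = x' c3 := by
        unfold HH
        rw [Perm.mul_apply, Perm.mul_apply, Perm.mul_apply, hnet, flP_apply, flP_apply,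
          ← py c c2 hne2 he2, px c2 c3 hne3 he3]
        congr 1
        rw [Perm.inv_eq_iff_eq]
        exact (hnet c2).symm
      have b1 : bit (x' c2) r = bit (y' c2) r := by
        rw [← hnet c2, bit_net_ge le_rfl]
      have b0 : bit (x' c) r = bit (y' c) r := by
        rw [← hnet c, bit_net_ge le_rfl]
      refine ⟨⟨c3, hc3, e1.symm⟩, ?_⟩
      rw [e1, px c2 c3 hne3 he3, bit_fl hr, b1, py c c2 hne2 he2, bit_fl hr, ← b0, hb]
      rfl
  · intro C hC C' hC' h
    rw [Finset.mem_coe, mem_clo] at hC hC'
    have key : ∀ C : Finset (Fin k), (∀ c ∈ C, ∃ c' ∈ C, c' ≠ c ∧ clr r (x c') = clr r (x c)) →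
        ∀ c, c ∈ C ↔ (x' c ∈ (C.image x').filter (fun z => bit z r = false) ∨
          fl r (x' c) ∈ (C.image x').filter (fun z => bit z r = false)) := by
      intro C hCa c
      constructor
      · intro hc
        by_cases hb : bit (x' c) r = false
        · left
          rw [Finset.mem_filter]
          exact ⟨Finset.mem_image_of_mem _ hc, hb⟩
        · right
          obtain ⟨c', hc', hne, he⟩ := hCa c hc
          rw [← px c c' hne he, Finset.mem_filter]
          refine ⟨Finset.mem_image_of_mem _ hc', ?_⟩
          rw [px c c' hne he, bit_fl hr]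
          simpa using hb
      · rintro (h | h)
        · rw [Finset.mem_filter, Finset.mem_image] at h
          obtain ⟨⟨c', hc', he⟩, _⟩ := h
          rwa [← hx he]
        · rw [Finset.mem_filter, Finset.mem_image] at h
          obtain ⟨⟨c', hc', he⟩, _⟩ := h
          obtain ⟨c2, hc2, hne2, he2⟩ := hCa c' hc'
          have := px c' c2 hne2 he2
          rw [he, fl_fl] at this
          rwa [← hx this]
    ext c
    simp only at h
    rw [key C hC.1 c, key C' hC'.1 c, h]

end closed

/-! ### The main induction -/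

section main

variable {d k : ℕ}

theorem fib2_clr {r : ℕ} {x : Fin k → Pos d} (hx : Function.Injective x) :
    Fib2 (fun c => clr r (x c)) := by
  intro c1 c2 c3 h12 h13
  simp only at h12 h13
  rcases eq_or_eq_fl_of_clr h12 with h | h
  · left; exact hx h
  · rcases eq_or_eq_fl_of_clr h13 with h' | h'
    · right; left; exact hx h'
    · right; right
      apply hx
      apply fl_injective r
      rw [← h, ← h']

theorem av_layer_le {r : ℕ} (hr : r < d) (x : Fin k → Pos d) (u : Fin k → Bool) :
    av (fun ω : Coins d => if ∀ c, coin ω r (clr r (x c)) = u c then (1 : ℝ) else 0) ≤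
      ((2 : ℝ) ^ (univ.image fun c => clr r (x c)).card)⁻¹ := by
  classical
  set W := univ.image fun c => clr r (x c) with hW
  have hch : ∀ w : Pos d, ∃ b : Bool, ∀ ω : Coins d,
      (∀ c, coin ω r (clr r (x c)) = u c) → w ∈ W → coin ω r w = b := by
    intro w
    by_cases hw : w ∈ W
    · obtain ⟨c, _, hc⟩ := Finset.mem_image.1 hw
      refine ⟨u c, fun ω h _ => ?_⟩
      rw [← hc]; exact h c
    · exact ⟨false, fun ω _ h => absurd h hw⟩
  choose v hv using hch
  rw [← av_prescribed hr W v]
  apply av_mono
  intro ω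
  by_cases h : ∀ c, coin ω r (clr r (x c)) = u c
  · rw [if_pos h, if_pos fun w hw => hv w ω h hw]
  · rw [if_neg h]
    split_ifs <;> norm_num

theorem star_aux (r : ℕ) (hrd : r ≤ d) : ∀ (x y : Fin k → Pos d), Function.Injective x →
    Function.Injective y → (∀ c, ∀ i, r ≤ i → bit (x c) i = bit (y c) i) →
    (av fun ωi : Coins d => av fun ωo : Coins d =>
      if ∀ c, net ωi ωo r (x c) = y c then ((2 : ℝ) ^ YY ωi ωo r (univ.image x))⁻¹ else 0) ≤
      (((2 : ℝ) ^ r) ^ k)⁻¹ := by
  classical
  induction r with
  | zero =>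
    intro x y _ _ _
    have : (((2 : ℝ) ^ 0) ^ k)⁻¹ = 1 := by simp
    rw [this]
    refine (av_mono (G := fun _ => 1) fun ωi => (av_mono (G := fun _ => 1) fun ωo => ?_).trans
      (av_const 1).le).trans (av_const 1).le
    rw [YY]
    split_ifs <;> norm_num
  | succ r ih =>
    intro x y hx hy hxy
    have hr : r < d := by omega
    set a : Fin k → Pos d := fun c => clr r (x c) with ha
    set b : Fin k → Pos d := fun c => clr r (y c) with hb
    set xs : (Fin k → Bool) → Fin k → Pos d := fun s c => setb r (s c) (x c) with hxs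
    set ys : (Fin k → Bool) → Fin k → Pos d := fun s c => setb r (s c) (y c) with hys
    set w : ℝ := ((clo a b).card : ℝ) with hw
    have hw1 : 1 ≤ w := by
      rw [hw]
      have : 0 < (clo a b).card := Finset.card_pos.2 ⟨∅, by rw [mem_clo]; simp⟩
      exact_mod_cast this
    set A : (Fin k → Bool) → Coins d → ℝ := fun s ω =>
      if ∀ c, coin ω r (clr r (x c)) = xor (bit (x c) r) (s c) then 1 else 0 with hA
    set B : (Fin k → Bool) → Coins d → ℝ := fun s ω =>
      if ∀ c, coin ω r (clr r (y c)) = xor (bit (y c) r) (s c) then 1 else 0 with hB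
    set C : (Fin k → Bool) → Coins d → Coins d → ℝ := fun s ωi ωo =>
      if ∀ c, net ωi ωo r (xs s c) = ys s c then
        ((2 : ℝ) ^ YY ωi ωo r (univ.image (xs s)))⁻¹ else 0 with hC
    have hA0 : ∀ s ω, 0 ≤ A s ω := fun s ω => by rw [hA]; dsimp only; split_ifs <;> norm_num
    have hB0 : ∀ s ω, 0 ≤ B s ω := fun s ω => by rw [hB]; dsimp only; split_ifs <;> norm_num
    have hC0 : ∀ s ωi ωo, 0 ≤ C s ωi ωo := fun s ωi ωo => by
      rw [hC]; dsimp only; split_ifs
      · positivity
      · exact le_rfl
    -- injectivity of the inner positions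
    have hinj : ∀ {z : Fin k → Pos d} {s : Fin k → Bool},
        (∀ c c', c ≠ c' → clr r (z c) = clr r (z c') → s c ≠ s c') →
        Function.Injective fun c => setb r (s c) (z c) := by
      intro z s hs c c' h
      by_contra hne
      have h1 : clr r (z c) = clr r (z c') := by
        have := congrArg (clr r) h
        simpa only [clr_setb] using this
      have h2 := congrArg (fun z => bit z r) h
      simp only [bit_setb hr] at h2
      exact hs c c' hne h1 h2
    -- pointwise bound
    have hpt : ∀ ωi ωo : Coins d,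
        (if ∀ c, net ωi ωo (r + 1) (x c) = y c then
          ((2 : ℝ) ^ YY ωi ωo (r + 1) (univ.image x))⁻¹ else 0) ≤
        ∑ s ∈ compat a b, w⁻¹ * (A s ωi * (B s ωo * C s ωi ωo)) := by
      intro ωi ωo
      have hnn : ∀ s ∈ compat a b, 0 ≤ w⁻¹ * (A s ωi * (B s ωo * C s ωi ωo)) := fun s _ =>
        mul_nonneg (inv_nonneg.2 (by linarith)) (mul_nonneg (hA0 _ _) (mul_nonneg (hB0 _ _)
          (hC0 _ _ _)))
      by_cases hev : ∀ c, net ωi ωo (r + 1) (x c) = y c
      · rw [if_pos hev]
        set s : Fin k → Bool := fun c => bit (lay r ωi (x c)) r with hs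
        have h1 : ∀ c, lay r ωi (x c) = xs s c := by
          intro c
          rw [hxs, hs]
          dsimp only
          rw [lay_eq_setb, bit_setb hr]
        have h2 : ∀ c, net ωi ωo r (lay r ωi (x c)) = ys s c := by
          intro c
          have e1 : lay r ωo (net ωi ωo r (lay r ωi (x c))) = y c := hev c
          have e2 : net ωi ωo r (lay r ωi (x c)) = lay r ωo (y c) := by
            rw [← e1]
            exact (layF_layF r ωo _).symm
          have e3 : bit (lay r ωo (y c)) r = s c := by
            rw [← e2, bit_net_ge le_rfl]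
          rw [e2, hys]
          dsimp only
          rw [← e3, lay_eq_setb, bit_setb hr]
        have hxsi : Function.Injective (xs s) := by
          have : xs s = fun c => lay r ωi (x c) := by funext c; exact (h1 c).symm
          rw [this]
          exact (lay r ωi).injective.comp hx
        have hysi : Function.Injective (ys s) := by
          have : ys s = fun c => net ωi ωo r (lay r ωi (x c)) := by
            funext c; exact (h2 c).symm
          rw [this]
          exact (net ωi ωo r).injective.comp ((lay r ωi).injective.comp hx)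
        have hsc : s ∈ compat a b := by
          rw [mem_compat]
          refine ⟨fun c c' hne hcl hsc => hne (hxsi ?_),
            fun c c' hne hcl hsc => hne (hysi ?_)⟩
          · rw [hxs]; dsimp only; rw [hsc]; exact setb_eq_of_clr hcl _
          · rw [hys]; dsimp only; rw [hsc]; exact setb_eq_of_clr hcl _
        refine le_trans ?_ (Finset.single_le_sum hnn hsc)
        have hAs : A s ωi = 1 := by
          rw [hA]; dsimp only
          rw [if_pos]
          intro c
          rw [hs]; dsimp only
          rw [lay_eq_setb, bit_setb hr]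
          cases bit (x c) r <;> simp
        have hBs : B s ωo = 1 := by
          rw [hB]; dsimp only
          rw [if_pos]
          intro c
          have e1 : lay r ωo (ys s c) = y c := by rw [← h2 c]; exact hev c
          have e2 : bit (lay r ωo (ys s c)) r = bit (y c) r := by rw [e1]
          rw [lay_eq_setb, bit_setb hr, hys] at e2
          dsimp only at e2
          rw [bit_setb hr, clr_setb] at e2
          rw [← e2]
          cases s c <;> simp
        have hCs : C s ωi ωo = ((2 : ℝ) ^ YY ωi ωo r (univ.image (xs s)))⁻¹ := by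
          rw [hC]; dsimp only
          rw [if_pos]
          intro c
          rw [← h1 c, h2 c]
        rw [hAs, hBs, hCs, one_mul, one_mul, YY, pow_add, mul_inv]
        have e3 : (univ.image x).image (lay r ωi) = univ.image (xs s) := by
          rw [Finset.image_image]
          exact Finset.image_congr fun c _ => h1 c
        rw [e3]
        refine mul_le_mul_of_nonneg_right ?_ (by positivity)
        apply inv_anti₀ (by linarith)
        have := clo_card_le (ωi := ωi) (ωo := ωo) hr (x := x) (y := y) hxsi hysi
          (fun c => clr_setb _) (fun c => clr_setb _) hx (fun c => by rw [← h1 c, h2 c])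
        rw [hw]
        exact_mod_cast this
      · rw [if_neg hev]
        exact Finset.sum_nonneg hnn
    -- averages
    have havA : ∀ s, av (A s) ≤ ((2 : ℝ) ^ (univ.image a).card)⁻¹ := fun s =>
      av_layer_le hr x _
    have havB : ∀ s, av (B s) ≤ ((2 : ℝ) ^ (univ.image b).card)⁻¹ := fun s =>
      av_layer_le hr y _
    have havC : ∀ s ∈ compat a b, (av fun ωi => av fun ωo => C s ωi ωo) ≤
        (((2 : ℝ) ^ r) ^ k)⁻¹ := by
      intro s hs
      have hs' := mem_compat.1 hs
      refine ih (by omega) (xs s) (ys s) (hinj hs'.1) (hinj hs'.2) fun c i hi => ?_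
      rcases eq_or_lt_of_le hi with h | h
      · rw [← h, hxs, hys]; dsimp only
        rw [bit_setb hr, bit_setb hr]
      · rw [hxs, hys]; dsimp only
        rw [bit_setb_ne (by omega), bit_setb_ne (by omega)]
        exact hxy c i h
    have hprod : ∀ s ∈ compat a b, (av fun ωi => av fun ωo => A s ωi * (B s ωo * C s ωi ωo)) ≤
        ((2 : ℝ) ^ (univ.image a).card)⁻¹ * (((2 : ℝ) ^ (univ.image b).card)⁻¹ *
          (((2 : ℝ) ^ r) ^ k)⁻¹) := by
      intro s hs
      have e1 : ∀ ωi, (av fun ωo => A s ωi * (B s ωo * C s ωi ωo)) =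
          A s ωi * (av (B s) * av fun ωo => C s ωi ωo) := by
        intro ωi
        rw [av_mul_left, av_mul_of_indep (lev d r)]
        · intro ω' ω
          rw [hB]; dsimp only
          simp only [coin_mix_eq]
        · intro ω' ω
          rw [hC]; dsimp only
          rw [net_congr (ωi' := ωi) (ωo' := ω) (fun l _ z => rfl)
            (fun l hl z => coin_mix_ne (by omega) _ _ _),
            YY_congr (ωi' := ωi) (ωo' := ω) (fun l _ z => rfl)
            (fun l hl z => coin_mix_ne (by omega) _ _ _)]
      have e2 : (av fun ωi => av fun ωo => A s ωi * (B s ωo * C s ωi ωo)) =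
          av (A s) * (av (B s) * av fun ωi => av fun ωo => C s ωi ωo) := by
        simp only [e1]
        rw [av_mul_of_indep (lev d r) (F := A s)]
        · rw [av_mul_left]
        · intro ω' ω
          rw [hA]; dsimp only
          simp only [coin_mix_eq]
        · intro ω' ω
          congr 1
          refine av_congr fun ωo => ?_
          rw [hC]; dsimp only
          rw [net_congr (ωi' := ω) (ωo' := ωo)
            (fun l hl z => coin_mix_ne (by omega) _ _ _) (fun l _ z => rfl),
            YY_congr (ωi' := ω) (ωo' := ωo)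
            (fun l hl z => coin_mix_ne (by omega) _ _ _) (fun l _ z => rfl)]
      rw [e2]
      have hC1 := havC s hs
      have hC2 : 0 ≤ av fun ωi => av fun ωo => C s ωi ωo :=
        av_nonneg fun ωi => av_nonneg fun ωo => hC0 _ _ _
      have hB2 : 0 ≤ av (B s) := av_nonneg fun ω => hB0 _ _
      have hB1 := havB s
      exact mul_le_mul (havA s) (mul_le_mul hB1 hC1 hC2 (by positivity))
        (mul_nonneg hB2 hC2) (by positivity)
    calc (av fun ωi : Coins d => av fun ωo : Coins d =>
          if ∀ c, net ωi ωo (r + 1) (x c) = y c then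
            ((2 : ℝ) ^ YY ωi ωo (r + 1) (univ.image x))⁻¹ else 0)
        ≤ av fun ωi : Coins d => av fun ωo : Coins d =>
          ∑ s ∈ compat a b, w⁻¹ * (A s ωi * (B s ωo * C s ωi ωo)) :=
          av_mono fun ωi => av_mono fun ωo => hpt ωi ωo
      _ = ∑ s ∈ compat a b, w⁻¹ * (av fun ωi => av fun ωo => A s ωi * (B s ωo * C s ωi ωo)) := by
          simp only [av_sum, av_mul_left]
      _ ≤ ∑ _s ∈ compat a b, w⁻¹ * (((2 : ℝ) ^ (univ.image a).card)⁻¹ *
          (((2 : ℝ) ^ (univ.image b).card)⁻¹ * (((2 : ℝ) ^ r) ^ k)⁻¹)) :=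
          Finset.sum_le_sum fun s hs => mul_le_mul_of_nonneg_left (hprod s hs)
            (inv_nonneg.2 (by linarith))
      _ = ((compat a b).card * 2 ^ k) * (w⁻¹ * (((2 : ℝ) ^ (univ.image a).card)⁻¹ *
          (((2 : ℝ) ^ (univ.image b).card)⁻¹ * (((2 : ℝ) ^ (r + 1)) ^ k)⁻¹))) := by
          rw [Finset.sum_const, nsmul_eq_mul, pow_succ, mul_pow, mul_inv _ ((2 : ℝ) ^ k)]
          have : (2 : ℝ) ^ k ≠ 0 := by positivity
          field_simp
      _ ≤ (2 ^ ((univ.image a).card + (univ.image b).card) * w) *
          (w⁻¹ * (((2 : ℝ) ^ (univ.image a).card)⁻¹ *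
          (((2 : ℝ) ^ (univ.image b).card)⁻¹ * (((2 : ℝ) ^ (r + 1)) ^ k)⁻¹))) := by
          have h := node_lemma (fib2_clr (r := r) hx) (fib2_clr (r := r) hy)
          rw [Fintype.card_fin] at h
          have h' : ((compat a b).card : ℝ) * 2 ^ k ≤
              2 ^ ((univ.image a).card + (univ.image b).card) * w := by
            rw [hw]
            exact_mod_cast h
          have : 0 ≤ w⁻¹ := inv_nonneg.2 (by linarith)
          exact mul_le_mul_of_nonneg_right h' (by positivity)
      _ = (((2 : ℝ) ^ (r + 1)) ^ k)⁻¹ := by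
          rw [pow_add]
          have hw0 : w ≠ 0 := by linarith
          field_simp

/-- **Part STAR.** -/
theorem star (d k : ℕ) (x y : Fin k ↪ Pos d) :
    (av fun ωi : Coins d => av fun ωo : Coins d =>
      if ∀ c, net ωi ωo d (x c) = y c then ((2 : ℝ) ^ YY ωi ωo d (univ.image x))⁻¹ else 0) ≤
      (((2 : ℝ) ^ d) ^ k)⁻¹ :=
  star_aux d le_rfl x y x.injective y.injective fun c i hi => by
    rw [bit_of_ge hi, bit_of_ge hi]

end main

end Vale.Agent.ThorpO
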