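import Vale.Agent.ThorpO.Star
import Vale.Agent.ThorpO.Chain

/-!
# P162, part TRACE: combinatorial lemmas
-/

namespace Vale.Agent.ThorpO

open Equiv Finset

section coll

variable {d : ℕ}

open Classical in
/-- Number of cards whose subcube of dimension `h` already contains an earlier card. -/
noncomputable def coll (h : ℕ) {m : ℕ} (x : Fin m → Pos d) : ℕ :=
  (univ.filter fun i => ∃ j, j < i ∧ ∀ l, h ≤ l → bit (x j) l = bit (x i) l).card

theorem coll_congr {h m : ℕ} {x y : Fin m → Pos d}
    (hxy : ∀ i l, h ≤ l → bit (x i) l = bit (y i) l) : coll h x = coll h y := by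
  classical
  unfold coll
  congr 1
  apply Finset.filter_congr
  intro i _
  constructor
  · rintro ⟨j, hj, h1⟩
    exact ⟨j, hj, fun l hl => by rw [← hxy j l hl, ← hxy i l hl, h1 l hl]⟩
  · rintro ⟨j, hj, h1⟩
    exact ⟨j, hj, fun l hl => by rw [hxy j l hl, hxy i l hl, h1 l hl]⟩

theorem clr_eq_self {z : Pos d} {r : ℕ} (h : bit z r = false) : clr r z = z := by
  apply bit_ext
  intro i _
  by_cases hi : i = r
  · rw [hi, bit_clr, h]
  · rw [bit_clr_ne hi]

theorem card_DD_le_coll {h m r : ℕ} (hr : r < h) (x : Fin m → Pos d)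
    (hrd : r < d) : (DD r (univ.image x)).card ≤ coll h x := by
  classical
  set S := univ.filter fun i => ∃ j, j < i ∧ ∀ l, h ≤ l → bit (x j) l = bit (x i) l with hS
  have hsub : DD r (univ.image x) ⊆ S.image fun i => clr r (x i) := by
    intro z hz
    rw [DD, Finset.mem_filter, Finset.mem_image, Finset.mem_image] at hz
    obtain ⟨⟨c, _, hc⟩, hb, ⟨c', _, hc'⟩⟩ := hz
    have hne : c ≠ c' := by
      intro h
      rw [h, hc'] at hc
      exact fl_ne hrd hc
    have hbits : ∀ l, h ≤ l → bit (x c) l = bit (x c') l := by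
      intro l hl
      rw [hc, hc', bit_fl_ne (by omega)]
    have hcl : clr r (x c) = z ∧ clr r (x c') = z := by
      rw [hc, hc', clr_fl]
      exact ⟨clr_eq_self hb, clr_eq_self hb⟩
    rw [Finset.mem_image]
    rcases lt_or_gt_of_ne hne with h1 | h1
    · refine ⟨c', ?_, hcl.2⟩
      rw [hS, Finset.mem_filter]
      exact ⟨Finset.mem_univ _, c, h1, hbits⟩
    · refine ⟨c, ?_, hcl.1⟩
      rw [hS, Finset.mem_filter]
      exact ⟨Finset.mem_univ _, c', h1, fun l hl => (hbits l hl).symm⟩
  calc (DD r (univ.image x)).card ≤ (S.image fun i => clr r (x i)).card := Finset.card_le_card hsub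
    _ ≤ S.card := Finset.card_image_le
    _ = coll h x := rfl

theorem image_image_fun {m : ℕ} (x : Fin m → Pos d) (g : Pos d → Pos d) :
    (univ.image x).image g = univ.image fun i => g (x i) := by
  rw [Finset.image_image]
  rfl

theorem YY_low {ωi ωo : Coins d} {h m r : ℕ} (hr : r ≤ h) (hrd : r ≤ d) (x : Fin m → Pos d) :
    YY ωi ωo r (univ.image x) ≤ r * coll h x := by
  induction r generalizing x with
  | zero => simp [YY]
  | succ r ih =>
    rw [YY, image_image_fun]
    have h1 := ih (by omega) (by omega) (fun i => lay r ωi (x i))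
    have h2 : coll h (fun i => lay r ωi (x i)) = coll h x := by
      apply coll_congr
      intro i l hl
      rw [bit_lay_ne (by omega)]
    rw [h2] at h1
    have h3 := (orbs_le_card (HH ωi ωo r) (DD r (univ.image x))).trans
      (card_DD_le_coll (show r < h by omega) x (by omega))
    calc orbs (HH ωi ωo r) (DD r (univ.image x)) + YY ωi ωo r (univ.image fun i => lay r ωi (x i))
        ≤ coll h x + r * coll h x := add_le_add h3 h1
      _ = (r + 1) * coll h x := by ring

theorem two_mul_card_DD_le {r : ℕ} (hr : r < d) (O : Finset (Pos d)) :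
    2 * (DD r O).card ≤ O.card := by
  classical
  have hdis : Disjoint (DD r O) ((DD r O).image (fl r)) := by
    rw [Finset.disjoint_left]
    intro z hz hz'
    obtain ⟨w, hw, rfl⟩ := Finset.mem_image.1 hz'
    have h1 := (Finset.mem_filter.1 hz).2.1
    have h2 := (Finset.mem_filter.1 hw).2.1
    rw [bit_fl hr, h2] at h1
    exact absurd h1 (by decide)
  have hsub : DD r O ∪ (DD r O).image (fl r) ⊆ O := by
    intro z hz
    rcases Finset.mem_union.1 hz with h | h
    · exact (Finset.mem_filter.1 h).1
    · obtain ⟨w, hw, rfl⟩ := Finset.mem_image.1 h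
      exact (Finset.mem_filter.1 hw).2.2
  have h1 := Finset.card_le_card hsub
  rw [Finset.card_union_of_disjoint hdis, Finset.card_image_of_injective _ (fl_injective r)] at h1
  omega

theorem YY_split (ωi : Coins d) (h s : ℕ) (hs : h + s ≤ d) {m : ℕ} (x : Fin m → Pos d) :
    ∃ D : ℕ → Finset (Pos d), (∀ r, ∀ z ∈ D r, bit z r = false) ∧ (∀ r, 2 * (D r).card ≤ m) ∧
      ∀ ωo, YY ωi ωo (h + s) (univ.image x) =
        ∑ r ∈ Finset.Ico h (h + s), orbs (HH ωi ωo r) (D r) +
          YY ωi ωo h (univ.image fun i => inP ωi h s (x i)) := by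
  induction s generalizing x with
  | zero =>
    refine ⟨fun _ => ∅, fun r z hz => absurd hz (Finset.notMem_empty z), fun r => by simp, ?_⟩
    intro ωo
    simp only [Nat.add_zero, Finset.Ico_self, Finset.sum_empty, Nat.zero_add]
    rfl
  | succ s ih =>
    obtain ⟨D, hD1, hD2, hD3⟩ := ih (by omega) (fun i => lay (h + s) ωi (x i))
    refine ⟨fun r => if r = h + s then DD (h + s) (univ.image x) else D r, ?_, ?_, ?_⟩
    · intro r z hz
      dsimp only at hz
      by_cases hr : r = h + s
      · rw [if_pos hr] at hz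
        rw [hr]
        exact (Finset.mem_filter.1 hz).2.1
      · rw [if_neg hr] at hz
        exact hD1 r z hz
    · intro r
      dsimp only
      by_cases hr : r = h + s
      · rw [if_pos hr]
        refine (two_mul_card_DD_le (by omega) _).trans ?_
        exact Finset.card_image_le.trans (by simp)
      · rw [if_neg hr]
        exact hD2 r
    · intro ωo
      have e1 : h + (s + 1) = (h + s) + 1 := rfl
      rw [e1, YY, image_image_fun, hD3 ωo, Finset.sum_Ico_succ_top (by omega)]
      dsimp only
      rw [if_pos rfl]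
      have e2 : ∑ r ∈ Finset.Ico h (h + s), orbs (HH ωi ωo r)
          (if r = h + s then DD (h + s) (univ.image x) else D r) =
          ∑ r ∈ Finset.Ico h (h + s), orbs (HH ωi ωo r) (D r) := by
        refine Finset.sum_congr rfl fun r hr => ?_
        rw [if_neg]
        have := (Finset.mem_Ico.1 hr).2
        omega
      rw [e2]
      have e3 : (univ.image fun i => inP ωi h s (lay (h + s) ωi (x i))) =
          univ.image fun i => inP ωi h (s + 1) (x i) := rfl
      rw [e3]
      ring

/-! ### Counting collisions -/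

theorem card_same_top (h : ℕ) (w : Pos d) :
    (univ.filter fun z : Pos d => ∀ l, h ≤ l → l < d → bit z l = bit w l).card ≤ 2 ^ h := by
  classical
  have : (univ : Finset (Fin h → Bool)).card = 2 ^ h := by simp
  rw [← this]
  refine Finset.card_le_card_of_injOn (fun z i => bit z i.val) (fun z _ => Finset.mem_univ _) ?_
  intro z hz z' hz' he
  simp only [Finset.coe_filter, Finset.mem_univ, true_and] at hz hz'
  apply bit_ext
  intro l hl
  by_cases hlh : l < h
  · exact congrFun he ⟨l, hlh⟩
  · exact (hz l (by omega) hl).trans (hz' l (by omega) hl).symm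

open Classical in
theorem coll_snoc (h : ℕ) {m : ℕ} (x : Fin m → Pos d) (z : Pos d) :
    coll h (Fin.snoc x z : Fin (m + 1) → Pos d) ≤
      coll h x + (if ∃ j, ∀ l, h ≤ l → bit (x j) l = bit z l then 1 else 0) := by
  unfold coll
  have hsub : (univ.filter fun i : Fin (m + 1) => ∃ j, j < i ∧ ∀ l, h ≤ l →
      bit ((Fin.snoc x z : Fin (m + 1) → Pos d) j) l =
        bit ((Fin.snoc x z : Fin (m + 1) → Pos d) i) l) ⊆
      ((univ.filter fun i => ∃ j, j < i ∧ ∀ l, h ≤ l → bit (x j) l = bit (x i) l).image
        Fin.castSucc) ∪ (if ∃ j, ∀ l, h ≤ l → bit (x j) l = bit z l then {Fin.last m} else ∅) := by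
    intro i hi
    rw [Finset.mem_filter] at hi
    obtain ⟨_, j, hj, hb⟩ := hi
    obtain ⟨j, rfl⟩ : ∃ j' : Fin m, j = j'.castSucc :=
      ⟨⟨j.val, by have := i.isLt; have : j.val < i.val := hj; omega⟩, rfl⟩
    rw [Finset.mem_union]
    rcases Fin.eq_castSucc_or_eq_last i with ⟨i', rfl⟩ | rfl
    · left
      rw [Finset.mem_image]
      refine ⟨i', ?_, rfl⟩
      rw [Finset.mem_filter]
      refine ⟨Finset.mem_univ _, j, Fin.castSucc_lt_castSucc_iff.1 hj, fun l hl => ?_⟩
      have := hb l hl
      rwa [Fin.snoc_castSucc, Fin.snoc_castSucc] at this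
    · right
      rw [if_pos]
      · exact Finset.mem_singleton_self _
      · refine ⟨j, fun l hl => ?_⟩
        have := hb l hl
        rwa [Fin.snoc_castSucc, Fin.snoc_last] at this
  refine (Finset.card_le_card hsub).trans ((Finset.card_union_le _ _).trans ?_)
  refine add_le_add Finset.card_image_le ?_
  split_ifs <;> simp

theorem sum_coll_le (h k : ℕ) : ∀ m, m ≤ k →
    ∑ x : Fin m → Pos d, (2 : ℝ) ^ (h * coll h x) ≤ ((2 : ℝ) ^ d + k * 4 ^ h) ^ m := by
  classical
  intro m
  induction m with
  | zero =>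
    intro _
    simp [coll]
  | succ m ih =>
    intro hm
    have ih' := ih (by omega)
    rw [← Equiv.sum_comp (Fin.snocEquiv fun _ : Fin (m + 1) => Pos d), Fintype.sum_prod_type,
      Finset.sum_comm]
    have h1 : ∀ x : Fin m → Pos d, ∑ z : Pos d,
        (2 : ℝ) ^ (h * coll h ((Fin.snocEquiv fun _ : Fin (m + 1) => Pos d) (z, x))) ≤
        (2 : ℝ) ^ (h * coll h x) * ((2 : ℝ) ^ d + k * 4 ^ h) := by
      intro x
      set T := univ.filter fun z : Pos d => ∃ j, ∀ l, h ≤ l → bit (x j) l = bit z l with hT
      have hTc : (T.card : ℝ) ≤ k * 2 ^ h := by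
        have hsub : T ⊆ univ.biUnion fun j : Fin m =>
            univ.filter fun z : Pos d => ∀ l, h ≤ l → l < d → bit z l = bit (x j) l := by
          intro z hz
          rw [hT, Finset.mem_filter] at hz
          obtain ⟨_, j, hj⟩ := hz
          rw [Finset.mem_biUnion]
          refine ⟨j, Finset.mem_univ _, ?_⟩
          rw [Finset.mem_filter]
          exact ⟨Finset.mem_univ _, fun l hl _ => (hj l hl).symm⟩
        have h2 : T.card ≤ m * 2 ^ h := by
          refine (Finset.card_le_card hsub).trans (Finset.card_biUnion_le.trans ?_)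
          refine (Finset.sum_le_sum fun j _ => card_same_top h (x j)).trans ?_
          simp
        have h3 : (T.card : ℝ) ≤ m * 2 ^ h := by exact_mod_cast h2
        refine h3.trans ?_
        have : (m : ℝ) ≤ k := by exact_mod_cast (by omega : m ≤ k)
        gcongr
      have hz : ∀ z : Pos d,
          (2 : ℝ) ^ (h * coll h ((Fin.snocEquiv fun _ : Fin (m + 1) => Pos d) (z, x))) ≤
          (2 : ℝ) ^ (h * coll h x) * (1 + if z ∈ T then 2 ^ h else 0) := by
        intro z
        have e : (Fin.snocEquiv fun _ : Fin (m + 1) => Pos d) (z, x) =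
            (Fin.snoc x z : Fin (m + 1) → Pos d) := rfl
        rw [e]
        have hc := coll_snoc h x z
        by_cases hzT : z ∈ T
        · have hzT' : ∃ j, ∀ l, h ≤ l → bit (x j) l = bit z l := (Finset.mem_filter.1 hzT).2
          rw [if_pos hzT'] at hc
          rw [if_pos hzT]
          calc (2 : ℝ) ^ (h * coll h (Fin.snoc x z : Fin (m + 1) → Pos d))
              ≤ 2 ^ (h * (coll h x + 1)) :=
                pow_le_pow_right₀ (by norm_num) (Nat.mul_le_mul_left _ hc)
            _ = 2 ^ (h * coll h x) * 2 ^ h := by rw [mul_add, mul_one, pow_add]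
            _ ≤ 2 ^ (h * coll h x) * (1 + 2 ^ h) := by
                have : (0 : ℝ) < 2 ^ (h * coll h x) := by positivity
                nlinarith
        · have hzT' : ¬ ∃ j, ∀ l, h ≤ l → bit (x j) l = bit z l := fun h' =>
            hzT (Finset.mem_filter.2 ⟨Finset.mem_univ _, h'⟩)
          rw [if_neg hzT', add_zero] at hc
          rw [if_neg hzT, add_zero, mul_one]
          exact pow_le_pow_right₀ (by norm_num) (Nat.mul_le_mul_left _ hc)
      refine (Finset.sum_le_sum fun z _ => hz z).trans ?_
      rw [← Finset.mul_sum]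
      refine mul_le_mul_of_nonneg_left ?_ (by positivity)
      rw [Finset.sum_add_distrib, Finset.sum_ite_mem, Finset.univ_inter, Finset.sum_const,
        Finset.sum_const, nsmul_eq_mul, nsmul_eq_mul]
      have e1 : ((univ : Finset (Pos d)).card : ℝ) = 2 ^ d := by simp
      rw [e1, mul_one]
      have e2 : (4 : ℝ) ^ h = 2 ^ h * 2 ^ h := by rw [← mul_pow]; norm_num
      rw [e2]
      have := mul_le_mul_of_nonneg_right hTc (show (0 : ℝ) ≤ 2 ^ h by positivity)
      linarith
    calc ∑ x : Fin m → Pos d, ∑ z : Pos d,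
        (2 : ℝ) ^ (h * coll h ((Fin.snocEquiv fun _ : Fin (m + 1) => Pos d) (z, x)))
        ≤ ∑ x : Fin m → Pos d, (2 : ℝ) ^ (h * coll h x) * ((2 : ℝ) ^ d + k * 4 ^ h) :=
          Finset.sum_le_sum fun x _ => h1 x
      _ = (∑ x : Fin m → Pos d, (2 : ℝ) ^ (h * coll h x)) * ((2 : ℝ) ^ d + k * 4 ^ h) := by
          rw [Finset.sum_mul]
      _ ≤ ((2 : ℝ) ^ d + k * 4 ^ h) ^ m * ((2 : ℝ) ^ d + k * 4 ^ h) :=
          mul_le_mul_of_nonneg_right ih' (by positivity)
      _ = _ := by rw [pow_succ]

end coll

end Vale.Agent.ThorpO
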